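import Crest.Agent.R171.Coc

/-! # R171, from Mathlib's group homology to cocycles -/

set_option autoImplicit false

open scoped commutatorElement

namespace Crest.Agent.R171

open CategoryTheory

variable {G G' : Type} [Group G] [Group G']

/-- Inhomogeneous chains with integer coefficients. -/
abbrev Ch (G : Type) (n : ℕ) : Type := (Fin n → G) →₀ ℤ

/-- The differential of Mathlib's complex of inhomogeneous chains. -/
noncomputable def dd (G : Type) [Group G] (n : ℕ) : Ch G (n + 1) →ₗ[ℤ] Ch G n :=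
  (groupHomology.inhomogeneousChains.d (Rep.trivial ℤ G ℤ) n).hom

/-- The map on chains induced by a homomorphism. -/
noncomputable def chMap (f : G →* G') (n : ℕ) : Ch G n →ₗ[ℤ] Ch G' n :=
  Finsupp.lmapDomain ℤ ℤ (fun x => f ∘ x)

theorem chMap_single (f : G →* G') (n : ℕ) (x : Fin n → G) (m : ℤ) :
    chMap f n (Finsupp.single x m) = Finsupp.single (f ∘ x) m := by
  simp [chMap]

theorem dd_two_single_aux (n : ℕ) (g : Fin (n + 1) → G) (m : ℤ) :
    dd G n (Finsupp.single g m) = Finsupp.single (fun i : Fin n => g i.succ) m +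
      ∑ j : Fin (n + 1), (-1 : ℤ) ^ ((j : ℕ) + 1) •
        Finsupp.single (Fin.contractNth j (· * ·) g) m :=
  groupHomology.inhomogeneousChains.d_single (A := Rep.trivial ℤ G ℤ) n g m

/-- B1. Hint: `groupHomology.inhomogeneousChains.d_single`, `Fin.sum_univ_succ`; compute
`Fin.contractNth j (· * ·) ![a, b, c]` by `funext i; fin_cases i <;> rfl` (or `simp [Fin.contractNth]`). -/
theorem dd_two_single (a b c : G) :
    dd G 2 (Finsupp.single ![a, b, c] 1) = Finsupp.single ![b, c] 1 - Finsupp.single ![a * b, c] 1 +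
      Finsupp.single ![a, b * c] 1 - Finsupp.single ![a, b] 1 := by
  rw [dd_two_single_aux]
  have e0 : (fun i : Fin 2 => ![a, b, c] i.succ) = ![b, c] := by
    funext i; fin_cases i <;> rfl
  have e1 : Fin.contractNth (0 : Fin 3) (· * ·) ![a, b, c] = ![a * b, c] := by
    funext i; fin_cases i <;> rfl
  have e2 : Fin.contractNth (1 : Fin 3) (· * ·) ![a, b, c] = ![a, b * c] := by
    funext i; fin_cases i <;> rfl
  have e3 : Fin.contractNth (2 : Fin 3) (· * ·) ![a, b, c] = ![a, b] := by
    funext i; fin_cases i <;> rfl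
  rw [Fin.sum_univ_three, e0, e1, e2, e3]
  norm_num
  abel

/-- B1. -/
theorem dd_three_single (a b c d : G) :
    dd G 3 (Finsupp.single ![a, b, c, d] 1) = Finsupp.single ![b, c, d] 1 -
      Finsupp.single ![a * b, c, d] 1 + Finsupp.single ![a, b * c, d] 1 -
      Finsupp.single ![a, b, c * d] 1 + Finsupp.single ![a, b, c] 1 := by
  rw [dd_two_single_aux]
  have e0 : (fun i : Fin 3 => ![a, b, c, d] i.succ) = ![b, c, d] := by
    funext i; fin_cases i <;> rfl
  have e1 : Fin.contractNth (0 : Fin 4) (· * ·) ![a, b, c, d] = ![a * b, c, d] := by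
    funext i; fin_cases i <;> rfl
  have e2 : Fin.contractNth (1 : Fin 4) (· * ·) ![a, b, c, d] = ![a, b * c, d] := by
    funext i; fin_cases i <;> rfl
  have e3 : Fin.contractNth (2 : Fin 4) (· * ·) ![a, b, c, d] = ![a, b, c * d] := by
    funext i; fin_cases i <;> rfl
  have e4 : Fin.contractNth (3 : Fin 4) (· * ·) ![a, b, c, d] = ![a, b, c] := by
    funext i; fin_cases i <;> rfl
  rw [Fin.sum_univ_four, e0, e1, e2, e3, e4]
  have h3 : ((3 : Fin 4) : ℕ) = 3 := rfl
  have h2 : ((2 : Fin 4) : ℕ) = 2 := rfl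
  norm_num [h3, h2]
  abel

/-- B1. Hint: `groupHomology.inhomogeneousChains.d_comp_d`. -/
theorem dd_dd (n : ℕ) (x : Ch G (n + 2)) : dd G n (dd G (n + 1) x) = 0 := by
  have h := groupHomology.inhomogeneousChains.d_comp_d (A := Rep.trivial ℤ G ℤ) (n := n)
  exact LinearMap.congr_fun (congrArg ModuleCat.Hom.hom h) x

/-- B1. Hint: `Finsupp.lhom_ext'`/induction and `d_single`, `Fin.comp_contractNth` (as in
`groupHomology.chainsMap`). -/
theorem chMap_dd (f : G →* G') (n : ℕ) (x : Ch G (n + 1)) :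
    chMap f n (dd G n x) = dd G' n (chMap f (n + 1) x) := by
  induction x using Finsupp.induction_linear with
  | zero => simp
  | add x y hx hy => simp only [map_add, hx, hy]
  | single g m =>
    rw [chMap_single, dd_two_single_aux, dd_two_single_aux, map_add, map_sum, chMap_single]
    congr 1
    refine Finset.sum_congr rfl fun j _ => ?_
    rw [map_smul, chMap_single, Fin.comp_contractNth (· * ·) (· * ·) (map_mul f)]

theorem mem_range_of_injective_iff (K : ChainComplex (ModuleCat.{0} ℤ) ℕ) (n : ℕ)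
    (z : K.cycles n) :
    (K.homologyπ n).hom z = 0 ↔ (K.iCycles n).hom z ∈ LinearMap.range (K.d (n + 1) n).hom := by
  have hp : (ComplexShape.down ℕ).prev n = n + 1 := by simp
  have hex := ShortComplex.exact_of_g_is_cokernel
    (ShortComplex.mk (K.toCycles (n + 1) n) (K.homologyπ n) (K.toCycles_comp_homologyπ _ _))
    (K.homologyIsCokernel (n + 1) n hp)
  have hd : ∀ y, (K.iCycles n).hom ((K.toCycles (n + 1) n).hom y) = (K.d (n + 1) n).hom y :=
    fun y => by rw [← K.toCycles_i (n + 1) n, ModuleCat.hom_comp, LinearMap.comp_apply]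
  constructor
  · intro h
    obtain ⟨y, hy⟩ := (ShortComplex.moduleCat_exact_iff _).1 hex z h
    exact ⟨y, by rw [← hd]; exact congrArg _ hy⟩
  · rintro ⟨y, hy⟩
    have hi : Function.Injective (K.iCycles n).hom :=
      (ModuleCat.mono_iff_injective _).1 inferInstance
    rw [← hi ((hd y).trans hy), ← LinearMap.comp_apply, ← ModuleCat.hom_comp,
      K.toCycles_comp_homologyπ]
    rfl

theorem mem_range_of_injective_aux {K L : ChainComplex (ModuleCat.{0} ℤ) ℕ} (φ : K ⟶ L) (n : ℕ)
    (hinj : Function.Injective (HomologicalComplex.homologyMap φ (n + 1)).hom) (ξ : K.X (n + 1))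
    (hξ : (K.d (n + 1) n).hom ξ = 0)
    (h : (φ.f (n + 1)).hom ξ ∈ LinearMap.range (L.d (n + 1 + 1) (n + 1)).hom) :
    ξ ∈ LinearMap.range (K.d (n + 1 + 1) (n + 1)).hom := by
  have hn : (ComplexShape.down ℕ).next (n + 1) = n := by simp
  have hz : (K.iCycles (n + 1)).hom (K.cyclesMk ξ n hn hξ) = ξ := K.i_cyclesMk ξ n hn hξ
  rw [← hz, ← mem_range_of_injective_iff]
  apply hinj
  rw [map_zero, ← LinearMap.comp_apply, ← ModuleCat.hom_comp,
    HomologicalComplex.homologyπ_naturality, ModuleCat.hom_comp, LinearMap.comp_apply,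
    mem_range_of_injective_iff, ← LinearMap.comp_apply, ← ModuleCat.hom_comp,
    HomologicalComplex.cyclesMap_i, ModuleCat.hom_comp, LinearMap.comp_apply, hz]
  exact h

/-- B2. Hint: let `z = groupHomology.cyclesMk 3 2 _ ξ _`.  A cycle `z` has `π A 3 z = 0` iff it is in the range
of `toCycles 4 3` (exactness: `HomologicalComplex.homologyπ` is the cokernel of `toCycles`,
`HomologicalComplex.homologyIsCokernel`, `ShortComplex.exact_of_g_is_cokernel`,
`ShortComplex.moduleCat_exact_iff`), and `iCycles` is injective with `toCycles ≫ iCycles = d`.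
`groupHomology.π_map_apply`, `HomologicalComplex.cyclesMap_i`, `chainsMap_f_single` identify
`iCycles (cyclesMap z)` with `chMap f 3 ξ`. -/
theorem mem_range_of_injective (f : G →* G')
    (F : Rep.trivial ℤ G ℤ ⟶ Rep.res f (Rep.trivial ℤ G' ℤ)) (hF : ∀ n : ℤ, F.hom n = n)
    (hinj : Function.Injective (groupHomology.map f F 3).hom) (ξ : Ch G 3) (hξ : dd G 2 ξ = 0)
    (h : chMap f 3 ξ ∈ LinearMap.range (dd G' 3)) : ξ ∈ LinearMap.range (dd G 3) := by
  have hd : ∀ (H : Type) [Group H] (n : ℕ),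
      ((groupHomology.inhomogeneousChains (Rep.trivial ℤ H ℤ)).d (n + 1) n).hom = dd H n := by
    intro H _ n
    rw [dd, ← groupHomology.inhomogeneousChains.d_def]
  have hc : ((groupHomology.chainsMap f F).f 3).hom = chMap f 3 := by
    refine Finsupp.lhom_ext fun x m => ?_
    rw [chMap_single]
    exact (groupHomology.chainsMap_f_single f F 3 x m).trans (by rw [hF])
  have := mem_range_of_injective_aux (groupHomology.chainsMap f F) 2 hinj ξ
    (by rw [hd]; exact hξ) (by rw [hd, hc]; exact h)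
  rwa [hd] at this

/-- The target of the universal 3-cocycle. -/
abbrev U3 (G : Type) [Group G] : Type := Ch G 3 ⧸ LinearMap.range (dd G 3)

/-- The universal 3-cocycle. -/
noncomputable def univ (G : Type) [Group G] (a b c : G) : U3 G :=
  Submodule.Quotient.mk (Finsupp.single ![a, b, c] 1)

/-- B3. Hint: `dd_three_single`, `Submodule.Quotient.mk_eq_zero`. -/
theorem isCoc3_univ : IsCoc3 (univ G) := by
  intro a b c d
  have h : (Submodule.Quotient.mk (dd G 3 (Finsupp.single ![a, b, c, d] 1)) : U3 G) = 0 :=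
    (Submodule.Quotient.mk_eq_zero _).2 (LinearMap.mem_range_self _ _)
  rw [dd_three_single] at h
  simpa only [univ, Submodule.Quotient.mk_add, Submodule.Quotient.mk_sub] using h

/-- B3. Hint: `Finsupp.linearCombination ℤ fun x => χ (x 0) (x 1) (x 2)` kills the range of `dd G 3`
(every `x : Fin 4 → G` is `![x 0, x 1, x 2, x 3]`); `Submodule.liftQ`. -/
theorem univ_lift {B : Type} [AddCommGroup B] {χ : G → G → G → B} (hχ : IsCoc3 χ) :
    ∃ ν : U3 G →+ B, ∀ x y z, χ x y z = ν (univ G x y z) := by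
  let L : Ch G 3 →ₗ[ℤ] B := Finsupp.linearCombination ℤ fun x : Fin 3 → G => χ (x 0) (x 1) (x 2)
  have hL : ∀ a b c : G, L (Finsupp.single ![a, b, c] 1) = χ a b c := by
    intro a b c
    simp [L]
  have hker : LinearMap.range (dd G 3) ≤ LinearMap.ker L := by
    rw [LinearMap.range_le_ker_iff]
    refine Finsupp.lhom_ext' fun x => LinearMap.ext_ring ?_
    have hx : x = ![x 0, x 1, x 2, x 3] := by
      funext i; fin_cases i <;> rfl
    change L (dd G 3 (Finsupp.single x 1)) = 0
    rw [hx, dd_three_single]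
    simp only [map_add, map_sub, hL]
    exact hχ _ _ _ _
  refine ⟨((LinearMap.range (dd G 3)).liftQ L hker).toAddMonoidHom, fun x y z => ?_⟩
  change χ x y z = (LinearMap.range (dd G 3)).liftQ L hker (Submodule.Quotient.mk _)
  rw [Submodule.liftQ_apply, hL]

/-- B3. Hint: `d` is induced by `dd G 2` (`dd_dd`), `μ` by `chMap f 3` (`chMap_dd`, `Submodule.mapQ`);
`θ a b = single ![a, b] 1`; `mem_range_of_injective`. -/
theorem bridge (f : G →* G')
    (F : Rep.trivial ℤ G ℤ ⟶ Rep.res f (Rep.trivial ℤ G' ℤ)) (hF : ∀ n : ℤ, F.hom n = n)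
    (hinj : Function.Injective (groupHomology.map f F 3).hom) :
    ∃ (θ : G → G → Ch G 2) (d : U3 G →+ Ch G 2) (μ : U3 G →+ U3 G'),
      (∀ x y z, cob θ x y z = d (univ G x y z)) ∧
      (∀ x y z, univ G' (f x) (f y) (f z) = μ (univ G x y z)) ∧
      ∀ ξ, d ξ = 0 → μ ξ = 0 → ξ = 0 := by
  have h1 : LinearMap.range (dd G 3) ≤ LinearMap.ker (dd G 2) := by
    rintro _ ⟨x, rfl⟩
    exact dd_dd 2 x
  have h2 : LinearMap.range (dd G 3) ≤ (LinearMap.range (dd G' 3)).comap (chMap f 3) := by
    rintro _ ⟨x, rfl⟩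
    exact ⟨chMap f 4 x, (chMap_dd f 3 x).symm⟩
  refine ⟨fun a b => Finsupp.single ![a, b] 1,
    ((LinearMap.range (dd G 3)).liftQ (dd G 2) h1).toAddMonoidHom,
    ((LinearMap.range (dd G 3)).mapQ (LinearMap.range (dd G' 3)) (chMap f 3) h2).toAddMonoidHom,
    fun x y z => ?_, fun x y z => ?_, fun ξ => ?_⟩
  · change _ = (LinearMap.range (dd G 3)).liftQ (dd G 2) h1 (Submodule.Quotient.mk _)
    rw [Submodule.liftQ_apply, dd_two_single]
    rfl
  · change _ = (LinearMap.range (dd G 3)).mapQ (LinearMap.range (dd G' 3)) (chMap f 3) h2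
      (Submodule.Quotient.mk _)
    rw [Submodule.mapQ_apply, chMap_single]
    have : f ∘ ![x, y, z] = ![f x, f y, f z] := by
      funext i; fin_cases i <;> rfl
    rw [this]
    rfl
  · obtain ⟨ξ, rfl⟩ := Submodule.Quotient.mk_surjective _ ξ
    intro hd hμ
    have hd' : dd G 2 ξ = 0 := hd
    have hμ' : (Submodule.Quotient.mk (chMap f 3 ξ) : U3 G') = 0 := hμ
    exact (Submodule.Quotient.mk_eq_zero _).2
      (mem_range_of_injective f F hF hinj ξ hd' ((Submodule.Quotient.mk_eq_zero _).1 hμ'))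

end Crest.Agent.R171
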