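import Mathlib

/-! # R171, cocycles, central extensions, slant product and the torus pairing -/

set_option autoImplicit false

open scoped commutatorElement

namespace Crest.Agent.R171

variable {G G' M M' : Type} [Group G] [Group G'] [AddCommGroup M] [AddCommGroup M']

/-- Inhomogeneous 3-cocycles with trivial coefficients. -/
def IsCoc3 (φ : G → G → G → M) : Prop :=
  ∀ a b c d, φ b c d - φ (a * b) c d + φ a (b * c) d - φ a b (c * d) + φ a b c = 0

/-- The coboundary of a 2-cochain. -/
def cob (θ : G → G → M) : G → G → G → M := fun a b c => θ b c - θ (a * b) c + θ a (b * c) - θ a b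

theorem isCoc3_cob (θ : G → G → M) : IsCoc3 (cob θ) := by
  intro a b c d
  simp only [cob, mul_assoc]; abel

/-- Slant product of a 3-cochain with an element. -/
def slant (φ : G → G → G → M) (C a b : G) : M := φ C a b - φ a C b + φ a b C

/-- The torus pairing: the value of `φ` on the 3-torus spanned by three commuting elements. -/
def tor (φ : G → G → G → M) (C a b : G) : M := slant φ C a b - slant φ C b a

theorem tor_swap (φ : G → G → G → M) (a b c : G) : tor φ a b c = -tor φ a c b := by
  simp only [tor]; abel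

theorem tor_cyc (φ : G → G → G → M) (a b c : G) : tor φ a b c = tor φ b c a := by
  simp only [tor, slant]; abel

/-- C1. The slant product is a 2-cocycle on the centraliser.  Hint: the alternating sum of the cocycle
identities for `(C,a,b,d)`, `(a,C,b,d)`, `(a,b,C,d)`, `(a,b,d,C)`; rewrite `C * a = a * C` etc.;
`linear_combination (exp := 1)` or `have := ..; abel_nf`. -/
theorem slant_coc {φ : G → G → G → M} (hφ : IsCoc3 φ) {C a b d : G} (ha : Commute C a)
    (hb : Commute C b) (hd : Commute C d) :
    slant φ C b d - slant φ C (a * b) d + slant φ C a (b * d) - slant φ C a b = 0 := by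
  have h1 := hφ C a b d
  have h2 := hφ a C b d
  have h3 := hφ a b C d
  have h4 := hφ a b d C
  rw [ha.eq] at h1
  rw [hb.eq] at h2
  rw [hd.eq] at h3
  simp only [slant]
  linear_combination (norm := abel1) -h1 + h2 - h3 + h4

/-- C1. Hint: `slant_coc` for `(a,b,b')`, `(b,a,b')`, `(b,b',a)`: (1) - (2) + (3). -/
theorem tor_mul_right {φ : G → G → G → M} (hφ : IsCoc3 φ) {C a b b' : G} (ha : Commute C a)
    (hb : Commute C b) (hb' : Commute C b') (hab : Commute a b) (hab' : Commute a b') :
    tor φ C a (b * b') = tor φ C a b + tor φ C a b' := by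
  have h1 := slant_coc hφ ha hb hb'
  have h2 := slant_coc hφ hb ha hb'
  have h3 := slant_coc hφ hb hb' ha
  rw [hab.eq] at h1
  rw [hab'.eq] at h2
  simp only [tor]
  linear_combination (norm := abel1) h1 - h2 + h3

/-- C1. Hint: `tor_mul_right` with `b = b' = 1`. -/
theorem tor_one_right {φ : G → G → G → M} (hφ : IsCoc3 φ) {C a : G} (ha : Commute C a) :
    tor φ C a 1 = 0 := by
  have h := tor_mul_right hφ ha (Commute.one_right C) (Commute.one_right C) (Commute.one_right a)
    (Commute.one_right a)
  rw [mul_one] at h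
  linear_combination (norm := abel1) -h

/-- C1. -/
theorem tor_inv_right {φ : G → G → G → M} (hφ : IsCoc3 φ) {C a b : G} (ha : Commute C a)
    (hb : Commute C b) (hab : Commute a b) : tor φ C a b⁻¹ = -tor φ C a b := by
  have h := tor_mul_right hφ ha hb hb.inv_right hab hab.inv_right
  rw [mul_inv_cancel, tor_one_right hφ ha] at h
  linear_combination (norm := abel1) -h

/-- C1. -/
theorem tor_comm_right {φ : G → G → G → M} (hφ : IsCoc3 φ) {C a b b' : G} (ha : Commute C a)
    (hb : Commute C b) (hb' : Commute C b') (hab : Commute a b) (hab' : Commute a b') :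
    tor φ C a ⁅b, b'⁆ = 0 := by
  rw [commutatorElement_def,
    tor_mul_right hφ ha ((hb.mul_right hb').mul_right hb.inv_right) hb'.inv_right
      ((hab.mul_right hab').mul_right hab.inv_right) hab'.inv_right,
    tor_mul_right hφ ha (hb.mul_right hb') hb.inv_right (hab.mul_right hab') hab.inv_right,
    tor_mul_right hφ ha hb hb' hab hab', tor_inv_right hφ ha hb hab, tor_inv_right hφ ha hb' hab']
  abel

/-- C1. Hint: `tor_swap` and `tor_mul_right`. -/
theorem tor_mul_mid {φ : G → G → G → M} (hφ : IsCoc3 φ) {C a a' b : G} (ha : Commute C a)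
    (ha' : Commute C a') (hb : Commute C b) (hab : Commute a b) (hab' : Commute a' b) :
    tor φ C (a * a') b = tor φ C a b + tor φ C a' b := by
  rw [tor_swap, tor_mul_right hφ hb ha ha' hab.symm hab'.symm, tor_swap φ C a b,
    tor_swap φ C a' b]
  abel

/-- Inhomogeneous 2-cocycles with trivial coefficients. -/
structure Coc2 (G M : Type) [Group G] [AddCommGroup M] where
  ψ : G → G → M
  coc : ∀ a b c, ψ b c - ψ (a * b) c + ψ a (b * c) - ψ a b = 0

theorem Coc2.one_left (c : Coc2 G M) (a : G) : c.ψ 1 a = c.ψ 1 1 := by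
  have := c.coc 1 1 a
  simp only [one_mul, sub_self, zero_add] at this
  exact sub_eq_zero.1 this

theorem Coc2.one_right (c : Coc2 G M) (a : G) : c.ψ a 1 = c.ψ 1 1 := by
  have := c.coc a 1 1
  simp only [mul_one, add_sub_cancel_right] at this
  exact (sub_eq_zero.1 this).symm

/-- The central extension defined by a 2-cocycle. -/
@[ext]
structure Ext (c : Coc2 G M) where
  fst : G
  snd : M

namespace Ext

variable {c : Coc2 G M}

instance : Mul (Ext c) := ⟨fun x y => ⟨x.fst * y.fst, x.snd + y.snd + c.ψ x.fst y.fst⟩⟩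
instance : One (Ext c) := ⟨⟨1, -c.ψ 1 1⟩⟩
instance : Inv (Ext c) := ⟨fun x => ⟨x.fst⁻¹, -x.snd - c.ψ x.fst⁻¹ x.fst - c.ψ 1 1⟩⟩

@[simp] theorem mul_fst (x y : Ext c) : (x * y).fst = x.fst * y.fst := rfl
@[simp] theorem mul_snd (x y : Ext c) : (x * y).snd = x.snd + y.snd + c.ψ x.fst y.fst := rfl
@[simp] theorem one_fst : (1 : Ext c).fst = 1 := rfl
@[simp] theorem one_snd : (1 : Ext c).snd = -c.ψ 1 1 := rfl
@[simp] theorem inv_fst (x : Ext c) : (x⁻¹).fst = x.fst⁻¹ := rfl
theorem inv_snd (x : Ext c) : (x⁻¹).snd = -x.snd - c.ψ x.fst⁻¹ x.fst - c.ψ 1 1 := rfl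

instance : Group (Ext c) :=
  Group.ofLeftAxioms
    (fun x y z => by
      ext
      · simp [mul_assoc]
      · have := c.coc x.fst y.fst z.fst
        simp only [mul_fst, mul_snd]
        rw [← sub_eq_zero, ← neg_eq_zero, ← this]; abel)
    (fun x => by
      ext
      · simp
      · simp only [mul_snd, one_snd, one_fst, c.one_left]; abel)
    (fun x => by
      ext
      · simp
      · simp only [mul_snd, inv_snd, inv_fst, one_snd]; abel)

/-- The projection of the extension. -/
def p (c : Coc2 G M) : Ext c →* G where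
  toFun := Ext.fst
  map_one' := rfl
  map_mul' _ _ := rfl

@[simp] theorem p_apply (x : Ext c) : p c x = x.fst := rfl

theorem p_surjective : Function.Surjective (p c) := fun g => ⟨⟨g, 0⟩, rfl⟩

theorem p_cen (x : Ext c) (hx : p c x = 1) (y : Ext c) : Commute x y := by
  have hx' : x.fst = 1 := hx
  ext
  · simp [hx']
  · simp only [mul_snd, hx', c.one_left, c.one_right]; abel

theorem commute_iff {x y : Ext c} :
    Commute x y ↔ Commute x.fst y.fst ∧ c.ψ x.fst y.fst = c.ψ y.fst x.fst := by
  constructor
  · intro h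
    refine ⟨congrArg Ext.fst h.eq, ?_⟩
    have := congrArg Ext.snd h.eq
    simp only [mul_snd] at this
    rw [add_comm y.snd] at this
    exact add_left_cancel this
  · rintro ⟨h1, h2⟩
    ext
    · exact h1.eq
    · simp only [mul_snd, h2]; abel

end Ext

/-- The slant product as a 2-cocycle on the centraliser. -/
def slantCoc {φ : G → G → G → M} (hφ : IsCoc3 φ) (C : G) :
    Coc2 (Subgroup.centralizer ({C} : Set G)) M where
  ψ a b := slant φ C a b
  coc a b d :=
    slant_coc hφ (Subgroup.mem_centralizer_singleton_iff.1 a.2).symm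
      (Subgroup.mem_centralizer_singleton_iff.1 b.2).symm
      (Subgroup.mem_centralizer_singleton_iff.1 d.2).symm

@[simp] theorem slantCoc_ψ {φ : G → G → G → M} (hφ : IsCoc3 φ) (C : G)
    (a b : Subgroup.centralizer ({C} : Set G)) : (slantCoc hφ C).ψ a b = slant φ C a b := rfl

theorem mem_cent {C a : G} : a ∈ Subgroup.centralizer ({C} : Set G) ↔ Commute C a := by
  rw [Subgroup.mem_centralizer_singleton_iff]; exact ⟨fun h => h.symm, fun h => h.eq.symm⟩

end Crest.Agent.R171
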