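import Crest.Agent.R171.Sys
import Crest.Agent.R171.Coc

/-! # R171, first order jets of the matrix representation and the trace cocycle -/

set_option autoImplicit false

open scoped commutatorElement

namespace Crest.Agent.R171

variable {R G B Λ : Type} [CommRing R] [Group G] [CommRing B] [Ring Λ] [Algebra B Λ]

/-- A matrix representation of a Steinberg system together with three derivations. -/
structure Jet (S : Sys ℕ R G) (B Λ : Type) [CommRing B] [Ring Λ] [Algebra B Λ] where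
  ρ : R →+* B
  D : Fin 3 → R →+ B
  D_mul : ∀ k r s, D k (r * s) = ρ r * D k s + D k r * ρ s
  E : ℕ → ℕ → Λ
  E_mul : ∀ i j k l, E i j * E k l = if j = k then E i l else 0
  τ : Λ →ₗ[B] B
  τ_comm : ∀ x y, τ (x * y) = τ (y * x)
  τ_E : ∀ i j, τ (E i j) = if i = j then 1 else 0
  π : G →* Λˣ
  δ : Fin 3 → G → Λ
  δ_mul : ∀ k g h, δ k (g * h) = (π g : Λ) * δ k h + δ k g * (π h : Λ)
  π_X : ∀ i j, i ≠ j → ∀ r, (π (S.X i j r) : Λ) = 1 + ρ r • E i j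
  δ_X : ∀ k i j, i ≠ j → ∀ r, δ k (S.X i j r) = D k r • E i j

namespace Jet

variable {S : Sys ℕ R G} (J : Jet S B Λ)

/-- The 3-cocycle `tr (δ₀ g · δ₁ h · δ₂ k · (g h k)⁻¹)`. -/
def φ (g h k : G) : B := J.τ (J.δ 0 g * J.δ 1 h * J.δ 2 k * (J.π (g * h * k)⁻¹ : Λ))

/-- The 2-cocycle `tr (δ₁ g · δ₂ h · (g h)⁻¹)`. -/
def c2 (g h : G) : B := J.τ (J.δ 1 g * J.δ 2 h * (J.π (g * h)⁻¹ : Λ))

/-- The logarithmic derivative `g⁻¹ δ₀ g`. -/
def θ (g : G) : Λ := (J.π g⁻¹ : Λ) * J.δ 0 g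

theorem π_mul (g h : G) : (J.π (g * h) : Λ) = J.π g * J.π h := by rw [map_mul, Units.val_mul]

theorem π_inv_mul (g : G) : (J.π g⁻¹ : Λ) * J.π g = 1 := by rw [← π_mul]; simp

theorem π_mul_inv (g : G) : (J.π g : Λ) * J.π g⁻¹ = 1 := by rw [← π_mul]; simp

theorem δ_one (k : Fin 3) : J.δ k 1 = 0 := by
  have := J.δ_mul k 1 1
  simpa using this

theorem δ_inv (k : Fin 3) (g : G) :
    J.δ k g⁻¹ = -((J.π g⁻¹ : Λ) * J.δ k g * J.π g⁻¹) := by
  have := J.δ_mul k g⁻¹ g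
  rw [inv_mul_cancel, δ_one] at this
  have h2 : J.δ k g⁻¹ * J.π g = -((J.π g⁻¹ : Λ) * J.δ k g) :=
    eq_neg_of_add_eq_zero_right this.symm
  calc J.δ k g⁻¹ = J.δ k g⁻¹ * J.π g * J.π g⁻¹ := by rw [mul_assoc, π_mul_inv, mul_one]
    _ = _ := by rw [h2, neg_mul]

theorem π_X_inv {i j : ℕ} (h : i ≠ j) (r : R) : (J.π (S.X i j r)⁻¹ : Λ) = 1 - J.ρ r • J.E i j := by
  rw [S.X_inv, J.π_X i j h, map_neg, neg_smul, sub_eq_add_neg]

theorem D_one (k : Fin 3) : J.D k 1 = 0 := by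
  have := J.D_mul k 1 1
  simpa using this

theorem ρ_mul_inv (u : Rˣ) : J.ρ u * J.ρ (u⁻¹ : Rˣ) = 1 := by rw [← map_mul]; simp

theorem D_inv (k : Fin 3) (u : Rˣ) :
    J.D k (u⁻¹ : Rˣ) = -(J.ρ (u⁻¹ : Rˣ) * J.ρ (u⁻¹ : Rˣ) * J.D k u) := by
  have h := J.D_mul k u (u⁻¹ : Rˣ)
  rw [Units.mul_inv, D_one] at h
  have h1 := J.ρ_mul_inv u
  linear_combination (-J.ρ (u⁻¹ : Rˣ)) * h - J.D k (u⁻¹ : Rˣ) * h1

/-- J1. Hint: with `W = π (g h k l)⁻¹`: `π (h k l)⁻¹ = W * π g`, `π (g h k)⁻¹ = π l * W`; `τ_comm`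
moves `π g` to the front; expand `δ_mul`; everything cancels (`map_add`, `mul_add`, `add_mul`,
`mul_assoc`, `abel`). -/
theorem isCoc3_φ : IsCoc3 J.φ := by
  intro a b c d
  obtain ⟨W, hW⟩ : ∃ W : Λ, W = J.π (a * b * c * d)⁻¹ := ⟨_, rfl⟩
  have e1 : (J.π (b * c * d)⁻¹ : Λ) = W * J.π a := by
    rw [hW, ← π_mul]; congr 2; group
  have e2 : (J.π (a * b * c)⁻¹ : Λ) = J.π d * W := by
    rw [hW, ← π_mul]; congr 2; group
  have e3 : (J.π (a * (b * c) * d)⁻¹ : Λ) = W := by rw [hW, mul_assoc a b c]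
  have e4 : (J.π (a * b * (c * d))⁻¹ : Λ) = W := by rw [hW, mul_assoc (a * b) c d]
  have e5 : J.φ b c d = J.τ (J.π a * (J.δ 0 b * J.δ 1 c * J.δ 2 d * W)) := by
    rw [φ, e1, ← mul_assoc _ W, J.τ_comm]
  rw [e5]
  simp only [φ]
  rw [e2, e3, e4, ← hW]
  simp only [J.δ_mul, mul_add, add_mul, map_add, mul_assoc]
  abel

/-- J1. Hint: two of the three terms vanish; `π (C a b)⁻¹ = π (a b)⁻¹ * π C⁻¹` and `τ_comm`. -/
theorem slant_φ {C : G} (h1 : J.δ 1 C = 0) (h2 : J.δ 2 C = 0) (a b : G) :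
    slant J.φ C a b = J.τ (J.θ C * J.δ 1 a * J.δ 2 b * (J.π (a * b)⁻¹ : Λ)) := by
  have e : (J.π (C * a * b)⁻¹ : Λ) = J.π (a * b)⁻¹ * J.π C⁻¹ := by
    rw [← π_mul]; congr 2; group
  simp only [slant, φ, h1, h2, mul_zero, zero_mul, map_zero, sub_zero, add_zero, e, θ]
  rw [← mul_assoc, J.τ_comm]
  simp only [mul_assoc]

/-- J2. Hint: `π_mul`, `π_X`, expand (`mul_add`, `add_mul`, `smul_mul_assoc`, `mul_smul_comm`, `E_mul`,
`smul_smul`, `ρ_mul_inv`), finish with `module` or `abel`. -/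
theorem π_w {p q : ℕ} (hpq : p ≠ q) (u : Rˣ) :
    (J.π (S.w p q u) : Λ) =
      1 - J.E p p - J.E q q + J.ρ u • J.E p q - J.ρ (u⁻¹ : Rˣ) • J.E q p := by
  have h1 := J.ρ_mul_inv u
  rw [Sys.w, π_mul, π_mul, J.π_X p q hpq, J.π_X q p hpq.symm, map_neg]
  generalize J.ρ u = a at h1 ⊢
  generalize J.ρ (u⁻¹ : Rˣ) = b at h1 ⊢
  simp only [mul_add, add_mul, one_mul, mul_one, smul_mul_assoc, mul_smul_comm, J.E_mul,
    hpq.symm, if_true, if_false, smul_zero, add_zero, smul_add]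
  linear_combination (norm := module) (-h1) • J.E p p + (-h1) • J.E q q + (-a * h1) • J.E p q

/-- J2. -/
theorem π_h {p q : ℕ} (hpq : p ≠ q) (u : Rˣ) :
    (J.π (S.h p q u) : Λ) = 1 + (J.ρ u - 1) • J.E p p + (J.ρ (u⁻¹ : Rˣ) - 1) • J.E q q := by
  rw [Sys.h, π_mul, J.π_w hpq, J.π_w hpq, inv_neg_one, Units.val_neg, Units.val_one, map_neg,
    map_one]
  simp only [mul_add, add_mul, mul_sub, sub_mul, one_mul, mul_one, smul_mul_assoc, mul_smul_comm,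
    J.E_mul, hpq, hpq.symm, if_true, if_false, smul_zero, add_zero, sub_zero, smul_add, smul_sub]
  module

/-- J3. Hint: Leibniz rule on the three letters, `D_inv`. -/
theorem δ_w (k : Fin 3) {p q : ℕ} (hpq : p ≠ q) (u : Rˣ) :
    J.δ k (S.w p q u) = J.D k u • J.E p q - J.D k (u⁻¹ : Rˣ) • J.E q p := by
  have h1 := J.ρ_mul_inv u
  have h0 := J.D_mul k u (u⁻¹ : Rˣ)
  rw [Units.mul_inv, D_one] at h0
  rw [Sys.w, J.δ_mul, J.δ_mul, π_mul, J.π_X p q hpq, J.π_X q p hpq.symm, J.δ_X k p q hpq,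
    J.δ_X k q p hpq.symm, map_neg, map_neg]
  generalize J.ρ u = a at *
  generalize J.ρ (u⁻¹ : Rˣ) = b at *
  generalize J.D k u = a' at *
  generalize J.D k (u⁻¹ : Rˣ) = b' at *
  simp only [mul_add, add_mul, one_mul, mul_one, smul_mul_assoc, mul_smul_comm, J.E_mul,
    if_true, if_neg hpq, if_neg hpq.symm, smul_zero, smul_add, smul_smul]
  match_scalars
  all_goals first
    | linear_combination h0
    | linear_combination a * h0 - 3 * a' * h1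
    | linear_combination a * h0 - a' * h1
    | ring

/-- J3. Hint: `δ k (w (-1)) = 0` by `δ_w`, `D_one`; `π_w`. -/
theorem δ_h (k : Fin 3) {p q : ℕ} (hpq : p ≠ q) (u : Rˣ) :
    J.δ k (S.h p q u) = J.D k u • J.E p p + J.D k (u⁻¹ : Rˣ) • J.E q q := by
  have h1 : J.D k ((-1 : Rˣ) : R) = 0 := by
    rw [Units.val_neg, Units.val_one, map_neg, D_one, neg_zero]
  have h2 : ((-1 : Rˣ)⁻¹ : Rˣ) = -1 := inv_neg_one
  have h3 : J.ρ ((-1 : Rˣ) : R) = -1 := by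
    rw [Units.val_neg, Units.val_one, map_neg, map_one]
  rw [Sys.h, J.δ_mul, J.δ_w k hpq, J.δ_w k hpq, J.π_w hpq (-1), h2, h1, h3]
  simp only [mul_add, add_mul, mul_sub, sub_mul, one_mul, mul_one, smul_mul_assoc, mul_smul_comm,
    J.E_mul, if_true, if_neg hpq, if_neg hpq.symm, smul_zero, zero_smul, mul_zero]
  module

theorem δ_h_eq_zero {k : Fin 3} {p q : ℕ} (hpq : p ≠ q) {u : Rˣ} (hu : J.D k u = 0) :
    J.δ k (S.h p q u) = 0 := by
  rw [J.δ_h k hpq, J.D_inv, hu]; simp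

/-- J4. Hint: `π (h p q u)⁻¹ = 1 + (ρ u⁻¹ - 1) • E p p + (ρ u - 1) • E q q` (multiply with `π_h`),
`δ_h`, `D_inv`. -/
theorem θ_h {p q : ℕ} (hpq : p ≠ q) (u : Rˣ) :
    J.θ (S.h p q u) = (J.D 0 u * J.ρ (u⁻¹ : Rˣ)) • (J.E p p - J.E q q) := by
  have h1 := J.ρ_mul_inv u
  have key : J.δ 0 (S.h p q u) =
      (J.π (S.h p q u) : Λ) * ((J.D 0 u * J.ρ (u⁻¹ : Rˣ)) • (J.E p p - J.E q q)) := by
    rw [J.δ_h 0 hpq, J.π_h hpq, J.D_inv]
    simp only [mul_smul_comm, mul_sub, add_mul, one_mul, smul_mul_assoc, J.E_mul, if_true,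
      if_neg hpq, if_neg hpq.symm, smul_zero]
    match_scalars
    · linear_combination (-J.D 0 u) * h1
    · ring
  rw [θ, key, ← mul_assoc, π_inv_mul, one_mul]

/-- J4. -/
theorem π_h_commute {p q : ℕ} (hpq : p ≠ q) (u : Rˣ) (k : ℕ) :
    Commute (J.π (S.h p q u) : Λ) (J.E k k) := by
  have hc : ∀ i, Commute (J.E i i) (J.E k k) := fun i => by
    rw [Commute, SemiconjBy, J.E_mul, J.E_mul]
    by_cases h : i = k
    · rw [h]
    · rw [if_neg h, if_neg (Ne.symm h)]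
  rw [J.π_h hpq]
  exact ((Commute.one_left _).add_left ((hc p).smul_left _)).add_left ((hc q).smul_left _)

/-- J4. -/
theorem θ_mul {g h : G} (hc : Commute (J.π h : Λ) (J.θ g)) : J.θ (g * h) = J.θ g + J.θ h := by
  have h1 : (J.π h⁻¹ : Λ) * (J.θ g * J.π h) = J.θ g := by
    rw [← hc.eq, ← mul_assoc, π_inv_mul, one_mul]
  calc J.θ (g * h) = (J.π h⁻¹ : Λ) * ((J.π g⁻¹ * J.π g) * J.δ 0 h) +
        (J.π h⁻¹ : Λ) * (J.θ g * J.π h) := by
        simp only [θ, mul_inv_rev, π_mul, J.δ_mul, mul_add, mul_assoc]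
    _ = _ := by rw [h1, π_inv_mul, one_mul, add_comm]; rfl

/-- J4. -/
theorem θ_inv {g : G} (hc : Commute (J.π g : Λ) (J.θ g)) : J.θ g⁻¹ = -J.θ g := by
  calc J.θ g⁻¹ = -((J.π g : Λ) * J.θ g * J.π g⁻¹) := by
        simp only [θ, inv_inv, δ_inv, mul_neg, mul_assoc]
    _ = _ := by rw [hc.eq, mul_assoc, π_mul_inv, mul_one]

/-- The elements on which left multiplication by `Θ` acts on `δ₁` as the scalar `κ`. -/
def K (Θ : Λ) (κ : B) : Subgroup G where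
  carrier := {g | Θ * J.δ 1 g = κ • J.δ 1 g ∧ Commute Θ (J.π g : Λ)}
  one_mem' := by simp [δ_one]
  mul_mem' := by
    rintro g h ⟨hg, hg'⟩ ⟨hh, hh'⟩
    refine ⟨?_, by rw [π_mul]; exact hg'.mul_right hh'⟩
    rw [J.δ_mul, mul_add, ← mul_assoc, ← mul_assoc, hg'.eq, mul_assoc, hh, hg, smul_add,
      mul_smul_comm, smul_mul_assoc]
  inv_mem' := by
    rintro g ⟨hg, hg'⟩
    have hi : Commute Θ (J.π g⁻¹ : Λ) := by rw [map_inv]; exact hg'.units_inv_right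
    refine ⟨?_, hi⟩
    rw [J.δ_inv, mul_neg, smul_neg, ← mul_assoc, ← mul_assoc, hi.eq, mul_assoc _ Θ, hg,
      mul_smul_comm, smul_mul_assoc]

theorem mem_K {Θ : Λ} {κ : B} {g : G} :
    g ∈ J.K Θ κ ↔ Θ * J.δ 1 g = κ • J.δ 1 g ∧ Commute Θ (J.π g : Λ) := Iff.rfl

end Jet

end Crest.Agent.R171
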