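import Crest.Agent.R171.Inv
import Crest.Agent.R171.Jet

/-! # R171, the invariant of the trace cocycle -/

set_option autoImplicit false

open scoped commutatorElement

namespace Crest.Agent.R171

variable {R G B Λ : Type} [CommRing R] [Group G] [CommRing B] [Ring Λ] [Algebra B Λ]

namespace Jet

variable {S : Sys ℕ R G} (J : Jet S B Λ)

theorem θ_CC_comm {p q : ℕ} (hpq : p ≠ q) (c : Rˣ) {x : Λ}
    (hx : x ∈ Submodule.span B (Set.range fun k => J.E k k)) :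
    Commute (J.π (S.h p q c) : Λ) x := by
  induction hx using Submodule.span_induction with
  | mem x hx => obtain ⟨k, rfl⟩ := hx; exact J.π_h_commute hpq c k
  | zero => exact Commute.zero_right _
  | add x y _ _ hx hy => exact hx.add_right hy
  | smul a x _ hx => exact hx.smul_right a

theorem θ_CC_mem {p q : ℕ} (hpq : p ≠ q) (c : Rˣ) :
    J.θ (S.h p q c) ∈ Submodule.span B (Set.range fun k => J.E k k) := by
  rw [J.θ_h hpq]
  exact Submodule.smul_mem _ _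
    (Submodule.sub_mem _ (Submodule.subset_span ⟨p, rfl⟩) (Submodule.subset_span ⟨q, rfl⟩))

/-- D1. Hint: `θ_mul`, `θ_inv`, `θ_h`; the commutation hypotheses follow from `π_h_commute`
(`Commute.smul_right`, `add_right`, `sub_right`; for `(h 1 3 c)⁻¹` use `map_inv`,
`Commute.units_inv_left`). -/
theorem θ_CC (c : Rˣ) :
    J.θ (S.CC c) = (J.D 0 c * J.ρ (c⁻¹ : Rˣ)) • (J.E 0 0 - J.E 2 2 - J.E 1 1 + J.E 3 3 + J.E 4 4
      - J.E 7 7 + J.E 5 5 - J.E 8 8 + J.E 6 6 - J.E 9 9) := by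
  have m02 := J.θ_CC_mem (show (0 : ℕ) ≠ 2 by decide) c
  have m13 := J.θ_CC_mem (show (1 : ℕ) ≠ 3 by decide) c
  have m47 := J.θ_CC_mem (show (4 : ℕ) ≠ 7 by decide) c
  have m58 := J.θ_CC_mem (show (5 : ℕ) ≠ 8 by decide) c
  have e1 : J.θ (S.h 1 3 c)⁻¹ = -J.θ (S.h 1 3 c) :=
    J.θ_inv (J.θ_CC_comm (by decide) c m13)
  have e2 : J.θ (S.h 0 2 c * (S.h 1 3 c)⁻¹) = J.θ (S.h 0 2 c) + -J.θ (S.h 1 3 c) := by
    rw [J.θ_mul, e1]
    rw [map_inv]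
    exact (J.θ_CC_comm (by decide) c m02).units_inv_left
  have n2 : J.θ (S.h 0 2 c * (S.h 1 3 c)⁻¹) ∈ Submodule.span B (Set.range fun k => J.E k k) := by
    rw [e2]; exact Submodule.add_mem _ m02 (Submodule.neg_mem _ m13)
  have e3 := J.θ_mul (J.θ_CC_comm (show (4 : ℕ) ≠ 7 by decide) c n2)
  have n3 : J.θ (S.h 0 2 c * (S.h 1 3 c)⁻¹ * S.h 4 7 c) ∈
      Submodule.span B (Set.range fun k => J.E k k) := by
    rw [e3]; exact Submodule.add_mem _ n2 m47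
  have e4 := J.θ_mul (J.θ_CC_comm (show (5 : ℕ) ≠ 8 by decide) c n3)
  have n4 : J.θ (S.h 0 2 c * (S.h 1 3 c)⁻¹ * S.h 4 7 c * S.h 5 8 c) ∈
      Submodule.span B (Set.range fun k => J.E k k) := by
    rw [e4]; exact Submodule.add_mem _ n3 m58
  have e5 := J.θ_mul (J.θ_CC_comm (show (6 : ℕ) ≠ 9 by decide) c n4)
  rw [Sys.CC, e5, e4, e3, e2, J.θ_h (by decide), J.θ_h (by decide), J.θ_h (by decide),
    J.θ_h (by decide), J.θ_h (by decide)]
  module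

theorem X_ip_mem_K_aux {Θ : Λ} {κ : B} {k l : ℕ} (h1 : Θ * J.E k l = κ • J.E k l)
    (h2 : J.E k l * Θ = κ • J.E k l) (r : R) : S.X k l r ∈ J.K Θ κ := by
  by_cases h : k = l
  · rw [h, S.diag]
    exact one_mem _
  refine ⟨?_, ?_⟩
  · rw [J.δ_X 1 k l h, mul_smul_comm, h1, smul_comm]
  · rw [J.π_X k l h]
    exact (Commute.one_right _).add_right (Commute.smul_right (h1.trans h2.symm) _)

/-- D2. Hint: if `i = j` the element is `1`.  Otherwise `θ_CC`, `E_mul` give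
`θ * E (ip i) l = λ • E (ip i) l` and `E l (ip j) * θ = λ • E l (ip j)` (`fin_cases`, `simp [ip]`);
`π_X`, `δ_X`. -/
theorem X_ip_mem_K (c : Rˣ) (i j : Fin 5) (r : R) :
    S.X (ip i) (ip j) r ∈ J.K (J.θ (S.CC c)) (J.D 0 c * J.ρ (c⁻¹ : Rˣ)) := by
  refine J.X_ip_mem_K_aux ?_ ?_ r
  · rw [θ_CC, smul_mul_assoc]
    congr 1
    generalize ip j = l
    fin_cases i <;> simp [ip, add_mul, sub_mul, J.E_mul]
  · rw [θ_CC, mul_smul_comm]
    congr 1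
    generalize ip i = l
    fin_cases j <;> simp [ip, mul_add, mul_sub, J.E_mul]

/-- D2. -/
theorem X_im_mem_K (c : Rˣ) (i j : Fin 5) (r : R) :
    S.X (im i) (im j) r ∈ J.K (J.θ (S.CC c)) (-(J.D 0 c * J.ρ (c⁻¹ : Rˣ))) := by
  refine J.X_ip_mem_K_aux ?_ ?_ r
  · rw [θ_CC, smul_mul_assoc, neg_smul, ← smul_neg]
    congr 1
    generalize im j = l
    fin_cases i <;> simp [im, add_mul, sub_mul, J.E_mul]
  · rw [θ_CC, mul_smul_comm, neg_smul, ← smul_neg]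
    congr 1
    generalize im i = l
    fin_cases j <;> simp [im, mul_add, mul_sub, J.E_mul]

/-- D2. Hint: `δ_mul`, `δ_inv`, `δ_h_eq_zero`. -/
theorem δ_CC {k : Fin 3} {c : Rˣ} (hc : J.D k c = 0) : J.δ k (S.CC c) = 0 := by
  simp only [Sys.CC, J.δ_mul, J.δ_inv, J.δ_h_eq_zero (show (0 : ℕ) ≠ 2 by decide) hc,
    J.δ_h_eq_zero (show (1 : ℕ) ≠ 3 by decide) hc, J.δ_h_eq_zero (show (4 : ℕ) ≠ 7 by decide) hc,
    J.δ_h_eq_zero (show (5 : ℕ) ≠ 8 by decide) hc, J.δ_h_eq_zero (show (6 : ℕ) ≠ 9 by decide) hc,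
    mul_zero, zero_mul, neg_zero, add_zero]

theorem c2_X_X_E {i j k l : ℕ} (hjk : j ≠ k) : J.E i j * J.E k l = 0 := by
  rw [J.E_mul, if_neg hjk]

/-- D3. Values of `c2` needed for the Steinberg relations.  Hint: `δ_X`, `E_mul`. -/
theorem c2_X_X {i j k l : ℕ} (hij : i ≠ j) (hkl : k ≠ l) (hjk : j ≠ k) (a b : R) :
    J.c2 (S.X i j a) (S.X k l b) = 0 := by
  rw [c2, J.δ_X 1 i j hij, J.δ_X 2 k l hkl, smul_mul_smul_comm, J.c2_X_X_E hjk, smul_zero,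
    zero_mul, map_zero]

/-- D3. Hint: `E i l * π (x_ij(a) x_jl(b))⁻¹ = E i l` (`mul_inv_rev`, `π_X_inv`), `τ_E`. -/
theorem c2_X_X' {i j l : ℕ} (hij : i ≠ j) (hjl : j ≠ l) (hil : i ≠ l) (a b : R) :
    J.c2 (S.X i j a) (S.X j l b) = 0 := by
  rw [c2, J.δ_X 1 i j hij, J.δ_X 2 j l hjl, smul_mul_smul_comm, J.E_mul, if_pos rfl, mul_inv_rev,
    J.π_mul, J.π_X_inv hjl, J.π_X_inv hij, smul_mul_assoc, ← mul_assoc, mul_sub (J.E i l), mul_one,
    mul_smul_comm, J.c2_X_X_E hjl.symm, smul_zero, sub_zero, mul_sub, mul_one, mul_smul_comm,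
    J.c2_X_X_E hil.symm, smul_zero, sub_zero, map_smul, J.τ_E, if_neg hil, smul_zero]

/-- D3. Hint: `δ 1 (x_il(r) x_jl(b)) * E i j = 0`. -/
theorem c2_XX_X {i j l : ℕ} (hij : i ≠ j) (hjl : j ≠ l) (hil : i ≠ l) (r a b : R) :
    J.c2 (S.X i l r * S.X j l b) (S.X i j a) = 0 := by
  have h : J.δ 1 (S.X i l r * S.X j l b) * J.E i j = 0 := by
    rw [J.δ_mul, J.δ_X 1 i l hil, J.δ_X 1 j l hjl, J.π_X j l hjl, add_mul, mul_assoc,
      smul_mul_assoc, J.c2_X_X_E hil.symm, smul_zero, mul_zero, zero_add, mul_assoc, add_mul,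
      one_mul, smul_mul_assoc (J.ρ b), J.c2_X_X_E hil.symm, smul_zero, add_zero, smul_mul_assoc,
      J.c2_X_X_E hil.symm, smul_zero]
  rw [c2, J.δ_X 2 i j hij, mul_smul_comm, h, smul_zero, zero_mul, map_zero]

section

variable {L : Type} [Group L] (f : L →* G) (c : Coc2 L B) (T : Sys (Fin 5) R L) (ι : Fin 5 → ℕ)
  (hι : Function.Injective ι) (hT : ∀ i j r, f (T.X i j r) = S.X (ι i) (ι j) r) (K : Subgroup G)
  (hK : ∀ i j r, S.X (ι i) (ι j) r ∈ K) (κ : B)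
  (hψ : ∀ x y, f x ∈ K → c.ψ x y = κ * J.c2 (f x) (f y))
include hι hT hK hψ

/-- D4. Hint: the elements `⟨T.X i j r, 0⟩` form a `Sys (Fin 5) R (Ext c)` (`c.ψ 1 1 = 0` as `δ 1 = 0`;
`add`, `comm`: `c2_X_X`, `Ext.commute_iff`; `mul`: show `x * y = z * y * x` with `c2_X_X'`, `c2_X_X`,
`c2_XX_X`), whose image under `Ext.p c` is `T`; `Sys.eq_lift`. -/
theorem lift_X_snd (i j : Fin 5) (r : R) : ((T.lift c).X i j r).snd = 0 := by
  have h11 : c.ψ 1 1 = 0 := by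
    rw [hψ 1 1 (by rw [map_one]; exact K.one_mem), map_one, c2, δ_one]; simp
  have hXK : ∀ i j r, f (T.X i j r) ∈ K := fun i j r => by rw [hT]; exact hK i j r
  let T' : Sys (Fin 5) R (Ext c) :=
    { X := fun i j r => ⟨T.X i j r, 0⟩
      diag := fun i r => by
        ext
        · simp [T.diag]
        · simp [h11]
      add := fun {i j} hij a b => by
        ext
        · simp [T.add hij]
        · simp only [Ext.mul_snd, add_zero, zero_add]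
          rw [hψ _ _ (hXK _ _ _), hT, hT,
            J.c2_X_X (hι.ne hij) (hι.ne hij) (hι.ne hij.symm), mul_zero]
      comm := fun {i j k l} hij hkl hjk hil a b => by
        rw [Ext.commute_iff]
        refine ⟨T.comm hij hkl hjk hil a b, ?_⟩
        rw [hψ _ _ (hXK _ _ _), hψ _ _ (hXK _ _ _), hT, hT,
          J.c2_X_X (hι.ne hij) (hι.ne hkl) (hι.ne hjk),
          J.c2_X_X (hι.ne hkl) (hι.ne hij) (hι.ne hil.symm)]
      mul := fun {i j l} hij hjl hil a b => by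
        have h0 := T.mul hij hjl hil a b
        rw [commutatorElement_def, mul_inv_eq_iff_eq_mul, mul_inv_eq_iff_eq_mul] at h0 ⊢
        ext
        · exact h0
        · simp only [Ext.mul_snd, Ext.mul_fst, add_zero, zero_add]
          rw [hψ _ _ (hXK _ _ _), hψ _ _ (hXK _ _ _),
            hψ _ _ (by rw [map_mul]; exact K.mul_mem (hXK _ _ _) (hXK _ _ _)), map_mul]
          simp only [hT]
          rw [J.c2_X_X' (hι.ne hij) (hι.ne hjl) (hι.ne hil),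
            J.c2_X_X (hι.ne hil) (hι.ne hjl) (hι.ne hjl.symm),
            J.c2_XX_X (hι.ne hij) (hι.ne hjl) (hι.ne hil)]
          simp }
  have hT' : T.lift c = T' := Sys.eq_lift rfl
  rw [hT']

/-- D5. Hint: the `x : Ext c` with `f x.fst ∈ K`, `δ 2 (f x.fst) = 0`, `x.snd = 0` are closed under
products (`c2 g h = 0` if `δ 2 h = 0`) and inverses (`Ext.inv_snd`); the six letters of `h 0 1 u`
are of this kind (`lift_X_snd`, `lift_X_fst`, `δ_X`, `D_inv`, `D_one`). -/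
theorem lift_h_inv_snd {u : Rˣ} (hu : J.D 2 u = 0) : (((T.lift c).h 0 1 u)⁻¹).snd = 0 := by
  have h11 : c.ψ 1 1 = 0 := by
    rw [hψ 1 1 (by rw [map_one]; exact K.one_mem), map_one, c2, δ_one]; simp
  have hc2 : ∀ g h : G, J.δ 2 h = 0 → J.c2 g h = 0 := fun g h hh => by
    rw [c2, hh]; simp
  let P : Ext c → Prop := fun x => f x.fst ∈ K ∧ J.δ 2 (f x.fst) = 0 ∧ x.snd = 0
  have hmul : ∀ x y, P x → P y → P (x * y) := by
    rintro x y ⟨hx1, hx2, hx3⟩ ⟨hy1, hy2, hy3⟩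
    refine ⟨?_, ?_, ?_⟩
    · rw [Ext.mul_fst, map_mul]; exact K.mul_mem hx1 hy1
    · rw [Ext.mul_fst, map_mul, J.δ_mul, hx2, hy2]; simp
    · rw [Ext.mul_snd, hx3, hy3, hψ _ _ hx1, hc2 _ _ hy2]; simp
  have hinv : ∀ x, P x → P x⁻¹ := by
    rintro x ⟨hx1, hx2, hx3⟩
    refine ⟨?_, ?_, ?_⟩
    · rw [Ext.inv_fst, map_inv]; exact K.inv_mem hx1
    · rw [Ext.inv_fst, map_inv, J.δ_inv, hx2]; simp
    · rw [Ext.inv_snd, hx3, h11, hψ _ _ (by rw [map_inv]; exact K.inv_mem hx1), hc2 _ _ hx2]; simp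
  have hX : ∀ (i j : Fin 5) (r : R), i ≠ j → J.D 2 r = 0 → P ((T.lift c).X i j r) := by
    intro i j r hij hr
    refine ⟨?_, ?_, J.lift_X_snd f c T ι hι hT K hK κ hψ i j r⟩
    · rw [Sys.lift_X_fst, hT]; exact hK i j r
    · rw [Sys.lift_X_fst, hT, J.δ_X 2 _ _ (hι.ne hij), hr, zero_smul]
  have hw : ∀ v : Rˣ, J.D 2 v = 0 → P ((T.lift c).w 0 1 v) := by
    intro v hv
    refine hmul _ _ (hmul _ _ (hX _ _ _ (by decide) hv) (hX _ _ _ (by decide) ?_))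
      (hX _ _ _ (by decide) hv)
    rw [map_neg, J.D_inv, hv]; simp
  refine (hinv _ (hmul _ _ (hw u hu) (hw (-1) ?_))).2.2
  rw [Units.val_neg, map_neg, Units.val_one, J.D_one, neg_zero]

theorem lift_ds_snd {a b : R} {u : Rˣ} (h1b : J.D 1 b = 0) (h1u : J.D 1 u = 0)
    (h2u : J.D 2 u = 0) (hab : J.D 1 a * J.ρ b = 0) :
    ((T.lift c).ds 0 1 a b u).snd = -(κ * (J.D 1 a * J.D 2 b)) := by
  have hij : ι 0 ≠ ι 1 := hι.ne (by decide)
  have hTm : T.map f = S.comap ι hι := by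
    ext i j r
    exact hT i j r
  have hh : f (T.h 0 1 u) = S.h (ι 0) (ι 1) u := by
    rw [← T.map_h f, hTm, Sys.comap_h]
  have h1v : J.D 1 (u⁻¹ : Rˣ) = 0 := by rw [J.D_inv, h1u]; simp
  have d1 : J.δ 1 (S.X (ι 1) (ι 0) (-(b * ((u⁻¹ : Rˣ) : R)))) = 0 := by
    rw [J.δ_X _ _ _ hij.symm, map_neg, J.D_mul, h1v, h1b]; simp
  have d2 : J.δ 1 (S.X (ι 1) (ι 0) (-(b * ((u⁻¹ : Rˣ) : R))) * S.X (ι 0) (ι 1) (-a)) =
      -(J.D 1 a • J.E (ι 0) (ι 1)) := by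
    rw [J.δ_mul, d1, J.δ_X _ _ _ hij, J.π_X _ _ hij.symm, zero_mul, add_zero, add_mul, one_mul,
      smul_mul_smul_comm, map_neg, map_neg, map_mul,
      show -(J.ρ b * J.ρ ((u⁻¹ : Rˣ) : R)) * -J.D 1 a = 0 by
        linear_combination J.ρ ((u⁻¹ : Rˣ) : R) * hab]
    simp
  have d3 : J.δ 1 (S.X (ι 1) (ι 0) (-(b * ((u⁻¹ : Rˣ) : R))) * S.X (ι 0) (ι 1) (-a) *
      S.X (ι 1) (ι 0) b) = -(J.D 1 a • J.E (ι 0) (ι 1)) := by
    rw [J.δ_mul, d2, J.δ_X _ _ _ hij.symm, J.π_X _ _ hij.symm, h1b, zero_smul, mul_zero, zero_add,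
      mul_add, mul_one, neg_mul, smul_mul_smul_comm, hab]
    simp
  have c1 : J.c2 (S.X (ι 1) (ι 0) (-(b * ((u⁻¹ : Rˣ) : R)))) (S.X (ι 0) (ι 1) (-a)) = 0 := by
    rw [c2, d1]; simp
  have c2' : J.c2 (S.X (ι 1) (ι 0) (-(b * ((u⁻¹ : Rˣ) : R))) * S.X (ι 0) (ι 1) (-a))
      (S.X (ι 1) (ι 0) b) = -(J.D 1 a * J.D 2 b) := by
    rw [c2, d2, J.δ_X _ _ _ hij.symm, mul_inv_rev, mul_inv_rev, J.π_mul, J.π_mul,
      J.π_X_inv hij.symm, J.π_X_inv hij, J.π_X_inv hij.symm]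
    simp only [neg_mul, mul_sub, sub_mul, mul_one, one_mul, smul_mul_assoc, mul_smul_comm,
      J.E_mul, hij, hij.symm, if_true, if_false, smul_zero, mul_zero, zero_mul, map_sub, map_neg,
      map_smul, J.τ_E, smul_eq_mul, map_zero, map_mul, smul_neg, mul_neg, neg_smul]
    linear_combination (-(J.D 2 b * J.ρ a * J.ρ ((u⁻¹ : Rˣ) : R))) * hab
  have c3 : J.c2 (S.X (ι 1) (ι 0) (-(b * ((u⁻¹ : Rˣ) : R))) * S.X (ι 0) (ι 1) (-a) *
      S.X (ι 1) (ι 0) b) (S.X (ι 0) (ι 1) (a * ((u⁻¹ : Rˣ) : R))) = 0 := by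
    rw [c2, d3, J.δ_X _ _ _ hij, neg_mul, smul_mul_smul_comm, J.E_mul, if_neg hij.symm]
    simp
  have c4 : ∀ g, J.c2 g (S.h (ι 0) (ι 1) u)⁻¹ = 0 := by
    intro g
    rw [c2, J.δ_inv, J.δ_h_eq_zero hij h2u]
    simp
  have k1 := hK 1 0 (-(b * ((u⁻¹ : Rˣ) : R)))
  have k2 := K.mul_mem k1 (hK 0 1 (-a))
  have k3 := K.mul_mem k2 (hK 1 0 b)
  have k4 := K.mul_mem k3 (hK 0 1 (a * ((u⁻¹ : Rˣ) : R)))
  simp only [Sys.ds, Ext.mul_snd, Ext.mul_fst, Ext.inv_fst, Sys.lift_X_fst, Sys.lift_h_fst,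
    J.lift_X_snd f c T ι hι hT K hK κ hψ, J.lift_h_inv_snd f c T ι hι hT K hK κ hψ h2u]
  rw [hψ _ _ (by rw [hT]; exact k1), hψ _ _ (by rw [map_mul, hT, hT]; exact k2),
    hψ _ _ (by rw [map_mul, map_mul, hT, hT, hT]; exact k3),
    hψ _ _ (by rw [map_mul, map_mul, map_mul, hT, hT, hT, hT]; exact k4)]
  simp only [map_mul, map_inv, hT, hh, c1, c2', c3, c4]
  ring

end

/-- D7. Hint: `lift_ds_snd` twice with `f = (Cent C).subtype`, `K = J.K (θ C) (± λ)`; `hψ` is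
`slant_φ`, `δ_CC` and `mem_K` (`smul_mul_assoc`, `map_smul`). -/
theorem inv_φ {a b : R} {u c : Rˣ} (h1b : J.D 1 b = 0) (h1u : J.D 1 u = 0) (h2u : J.D 2 u = 0)
    (hab : J.D 1 a * J.ρ b = 0) (h1c : J.D 1 c = 0) (h2c : J.D 2 c = 0) :
    S.inv a b u c J.isCoc3_φ = -(2 * (J.D 0 c * J.ρ (c⁻¹ : Rˣ)) * (J.D 1 a * J.D 2 b)) := by
  have key : ∀ κ : B, ∀ x y : Cent (S.CC c), (Cent (S.CC c)).subtype x ∈ J.K (J.θ (S.CC c)) κ →
      (slantCoc J.isCoc3_φ (S.CC c)).ψ x y =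
        κ * J.c2 ((Cent (S.CC c)).subtype x) ((Cent (S.CC c)).subtype y) := by
    intro κ x y hx
    rw [slantCoc_ψ, J.slant_φ (J.δ_CC h1c) (J.δ_CC h2c)]
    have hx' : J.θ (S.CC c) * J.δ 1 (x : G) = κ • J.δ 1 (x : G) := (J.mem_K.1 hx).1
    rw [hx', smul_mul_assoc, smul_mul_assoc, map_smul, smul_eq_mul]
    rfl
  have hp := J.lift_ds_snd (Cent (S.CC c)).subtype (slantCoc J.isCoc3_φ (S.CC c)) (S.Sp c) ip
    ip_inj (fun _ _ _ => rfl) _ (J.X_ip_mem_K c) _ (key _) h1b h1u h2u hab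
  have hm := J.lift_ds_snd (Cent (S.CC c)).subtype (slantCoc J.isCoc3_φ (S.CC c)) (S.Sm c) im
    im_inj (fun _ _ _ => rfl) _ (J.X_im_mem_K c) _ (key _) h1b h1u h2u hab
  rw [Sys.inv, hp, hm]
  ring

end Jet

end Crest.Agent.R171
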