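import Crest.Agent.R171.Sys

/-! # R171, lifting Steinberg systems through central extensions (Kervaire, Milnor Thm 5.10) -/

set_option autoImplicit false

open scoped commutatorElement

namespace Crest.Agent.R171

variable {I R E G : Type} [CommRing R] [Group E] [Group G]

/-- The kernel of `p` is central. -/
def CenKer (p : E →* G) : Prop := ∀ x, p x = 1 → ∀ y, Commute x y

theorem CenKer.comm_congr_left {p : E →* G} (hp : CenKer p) {a a' : E} (b : E) (ha : p a = p a') :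
    ⁅a, b⁆ = ⁅a', b⁆ := by
  obtain ⟨z, rfl⟩ : ∃ z, a' = a * z := ⟨a⁻¹ * a', by group⟩
  have hz : Commute z b := hp z (by simpa using ha.symm) b
  simp only [commutatorElement_def]
  calc _ = a * (b * z) * z⁻¹ * a⁻¹ * b⁻¹ := by group
    _ = _ := by rw [← hz.eq]; group

/-- K1. Hint: `a' = a z`, `b' = b z'` with `z = a⁻¹ a'`, `z' = b⁻¹ b'` central. -/
theorem CenKer.comm_congr {p : E →* G} (hp : CenKer p) {a a' b b' : E} (ha : p a = p a')
    (hb : p b = p b') : ⁅a, b⁆ = ⁅a', b'⁆ := by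
  rw [hp.comm_congr_left b ha, ← commutatorElement_inv, hp.comm_congr_left a' hb,
    commutatorElement_inv]

/-- K1. Hint: `g ⁅a, b⁆ g⁻¹ = ⁅g a g⁻¹, g b g⁻¹⁆` and `comm_congr`. -/
theorem CenKer.commute_comm {p : E →* G} (hp : CenKer p) {g a b : E}
    (ha : Commute (p g) (p a)) (hb : Commute (p g) (p b)) : Commute g ⁅a, b⁆ := by
  have h : ⁅g * a * g⁻¹, g * b * g⁻¹⁆ = ⁅a, b⁆ :=
    hp.comm_congr (by simp [ha.eq]) (by simp [hb.eq])
  rw [Commute, SemiconjBy, ← mul_inv_eq_iff_eq_mul]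
  refine Eq.trans ?_ h
  simp only [commutatorElement_def]
  group

/-- K1. Hint: for `i ≠ j`, `x_ij(r) = ⁅x_in(r), x_nj(1)⁆` in both systems; `comm_congr`;
`Sys.ext`, `funext`; `congrArg (fun S => S.X i j r) h`. -/
theorem CenKer.lift_unique [Big I] {p : E →* G} (hp : CenKer p) {S₁ S₂ : Sys I R E}
    (h : S₁.map p = S₂.map p) : S₁ = S₂ := by
  have h' : ∀ i j r, p (S₁.X i j r) = p (S₂.X i j r) := fun i j r =>
    congrArg (fun S : Sys I R G => S.X i j r) h
  refine Sys.ext (funext fun i => funext fun j => funext fun r => ?_)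
  by_cases hij : i = j
  · subst hij
    rw [S₁.diag, S₂.diag]
  obtain ⟨n, hni, hnj, -, -⟩ := Big.ex i j i j
  rw [← mul_one r, ← S₁.mul hni.symm hnj hij, ← S₂.mul hni.symm hnj hij]
  exact hp.comm_congr (h' _ _ _) (h' _ _ _)

/-- K1. Hint: `x_kl(r) = ⁅x_kn(r), x_nl(1)⁆` and `commute_comm`. -/
theorem CenKer.cen_of_map [Big I] {p : E →* G} (hp : CenKer p) (S : Sys I R E) {g : E}
    (h : ∀ k l r, Commute (p g) (p (S.X k l r))) : S.Cen g := by
  intro k l r
  by_cases hkl : k = l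
  · subst hkl
    rw [S.diag]
    exact Commute.one_right g
  obtain ⟨n, hnk, hnl, -, -⟩ := Big.ex k l k l
  rw [← mul_one r, ← S.mul hnk.symm hnl hkl]
  exact hp.commute_comm (h _ _ _) (h _ _ _)

section

variable [Big I] {p : E →* G} (hp : CenKer p) (S : Sys I R G) (t : I → I → R → E)
  (ht : ∀ i j r, p (t i j r) = S.X i j r)
include hp ht

/-- K2 (Milnor, step 1).  Hint: pick `n ∉ {i, j, k, l}`; `x' = ⁅t i n a, t n j 1⁆` has the same image as
`x`, so `x = x' z` with `z` central; `y` commutes with `x'` by `commute_comm`. -/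
theorem km_commute {i j k l : I} (hij : i ≠ j) (hkl : k ≠ l) (hjk : j ≠ k) (hil : i ≠ l)
    {a b : R} {x y : E} (hx : p x = S.X i j a) (hy : p y = S.X k l b) : Commute x y := by
  obtain ⟨n, hi, hj, hk, hl⟩ := Big.ex i j k l
  have h1 : p ⁅t i n a, t n j 1⁆ = p x := by
    rw [map_commutatorElement, ht, ht, S.mul hi.symm hj hij, mul_one, hx]
  have h2 : Commute y ⁅t i n a, t n j 1⁆ := hp.commute_comm
    (by rw [hy, ht]; exact S.comm hkl hi.symm hil.symm hk.symm _ _)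
    (by rw [hy, ht]; exact S.comm hkl hj hl.symm hjk.symm _ _)
  have h3 := hp (⁅t i n a, t n j 1⁆⁻¹ * x) (by rw [map_mul, map_inv, h1, inv_mul_cancel]) y
  have h4 := h2.symm.mul_left h3
  rwa [mul_inv_cancel_left] at h4

omit [Big I] hp ht in
theorem km_jacobi_aux {u v w : E} (h1 : Commute u w) (h2 : Commute ⁅u, v⁆ ⁅v, w⁆)
    (h3 : Commute ⁅v, w⁆ ⁅u, ⁅v, w⁆⁆) : ⁅⁅u, v⁆, w⁆ = ⁅u, ⁅v, w⁆⁆ := by
  have e1 : w * u * w⁻¹ = u := Sys.conj_of_commute h1.symm
  have e2 := Sys.conj_of_commute h2.inv_right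
  have e3 := Sys.conj_of_commute h3.inv_left
  calc ⁅⁅u, v⁆, w⁆
      = ⁅u, v⁆ * (w * v * w⁻¹) * (w * u * w⁻¹) * (w * v⁻¹ * w⁻¹) * (w * u * w⁻¹)⁻¹ := by
        simp only [commutatorElement_def]; group
    _ = (⁅u, v⁆ * ⁅v, w⁆⁻¹ * ⁅u, v⁆⁻¹) * u * ⁅v, w⁆ * u⁻¹ := by
        rw [e1]; simp only [commutatorElement_def]; group
    _ = ⁅v, w⁆⁻¹ * ⁅u, ⁅v, w⁆⁆ * ⁅v, w⁆⁻¹⁻¹ := by
        rw [e2]; simp only [commutatorElement_def]; group
    _ = _ := e3

/-- K2 (Milnor, step 2).  Hint: `u = t h i 1`, `v = t i j a`, `w = t j k b`, `c = ⁅u, v⁆` (image `x_hj(a)`),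
`d = ⁅v, w⁆` (image `x_ik(ab)`).  By `km_commute`: `u` commutes with `w`, `c` with `d`, and `d` with
`⁅u, d⁆` (image `x_hk(ab)`).  Then `w c w⁻¹ = u d⁻¹ v u⁻¹ v⁻¹ d`, so
`⁅c, w⁆ = c d⁻¹ c⁻¹ u d u⁻¹ = d⁻¹ ⁅u, d⁆ d = ⁅u, d⁆`.  Finish with `comm_congr`. -/
theorem km_jacobi {h i j k : I} (hhi : h ≠ i) (hhj : h ≠ j) (hhk : h ≠ k) (hij : i ≠ j)
    (hik : i ≠ k) (hjk : j ≠ k) (a b : R) :
    ⁅t h j a, t j k b⁆ = ⁅t h i 1, t i k (a * b)⁆ := by
  have hc : p ⁅t h i 1, t i j a⁆ = S.X h j a := by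
    rw [map_commutatorElement, ht, ht, S.mul hhi hij hhj, one_mul]
  have hd : p ⁅t i j a, t j k b⁆ = S.X i k (a * b) := by
    rw [map_commutatorElement, ht, ht, S.mul hij hjk hik]
  have he : p ⁅t h i 1, ⁅t i j a, t j k b⁆⁆ = S.X h k (a * b) := by
    rw [map_commutatorElement, ht, hd, S.mul hhi hik hhk, one_mul]
  rw [hp.comm_congr (a := t h j a) (b := t j k b) ((ht _ _ _).trans hc.symm) rfl,
    hp.comm_congr (a := t h i 1) (b := t i k (a * b)) rfl ((ht _ _ _).trans hd.symm)]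
  exact km_jacobi_aux (km_commute hp S t ht hhi hjk hij hhk (ht _ _ _) (ht _ _ _))
    (km_commute hp S t ht hhj hik hij.symm hhk hc hd)
    (km_commute hp S t ht hik hhk hhk.symm hik hd he)

/-- K3 (Milnor, step 3).  Hint: `⁅u, v w⁆ = ⁅u, v⁆ v ⁅u, w⁆ v⁻¹`, `v = t j k a` commutes with
`⁅u, w⁆` (its image is `x_hk(b)`, use `km_commute`); `comm_congr` replaces `v w` by `t j k (a + b)`. -/
theorem km_add {h j k : I} (hhj : h ≠ j) (hhk : h ≠ k) (hjk : j ≠ k) (a b : R) :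
    ⁅t h j 1, t j k a⁆ * ⁅t h j 1, t j k b⁆ = ⁅t h j 1, t j k (a + b)⁆ := by
  have hc : p ⁅t h j 1, t j k b⁆ = S.X h k b := by
    rw [map_commutatorElement, ht, ht, S.mul hhj hjk hhk, one_mul]
  have h1 := Sys.conj_of_commute (km_commute hp S t ht hjk hhk hhk.symm hjk (ht _ _ a) hc)
  rw [hp.comm_congr (a := t h j 1) (b := t j k (a + b)) (b' := t j k a * t j k b) rfl
    (by rw [map_mul, ht, ht, ht, S.add hjk]), ← h1]
  simp only [commutatorElement_def]
  group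

end

/-- K3. Kervaire's theorem.  Hint: `classical`; choose `t` by surjectivity; choose `n i j ∉ {i, j}`;
put `X i j r = if i = j then 1 else ⁅t i (n i j) 1, t (n i j) j r⁆`; its image is `x_ij(r)`.
`add`: `km_add`.  `comm`: `km_commute`.
`mul`: by `comm_congr` the left side is `⁅t i j a, t j l b⁆`; pick `m ∉ {i, j, l, n i l}`, then
`km_jacobi` gives `⁅t i j a, t j l b⁆ = ⁅t i m 1, t m l (a b)⁆ = ⁅t i (n i l) 1, t (n i l) l (a b)⁆`. -/
theorem lift_exists [Big I] {p : E →* G} (hp : CenKer p) (hs : Function.Surjective p)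
    (S : Sys I R G) : ∃ T : Sys I R E, T.map p = S := by
  classical
  choose t ht using fun i j r => hs (S.X i j r)
  choose n hn using fun i j : I => Big.ex i j i j
  have hX : ∀ {i j : I}, i ≠ j → ∀ r, p ⁅t i (n i j) 1, t (n i j) j r⁆ = S.X i j r :=
    fun {i j} h r => by
      rw [map_commutatorElement, ht, ht, S.mul (hn i j).1.symm (hn i j).2.1 h, one_mul]
  refine ⟨⟨fun i j r => if i = j then 1 else ⁅t i (n i j) 1, t (n i j) j r⁆,
    fun i r => if_pos rfl, fun {i j} h a b => ?_, fun {i j k l} h1 h2 h3 h4 a b => ?_,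
    fun {i j l} h1 h2 h3 a b => ?_⟩, ?_⟩
  · simp only [if_neg h]
    exact km_add hp S t ht (hn i j).1.symm h (hn i j).2.1 a b
  · simp only [if_neg h1, if_neg h2]
    exact km_commute hp S t ht h1 h2 h3 h4 (hX h1 a) (hX h2 b)
  · simp only [if_neg h1, if_neg h2, if_neg h3]
    rw [hp.comm_congr ((hX h1 a).trans (ht _ _ _).symm) ((hX h2 b).trans (ht _ _ _).symm)]
    obtain ⟨m, hi, hj, hl, hm⟩ := Big.ex i j l (n i l)
    rw [km_jacobi hp S t ht hi.symm h1 h3 hj hl h2,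
      ← one_mul (a * b), km_jacobi hp S t ht (hn i l).1.symm hi.symm h3 hm.symm (hn i l).2.1 hl,
      one_mul]
  · refine Sys.ext (funext fun i => funext fun j => funext fun r => ?_)
    by_cases h : i = j
    · subst h
      simp only [Sys.map_X, if_true, map_one, S.diag]
    · simp only [Sys.map_X, if_neg h, hX h]

end Crest.Agent.R171
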