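import Crest.Agent.R171.W4
import Crest.Agent.R171.KM
import Crest.Agent.R171.Coc

/-! # R171, the invariant of a 3-cocycle attached to `⟨a, b⟩ · {c}` -/

set_option autoImplicit false

open scoped commutatorElement

namespace Crest.Agent.R171

variable {R R' G G' M M' : Type} [CommRing R] [CommRing R'] [Group G] [Group G']
  [AddCommGroup M] [AddCommGroup M']

/-- The centraliser of an element. -/
abbrev Cent (C : G) : Subgroup G := Subgroup.centralizer ({C} : Set G)

/-- The block of `S` on five indices whose elements commute with `C`, in the centraliser of `C`. -/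
def Sys.blk (S : Sys ℕ R G) (C : G) (ι : Fin 5 → ℕ) (hι : Function.Injective ι)
    (h : ∀ i j r, Commute C (S.X (ι i) (ι j) r)) : Sys (Fin 5) R (Cent C) :=
  (S.comap ι hι).cod (Cent C) fun i j r => mem_cent.2 (h i j r)

section blk

variable (S : Sys ℕ R G) (C : G) (ι : Fin 5 → ℕ) (hι : Function.Injective ι)
  (h : ∀ i j r, Commute C (S.X (ι i) (ι j) r))

@[simp] theorem Sys.blk_X (i j : Fin 5) (r : R) :
    ((S.blk C ι hι h).X i j r : G) = S.X (ι i) (ι j) r := rfl

@[simp] theorem Sys.blk_h (i j : Fin 5) (u : Rˣ) :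
    ((S.blk C ι hι h).h i j u : G) = S.h (ι i) (ι j) u :=
  ((S.blk C ι hι h).map_h (Cent C).subtype i j u).symm

@[simp] theorem Sys.blk_ds (i j : Fin 5) (a b : R) (u : Rˣ) :
    ((S.blk C ι hι h).ds i j a b u : G) = S.ds (ι i) (ι j) a b u :=
  ((S.blk C ι hι h).map_ds (Cent C).subtype i j a b u).symm

end blk

/-- The indices on which `CC` acts by `c`. -/
def ip : Fin 5 → ℕ := ![0, 3, 4, 5, 6]

/-- The indices on which `CC` acts by `c⁻¹`. -/
def im : Fin 5 → ℕ := ![1, 2, 7, 8, 9]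

theorem ip_inj : Function.Injective ip := by decide

theorem im_inj : Function.Injective im := by decide

/-- The exponent vector of `CC`. -/
def gam : ℕ → ℤ := ev 0 2 + -ev 1 3 + ev 4 7 + ev 5 8 + ev 6 9

theorem gam_ip (i : Fin 5) : gam (ip i) = 1 := by revert i; decide

theorem gam_im (i : Fin 5) : gam (im i) = -1 := by revert i; decide

/-- The lift of the diagonal matrix `c ^ gam`. -/
def Sys.CC (S : Sys ℕ R G) (c : Rˣ) : G :=
  S.h 0 2 c * (S.h 1 3 c)⁻¹ * S.h 4 7 c * S.h 5 8 c * S.h 6 9 c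

theorem Sys.CC_diag (S : Sys ℕ R G) (c : Rˣ) : S.Diag (S.CC c) c gam :=
  ((((S.h_diag (by decide) c).mul (S.h_diag (by decide) c).inv).mul (S.h_diag (by decide) c)).mul
    (S.h_diag (by decide) c)).mul (S.h_diag (by decide) c)

/-- The block on which `CC` acts by `c`. -/
def Sys.Sp (S : Sys ℕ R G) (c : Rˣ) : Sys (Fin 5) R (Cent (S.CC c)) :=
  S.blk (S.CC c) ip ip_inj fun i j r => (S.CC_diag c).commute_X (by rw [gam_ip, gam_ip]) r

/-- The block on which `CC` acts by `c⁻¹`. -/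
def Sys.Sm (S : Sys ℕ R G) (c : Rˣ) : Sys (Fin 5) R (Cent (S.CC c)) :=
  S.blk (S.CC c) im im_inj fun i j r => (S.CC_diag c).commute_X (by rw [gam_im, gam_im]) r

theorem cenKer_p {L : Type} [Group L] (c : Coc2 L M) : CenKer (Ext.p c) := Ext.p_cen

/-- The lift of a system to the central extension defined by a 2-cocycle. -/
noncomputable def Sys.lift {L : Type} [Group L] (S : Sys (Fin 5) R L) (c : Coc2 L M) :
    Sys (Fin 5) R (Ext c) :=
  (lift_exists (cenKer_p c) Ext.p_surjective S).choose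

theorem Sys.lift_map {L : Type} [Group L] (S : Sys (Fin 5) R L) (c : Coc2 L M) :
    (S.lift c).map (Ext.p c) = S :=
  (lift_exists (cenKer_p c) Ext.p_surjective S).choose_spec

theorem Sys.eq_lift {L : Type} [Group L] {S : Sys (Fin 5) R L} {c : Coc2 L M}
    {T : Sys (Fin 5) R (Ext c)} (h : T.map (Ext.p c) = S) : S.lift c = T :=
  (cenKer_p c).lift_unique ((S.lift_map c).trans h.symm)

theorem Sys.lift_X_fst {L : Type} [Group L] (S : Sys (Fin 5) R L) (c : Coc2 L M) (i j : Fin 5)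
    (r : R) : ((S.lift c).X i j r).fst = S.X i j r :=
  congrArg (fun T : Sys (Fin 5) R L => T.X i j r) (S.lift_map c)

theorem Sys.lift_h_fst {L : Type} [Group L] (S : Sys (Fin 5) R L) (c : Coc2 L M) (i j : Fin 5)
    (u : Rˣ) : ((S.lift c).h i j u).fst = S.h i j u := by
  have := (S.lift c).map_h (Ext.p c) i j u
  rw [S.lift_map] at this; exact this.symm

theorem Sys.lift_ds_fst {L : Type} [Group L] (S : Sys (Fin 5) R L) (c : Coc2 L M) (i j : Fin 5)
    (a b : R) (u : Rˣ) : ((S.lift c).ds i j a b u).fst = S.ds i j a b u := by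
  have := (S.lift c).map_ds (Ext.p c) i j a b u
  rw [S.lift_map] at this; exact this.symm

/-- The invariant of the 3-cocycle `φ`. -/
noncomputable def Sys.inv (S : Sys ℕ R G) (a b : R) (u c : Rˣ) {φ : G → G → G → M}
    (hφ : IsCoc3 φ) : M :=
  (((S.Sp c).lift (slantCoc hφ (S.CC c))).ds 0 1 a b u).snd -
    (((S.Sm c).lift (slantCoc hφ (S.CC c))).ds 0 1 a b u).snd

theorem Sys.Sp_ds_eq (S : Sys ℕ R G) {a b : R} {u : Rˣ} (hu : (u : R) = 1 - a * b) (c : Rˣ) :
    (S.Sp c).ds 0 1 a b u = (S.Sm c).ds 0 1 a b u := by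
  apply Subtype.ext
  simp only [Sys.Sp, Sys.Sm, Sys.blk_ds]
  exact S.ds_indep (by decide) (by decide) hu

theorem Sys.inv_cob_sec (C : G) (θ : G → G → M) :
    ∃ s : Cent C →* Ext (slantCoc (isCoc3_cob θ) C), ∀ g, Ext.p _ (s g) = g := by
  refine ⟨MonoidHom.mk' (fun g => ⟨g, θ C g - θ g C⟩) fun x y => ?_, fun _ => rfl⟩
  refine Ext.ext rfl ?_
  have hx := (mem_cent.1 x.2).eq
  have hy := (mem_cent.1 y.2).eq
  simp only [Ext.mul_snd, slantCoc_ψ, slant, cob, Subgroup.coe_mul, hx, hy]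
  abel

/-- I1. The invariant of a coboundary vanishes.  Hint: `η g = θ C g - θ g C` satisfies
`slant (cob θ) C a b = η (a b) - η a - η b` on the centraliser, so `s g = ⟨g, η g⟩` is a homomorphism
`Cent C →* Ext _` (`MonoidHom.mk'`); `Sys.eq_lift` shows that the lifts are `(S.Sp c).map s`,
`(S.Sm c).map s`; `Sys.map_ds`, `Sys.Sp_ds_eq`. -/
theorem Sys.inv_cob (S : Sys ℕ R G) {a b : R} {u : Rˣ} (hu : (u : R) = 1 - a * b) (c : Rˣ)
    (θ : G → G → M) : S.inv a b u c (isCoc3_cob θ) = 0 := by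
  obtain ⟨s, hs⟩ := Sys.inv_cob_sec (S.CC c) θ
  have h : ∀ T : Sys (Fin 5) R (Cent (S.CC c)),
      T.lift (slantCoc (isCoc3_cob θ) (S.CC c)) = T.map s := fun T =>
    Sys.eq_lift (Sys.ext (funext fun i => funext fun j => funext fun r => hs _))
  rw [Sys.inv, h, h, Sys.map_ds, Sys.map_ds, S.Sp_ds_eq hu, sub_self]

/-- I2. Naturality of lifts.  Hint: `Φ x = ⟨F x.fst, μ x.snd⟩` is a homomorphism `Ext c →* Ext c'`;
`(S.lift c).map Φ` and `(S'.lift c').restr ρ` have the same image under `Ext.p c'`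
(`Sys.lift_X_fst`), so they are equal by `CenKer.lift_unique`; `Sys.map_ds`, `Sys.restr_ds`. -/
theorem lift_ds_nat {L L' : Type} [Group L] [Group L'] (S : Sys (Fin 5) R L)
    (S' : Sys (Fin 5) R' L') (c : Coc2 L M) (c' : Coc2 L' M') (F : L →* L') (ρ : R →+* R')
    (μ : M →+ M') (hX : ∀ i j r, F (S.X i j r) = S'.X i j (ρ r))
    (hψ : ∀ x y, c'.ψ (F x) (F y) = μ (c.ψ x y)) (a b : R) (u : Rˣ) :
    ((S'.lift c').ds 0 1 (ρ a) (ρ b) (Units.map (ρ : R →* R') u)).snd =
      μ ((S.lift c).ds 0 1 a b u).snd := by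
  let Φ : Ext c →* Ext c' := MonoidHom.mk' (fun x => ⟨F x.fst, μ x.snd⟩) (by
    intro x y
    ext
    · simp
    · simp [hψ])
  have hE : (S.lift c).map Φ = (S'.lift c').restr ρ := by
    apply (cenKer_p c').lift_unique
    ext i j r
    show F ((S.lift c).X i j r).fst = ((S'.lift c').X i j (ρ r)).fst
    rw [Sys.lift_X_fst, Sys.lift_X_fst, hX]
  rw [← Sys.restr_ds, ← hE, Sys.map_ds]
  rfl

/-- I3. Naturality of the invariant.  Hint: `S.map f = S'.restr ρ` gives `f (S.CC c) = S'.CC (ρ c)`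
(`map_h`, `restr_h`); restrict `f` to the centralisers (`MonoidHom.codRestrict`, `mem_cent`,
`Commute.map`) and use `lift_ds_nat` twice. -/
theorem Sys.inv_nat (S : Sys ℕ R G) (S' : Sys ℕ R' G') (f : G →* G') (ρ : R →+* R')
    (μ : M →+ M') (hX : ∀ i j r, f (S.X i j r) = S'.X i j (ρ r)) {φ : G → G → G → M}
    (hφ : IsCoc3 φ) {φ' : G' → G' → G' → M'} (hφ' : IsCoc3 φ')
    (h : ∀ x y z, φ' (f x) (f y) (f z) = μ (φ x y z)) (a b : R) (u c : Rˣ) :
    S'.inv (ρ a) (ρ b) (Units.map (ρ : R →* R') u) (Units.map (ρ : R →* R') c) hφ' =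
      μ (S.inv a b u c hφ) := by
  have hS : S.map f = S'.restr ρ := by
    ext i j r
    exact hX i j r
  have hh : ∀ i j (v : Rˣ), f (S.h i j v) = S'.h i j (Units.map (ρ : R →* R') v) := fun i j v => by
    rw [← S.map_h, hS, S'.restr_h]
  have hC : f (S.CC c) = S'.CC (Units.map (ρ : R →* R') c) := by
    simp only [Sys.CC, map_mul, map_inv, hh]
  let F : Cent (S.CC c) →* Cent (S'.CC (Units.map (ρ : R →* R') c)) :=
    (f.comp (Cent (S.CC c)).subtype).codRestrict _ fun x =>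
      mem_cent.2 (hC ▸ (mem_cent.1 x.2).map f)
  have hF : ∀ x, (F x : G') = f x := fun _ => rfl
  have hψ : ∀ x y, (slantCoc hφ' (S'.CC (Units.map (ρ : R →* R') c))).ψ (F x) (F y) =
      μ ((slantCoc hφ (S.CC c)).ψ x y) := fun x y => by
    simp only [slantCoc_ψ, hF, slant, ← hC, h, map_add, map_sub]
  rw [Sys.inv, Sys.inv, map_sub,
    lift_ds_nat (S.Sp c) (S'.Sp _) _ _ F ρ μ (fun i j r => Subtype.ext (hX _ _ r)) hψ,
    lift_ds_nat (S.Sm c) (S'.Sm _) _ _ F ρ μ (fun i j r => Subtype.ext (hX _ _ r)) hψ]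

end Crest.Agent.R171
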