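import Crest.Prelude.Def_Steinberg
import Crest.Agent.R171.Jet

/-! # R171, the universal system and the existence of jets -/

set_option autoImplicit false

open scoped commutatorElement

namespace Crest.Agent.R171

open Crest.AlgebraR

variable {R R' G B : Type} [CommRing R] [CommRing R'] [Group G] [CommRing B]

/-- The generators of `St R`. -/
def stX (R : Type) [CommRing R] (i j : ℕ) (r : R) : Steinberg.St R :=
  if h : i ≠ j then PresentedGroup.of (⟨(i, j), h⟩, r) else 1

theorem stX_eq {i j : ℕ} (h : i ≠ j) (a : R) :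
    stX R i j a = PresentedGroup.mk (Steinberg.rels R) (Steinberg.x i j h a) := by
  rw [stX, dif_pos h]
  rfl

/-- L1. Hint: `PresentedGroup.mk_eq_one_iff` / `PresentedGroup.one_of_mem`; `PresentedGroup.of x` is
`PresentedGroup.mk _ (FreeGroup.of x)` by `rfl`. -/
theorem stX_add {i j : ℕ} (h : i ≠ j) (a b : R) : stX R i j a * stX R i j b = stX R i j (a + b) := by
  have h1 := PresentedGroup.one_of_mem (rels := Steinberg.rels R)
    (Or.inl (Or.inl ⟨i, j, h, a, b, rfl⟩))
  rw [map_mul, map_inv, map_mul, mul_inv_eq_one] at h1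
  rw [stX_eq h, stX_eq h, stX_eq h]
  exact h1

/-- L1. -/
theorem stX_comm {i j k l : ℕ} (hij : i ≠ j) (hkl : k ≠ l) (hjk : j ≠ k) (hil : i ≠ l) (a b : R) :
    Commute (stX R i j a) (stX R k l b) := by
  have h1 := PresentedGroup.one_of_mem (rels := Steinberg.rels R)
    (Or.inl (Or.inr ⟨i, j, k, l, hij, hkl, a, b, hjk, hil, rfl⟩))
  rw [map_mul, map_inv, map_mul, map_inv, map_mul] at h1
  rw [stX_eq hij, stX_eq hkl, ← commutatorElement_eq_one_iff_commute, commutatorElement_def]
  exact h1

/-- L1. -/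
theorem stX_mul {i j l : ℕ} (hij : i ≠ j) (hjl : j ≠ l) (hil : i ≠ l) (a b : R) :
    ⁅stX R i j a, stX R j l b⁆ = stX R i l (a * b) := by
  have h1 := PresentedGroup.one_of_mem (rels := Steinberg.rels R)
    (Or.inr ⟨i, j, l, hij, hjl, hil, a, b, rfl⟩)
  rw [map_mul, map_inv, mul_inv_eq_one, map_mul, map_inv, map_mul, map_inv, map_mul] at h1
  rw [stX_eq hij, stX_eq hjl, stX_eq hil, commutatorElement_def]
  exact h1

/-- The universal Steinberg system. -/
def stSys (R : Type) [CommRing R] : Sys ℕ R (Steinberg.St R) where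
  X := stX R
  diag i r := by simp [stX]
  add := stX_add
  comm := stX_comm
  mul := stX_mul

/-- L1. Hint: `PresentedGroup.toGroup` with `fun g => S.X g.1.1.1 g.1.1.2 g.2`. -/
theorem exists_stLift (S : Sys ℕ R G) :
    ∃ f : Steinberg.St R →* G, ∀ i j r, f ((stSys R).X i j r) = S.X i j r := by
  have hx : ∀ (i j : ℕ) (h : i ≠ j) (a : R),
      FreeGroup.lift (fun g : Steinberg.Gen R => S.X g.1.1.1 g.1.1.2 g.2) (Steinberg.x i j h a) =
        S.X i j a := fun i j h a => FreeGroup.lift_apply_of
  have hrel : ∀ w ∈ Steinberg.rels R,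
      FreeGroup.lift (fun g : Steinberg.Gen R => S.X g.1.1.1 g.1.1.2 g.2) w = 1 := by
    rintro w ((⟨i, j, h, a, b, rfl⟩ | ⟨i, j, k, l, hij, hkl, a, b, hjk, hil, rfl⟩) |
      ⟨i, j, l, hij, hjl, hil, a, b, rfl⟩)
    · simp only [map_mul, map_inv, hx]
      rw [S.add h, mul_inv_cancel]
    · simp only [map_mul, map_inv, hx]
      rw [← commutatorElement_def, commutatorElement_eq_one_iff_commute]
      exact S.comm hij hkl hjk hil a b
    · simp only [map_mul, map_inv, hx]
      rw [← commutatorElement_def, S.mul hij hjl hil, mul_inv_cancel]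
  refine ⟨PresentedGroup.toGroup hrel, fun i j r => ?_⟩
  by_cases h : i = j
  · subst h
    rw [(stSys R).diag, S.diag, map_one]
  · change PresentedGroup.toGroup hrel (stX R i j r) = _
    rw [stX, dif_pos h, PresentedGroup.toGroup.of]

/-- L1. -/
theorem stMap_X (φ : R →+* R') (i j : ℕ) (r : R) :
    Steinberg.stMap φ ((stSys R).X i j r) = (stSys R').X i j (φ r) := by
  by_cases h : i = j
  · subst h
    rw [(stSys R).diag, (stSys R').diag, map_one]
  · change Steinberg.stMap φ (stX R i j r) = stX R' i j (φ r)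
    rw [stX_eq h, stX_eq h]
    rfl

/-- The monoid of matrix units, with a unit and a zero adjoined. -/
inductive MU : Type
  | o : MU
  | z : MU
  | e : ℕ → ℕ → MU

namespace MU

/-- The product of `MU`. -/
def mul : MU → MU → MU
  | o, t => t
  | z, _ => z
  | e i j, o => e i j
  | e _ _, z => z
  | e i j, e k l => if j = k then e i l else z

instance : Monoid MU where
  mul := mul
  one := o
  one_mul _ := rfl
  mul_one s := by cases s <;> rfl
  mul_assoc s t u := by
    change mul (mul s t) u = mul s (mul t u)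
    rcases s with _ | _ | ⟨i, j⟩ <;> rcases t with _ | _ | ⟨k, l⟩ <;> rcases u with _ | _ | ⟨m, n⟩ <;>
      simp only [mul]
    · split_ifs <;> rfl
    · split_ifs <;> rfl
    · by_cases h1 : j = k <;> by_cases h2 : l = m <;> simp [h1, h2]

theorem z_mul (s : MU) : z * s = z := rfl

theorem mul_z (s : MU) : s * z = z := by cases s <;> rfl

theorem e_mul_e (i j k l : ℕ) : e i j * e k l = if j = k then e i l else z := rfl

/-- The trace on `MU`. -/
def tr (B : Type) [CommRing B] : MU → B
  | o => 0
  | z => 0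
  | e i j => if i = j then 1 else 0

theorem tr_comm (B : Type) [CommRing B] (s t : MU) : tr B (s * t) = tr B (t * s) := by
  change tr B (mul s t) = tr B (mul t s)
  rcases s with _ | _ | ⟨i, j⟩ <;> rcases t with _ | _ | ⟨k, l⟩ <;> simp only [mul]
  by_cases h1 : j = k <;> by_cases h2 : l = i
  · subst h1 h2; simp [tr]
  · subst h1; simp [tr, h2, Ne.symm h2]
  · subst h2; simp [tr, h1, Ne.symm h1]
  · simp [h1, h2]

end MU

/-- L2. A ring with infinitely many matrix units and a trace.  Hint: let `MU` be the monoid with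
elements `one`, `zero`, `e i j` (`e i j * e k l = if j = k then e i l else zero`), `Λ = MonoidAlgebra B MU`,
`E i j = single (e i j) 1 - single zero 1`, and `τ` the linear map with `τ (single s 1) = 1` if
`s = e i i` and `0` otherwise (`Finsupp.linearCombination` / `MonoidAlgebra.lift`-free: induct with
`MonoidAlgebra.induction_on` in both arguments for `τ (x * y) = τ (y * x)`). -/
theorem exists_units (B : Type) [CommRing B] :
    ∃ (Λ : Type) (_ : Ring Λ) (_ : Algebra B Λ) (E : ℕ → ℕ → Λ) (τ : Λ →ₗ[B] B),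
      (∀ i j k l, E i j * E k l = if j = k then E i l else 0) ∧ (∀ x y, τ (x * y) = τ (y * x)) ∧
      ∀ i j, τ (E i j) = if i = j then 1 else 0 := by
  let τ : MonoidAlgebra B MU →ₗ[B] B := (MonoidAlgebra.basis MU B).constr B (MU.tr B)
  have hτ : ∀ (s : MU) (b : B), τ (MonoidAlgebra.single s b) = b * MU.tr B s := by
    intro s b
    have h1 : (MonoidAlgebra.single s b : MonoidAlgebra B MU) = b • MonoidAlgebra.basis MU B s := by
      rw [MonoidAlgebra.basis_apply, MonoidAlgebra.smul_single', mul_one]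
    rw [h1, map_smul, Module.Basis.constr_basis, smul_eq_mul]
  refine ⟨MonoidAlgebra B MU, inferInstance, inferInstance,
    fun i j => MonoidAlgebra.single (MU.e i j) 1 - MonoidAlgebra.single MU.z 1, τ, ?_, ?_, ?_⟩
  · intro i j k l
    simp only [sub_mul, mul_sub, MonoidAlgebra.single_mul_single, mul_one, MU.mul_z, MU.z_mul,
      MU.e_mul_e]
    split_ifs <;> abel
  · intro x y
    induction x using MonoidAlgebra.induction_linear with
    | zero => simp
    | add x x' hx hx' => rw [add_mul, mul_add, map_add, map_add, hx, hx']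
    | single s b =>
      induction y using MonoidAlgebra.induction_linear with
      | zero => simp
      | add y y' hy hy' => rw [add_mul, mul_add, map_add, map_add, hy, hy']
      | single t c =>
        rw [MonoidAlgebra.single_mul_single, MonoidAlgebra.single_mul_single, hτ, hτ,
          MU.tr_comm, mul_comm b c]
  · intro i j
    rw [map_sub, hτ, hτ]
    simp [MU.tr]

/-- L3. Elementary matrices.  Hint: for `i ≠ j` the unit with value `1 + σ r * E i j` and inverse
`1 - σ r * E i j`; first prove `(σ r * E i j) * (σ s * E k l) = σ (r * s) * (E i j * E k l)`; for `mul`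
show `x y = z y x`. -/
theorem exists_sys_units {Λ : Type} [Ring Λ] (σ : R →+* Λ) (hσ : ∀ r x, Commute (σ r) x)
    (E : ℕ → ℕ → Λ) (hE : ∀ i j k l, E i j * E k l = if j = k then E i l else 0) :
    ∃ S : Sys ℕ R Λˣ, ∀ i j, i ≠ j → ∀ r, (S.X i j r : Λ) = 1 + σ r * E i j := by
  have key : ∀ r s i j k l, (σ r * E i j) * (σ s * E k l) =
      if j = k then σ (r * s) * E i l else 0 := by
    intro r s i j k l
    rw [mul_assoc, ← mul_assoc (E i j), ← (hσ s (E i j)).eq, mul_assoc, ← mul_assoc, ← map_mul, hE]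
    split_ifs <;> simp
  let U : ∀ i j : ℕ, i ≠ j → R → Λˣ := fun i j h r =>
    ⟨1 + σ r * E i j, 1 - σ r * E i j,
      by rw [add_mul, mul_sub, mul_sub, key, if_neg h.symm]; simp,
      by rw [sub_mul, mul_add, mul_add, key, if_neg h.symm]; simp⟩
  let X : ℕ → ℕ → R → Λˣ := fun i j r => if h : i ≠ j then U i j h r else 1
  have hX : ∀ i j, i ≠ j → ∀ r, (X i j r : Λ) = 1 + σ r * E i j := by
    intro i j h r
    simp only [X, dif_pos h, U]
  refine ⟨⟨X, fun i r => by simp [X], ?_, ?_, ?_⟩, hX⟩
  · intro i j h a b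
    apply Units.ext
    rw [Units.val_mul, hX i j h, hX i j h, hX i j h, add_mul, mul_add, mul_add, key,
      if_neg h.symm, map_add, add_mul]
    simp only [one_mul, mul_one]
    abel
  · intro i j k l hij hkl hjk hil a b
    apply Units.ext
    rw [Units.val_mul, Units.val_mul, hX i j hij, hX k l hkl, add_mul, mul_add, mul_add, key,
      if_neg hjk, add_mul, mul_add, mul_add, key, if_neg hil.symm]
    simp only [one_mul, mul_one]
    abel
  · intro i j l hij hjl hil a b
    rw [commutatorElement_def, mul_inv_eq_iff_eq_mul, mul_inv_eq_iff_eq_mul]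
    apply Units.ext
    simp only [Units.val_mul, hX i j hij, hX j l hjl, hX i l hil, add_mul, mul_add, one_mul,
      mul_one, key, if_true, if_neg hil.symm, if_neg hjl.symm, add_zero]
    abel

/-- The scalar embedding into the ring of jets. -/
def exists_jet_σ (Λ : Type) [Ring Λ] [Algebra B Λ] (ρ : R →+* B) (D : Fin 3 → R →+ B)
    (hD : ∀ k r s, D k (r * s) = ρ r * D k s + D k r * ρ s) :
    R →+* TrivSqZeroExt Λ (Fin 3 → Λ) where
  toFun r := TrivSqZeroExt.inl (algebraMap B Λ (ρ r)) +
    TrivSqZeroExt.inr fun k => algebraMap B Λ (D k r)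
  map_one' := by
    have h1 : ∀ k, D k 1 = 0 := fun k => by simpa using hD k 1 1
    ext <;> simp [h1]
  map_mul' r s := by
    ext k
    · simp
    · simp [hD, Algebra.smul_def]
  map_zero' := by ext <;> simp
  map_add' r s := by
    ext k
    · simp
    · simp

theorem exists_jet_fst (Λ : Type) [Ring Λ] [Algebra B Λ] (ρ : R →+* B) (D : Fin 3 → R →+ B)
    (hD : ∀ k r s, D k (r * s) = ρ r * D k s + D k r * ρ s) (r : R) :
    (exists_jet_σ Λ ρ D hD r).fst = algebraMap B Λ (ρ r) := by
  simp [exists_jet_σ]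

theorem exists_jet_snd (Λ : Type) [Ring Λ] [Algebra B Λ] (ρ : R →+* B) (D : Fin 3 → R →+ B)
    (hD : ∀ k r s, D k (r * s) = ρ r * D k s + D k r * ρ s) (r : R) (k : Fin 3) :
    (exists_jet_σ Λ ρ D hD r).snd k = algebraMap B Λ (D k r) := by
  simp [exists_jet_σ]

/-- The projection to the first component. -/
def exists_jet_pr (Λ : Type) [Ring Λ] : TrivSqZeroExt Λ (Fin 3 → Λ) →* Λ where
  toFun := TrivSqZeroExt.fst
  map_one' := rfl
  map_mul' _ _ := rfl

/-- L4. Hint: take `Λ, E, τ` from `exists_units B`, `Λ' = TrivSqZeroExt Λ (Fin 3 → Λ)`,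
`σ r = inl (algebraMap B Λ (ρ r)) + inr fun k => algebraMap B Λ (D k r)` (a ring homomorphism with central
image: `TrivSqZeroExt.ext`, `snd_mul`, `Algebra.commutes`), matrix units `inl (E i j)`;
`exists_sys_units`, `exists_stLift` give `P : St R →* Λ'ˣ`; `π = (Units.map fst).comp P`,
`δ k g = (P g : Λ').snd k`; `Algebra.smul_def`. -/
theorem exists_jet (ρ : R →+* B) (D : Fin 3 → R →+ B)
    (hD : ∀ k r s, D k (r * s) = ρ r * D k s + D k r * ρ s) :
    ∃ (Λ : Type) (_ : Ring Λ) (_ : Algebra B Λ) (J : Jet (stSys R) B Λ), J.ρ = ρ ∧ J.D = D := by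
  obtain ⟨Λ, _, _, E, τ, hE, hτ, hτE⟩ := exists_units B
  have hσ : ∀ r (x : TrivSqZeroExt Λ (Fin 3 → Λ)), Commute (exists_jet_σ Λ ρ D hD r) x := by
    intro r x
    change _ * _ = _ * _
    ext k
    · simp only [TrivSqZeroExt.fst_mul, exists_jet_fst, Algebra.commutes]
    · simp only [TrivSqZeroExt.snd_mul, Pi.add_apply, Pi.smul_apply, smul_eq_mul,
        MulOpposite.smul_eq_mul_unop, MulOpposite.unop_op, exists_jet_fst, exists_jet_snd,
        Algebra.commutes]
      exact add_comm _ _
  obtain ⟨S, hS⟩ := exists_sys_units (exists_jet_σ Λ ρ D hD) hσ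
    (fun i j => TrivSqZeroExt.inl (E i j)) fun i j k l => by
      rw [TrivSqZeroExt.inl_mul_inl, hE]
      split_ifs
      · rfl
      · exact TrivSqZeroExt.inl_zero _
  obtain ⟨P, hP⟩ := exists_stLift S
  refine ⟨Λ, inferInstance, inferInstance,
    { ρ := ρ, D := D, D_mul := hD, E := E, E_mul := hE, τ := τ, τ_comm := hτ, τ_E := hτE
      π := (Units.map (exists_jet_pr Λ)).comp P
      δ := fun k g => (P g : TrivSqZeroExt Λ (Fin 3 → Λ)).snd k
      δ_mul := fun k g h => ?_
      π_X := fun i j hij r => ?_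
      δ_X := fun k i j hij r => ?_ }, rfl, rfl⟩
  · rw [map_mul, Units.val_mul, TrivSqZeroExt.snd_mul]
    rfl
  · change (P _ : TrivSqZeroExt Λ (Fin 3 → Λ)).fst = _
    rw [hP, hS i j hij]
    simp [exists_jet_fst, Algebra.smul_def]
  · rw [hP, hS i j hij]
    simp [exists_jet_snd, Algebra.smul_def]

end Crest.Agent.R171
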