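import Mathlib

/-! # R171, the ring `A = ℤ[x, y, t] / (((1 + x)^5 - 1) / x - t y^5)` localised at `(5, x, y)` -/

set_option autoImplicit false

namespace Crest.Agent.R171

open Polynomial

/-- `ℤ[y, t]`. -/
abbrev S0 : Type := MvPolynomial (Fin 2) ℤ

/-- The defining polynomial, Eisenstein at `(5, y, t)`. -/
noncomputable def fP : S0[X] :=
  X ^ 4 + C 5 * X ^ 3 + C 10 * X ^ 2 + C 10 * X +
    C (5 - MvPolynomial.X 1 * MvPolynomial.X 0 ^ 5)

/-- The global ring. -/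
abbrev R0 : Type := AdjoinRoot fP

noncomputable def xR : R0 := AdjoinRoot.root fP

noncomputable def yR : R0 := AdjoinRoot.of fP (MvPolynomial.X 0)

noncomputable def tR : R0 := AdjoinRoot.of fP (MvPolynomial.X 1)

theorem eval₂_fP {T : Type} [CommRing T] (i : S0 →+* T) (x : T) :
    eval₂ i x fP = x ^ 4 + 5 * x ^ 3 + 10 * x ^ 2 + 10 * x +
      (5 - i (MvPolynomial.X 1) * i (MvPolynomial.X 0) ^ 5) := by
  rw [fP]
  simp only [eval₂_add, eval₂_mul, eval₂_pow, eval₂_X, eval₂_C]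
  simp only [map_sub, map_mul, map_pow, map_ofNat]

theorem relR : xR ^ 4 + 5 * xR ^ 3 + 10 * xR ^ 2 + 10 * xR + 5 = tR * yR ^ 5 := by
  have h := AdjoinRoot.eval₂_root fP
  rw [eval₂_fP] at h
  simp only [xR, yR, tR]
  linear_combination h

/-- Homomorphisms out of `R0`. -/
noncomputable def liftR {T : Type} [CommRing T] (x y t : T)
    (h : x ^ 4 + 5 * x ^ 3 + 10 * x ^ 2 + 10 * x + 5 = t * y ^ 5) : R0 →+* T :=
  AdjoinRoot.lift (MvPolynomial.eval₂Hom (Int.castRingHom T) ![y, t]) x (by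
    rw [eval₂_fP]
    simp only [MvPolynomial.eval₂Hom_X', Matrix.cons_val_zero, Matrix.cons_val_one]
    linear_combination h)

section

variable {T : Type} [CommRing T] (x y t : T)
  (h : x ^ 4 + 5 * x ^ 3 + 10 * x ^ 2 + 10 * x + 5 = t * y ^ 5)

@[simp] theorem liftR_x : liftR x y t h xR = x := by simp [liftR, xR]

@[simp] theorem liftR_y : liftR x y t h yR = y := by simp [liftR, yR]

@[simp] theorem liftR_t : liftR x y t h tR = t := by simp [liftR, tR]

end

/-- R1. Hint: `monicity!`, `compute_degree!`. -/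
theorem fP_monic : fP.Monic := by
  unfold fP
  monicity!

/-- R1. -/
theorem fP_natDegree : fP.natDegree = 4 := by
  unfold fP
  compute_degree!

/-- R1. Hint: `Polynomial.IsEisensteinAt.irreducible` (or `irreducible_of_eisenstein_criterion`) for the
prime `𝔮 = (Ideal.span {(5 : ℤ)}).comap (MvPolynomial.constantCoeff)`; the constant coefficient is not in
`𝔮 ^ 2` since `𝔮 ^ 2 ≤ comap _ (span {5} ^ 2)` (`Ideal.le_comap_pow`) and `25 ∤ 5`; `Monic.isPrimitive`;
`S0[X]` is a UFD, `Irreducible.prime`. -/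
theorem fP_prime : Prime fP := by
  let cc : S0 →+* ℤ := MvPolynomial.constantCoeff
  have hp : (Ideal.span {(5 : ℤ)}).IsPrime :=
    (Ideal.span_singleton_prime (by norm_num)).2 (Int.prime_iff_natAbs_prime.2 (by norm_num))
  have hq : ((Ideal.span {(5 : ℤ)}).comap cc).IsPrime := Ideal.comap_isPrime _ _
  have h0 : cc (fP.coeff 0) = 5 := by simp [fP, cc, coeff_X, map_ofNat]
  have hE : fP.IsEisensteinAt ((Ideal.span {(5 : ℤ)}).comap cc) := by
    refine fP_monic.isEisensteinAt_of_mem_of_notMem hq.ne_top (fun {n} hn => ?_) fun h => ?_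
    · rw [fP_natDegree] at hn
      rw [Ideal.mem_comap, Ideal.mem_span_singleton]
      interval_cases n
      · rw [h0]
      · simp [fP, cc, coeff_X, coeff_C, map_ofNat, -map_sub]
      · simp [fP, cc, coeff_X, coeff_C, map_ofNat, -map_sub]
      · simp [fP, cc, coeff_X, coeff_C, map_ofNat, -map_sub]
    · have h1 := Ideal.le_comap_pow cc 2 h
      rw [Ideal.mem_comap, h0, Ideal.span_singleton_pow, Ideal.mem_span_singleton] at h1
      norm_num at h1
  exact (hE.irreducible hq fP_monic.isPrimitive (by rw [fP_natDegree]; norm_num)).prime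

instance : IsDomain R0 := AdjoinRoot.isDomain_of_prime fP_prime

/-- R1. Hint: `AdjoinRoot.of.injective_of_degree_ne_zero`, `charZero_of_injective_ringHom`. -/
theorem charZero_R0 : CharZero R0 := by
  refine charZero_of_injective_ringHom (AdjoinRoot.of.injective_of_degree_ne_zero (f := fP) ?_)
  rw [degree_eq_natDegree fP_monic.ne_zero, fP_natDegree]
  norm_num

instance : CharZero R0 := charZero_R0

/-- R2. Two homomorphisms out of `R0` agree if they agree on `x`, `y`, `t`.  Hint: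
`AdjoinRoot.ringHom_ext` / `AdjoinRoot.mk_surjective`, `Polynomial.ringHom_ext'`,
`MvPolynomial.ringHom_ext'`, `RingHom.ext_int`. -/
theorem homR_ext {T : Type} [CommRing T] {f g : R0 →+* T} (hx : f xR = g xR) (hy : f yR = g yR)
    (ht : f tR = g tR) : f = g := by
  refine AdjoinRoot.ringHom_ext (MvPolynomial.ringHom_ext' (RingHom.ext_int _ _) ?_) hx
  exact Fin.forall_fin_two.2 ⟨hy, ht⟩

instance : Fact (Nat.Prime 5) := ⟨by norm_num⟩

/-- The residue field `𝔽₅(t)`. -/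
abbrev K0 : Type := FractionRing (ZMod 5)[X]

noncomputable def tK : K0 := algebraMap (ZMod 5)[X] K0 X

theorem five_K0 : (5 : K0) = 0 := by
  have h : (5 : (ZMod 5)[X]) = 0 := by
    rw [← map_ofNat (C : ZMod 5 →+* (ZMod 5)[X]) 5, show (5 : ZMod 5) = 0 from rfl, map_zero]
  rw [← map_ofNat (algebraMap (ZMod 5)[X] K0) 5, h, map_zero]

/-- The residue map. -/
noncomputable def ρ0 : R0 →+* K0 := liftR 0 0 tK (by simp [five_K0])

/-- The prime `(5, x, y)`. -/
noncomputable def P0 : Ideal R0 := RingHom.ker ρ0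

instance : P0.IsPrime := RingHom.ker_isPrime ρ0

/-- R2. Hint: `≥` is clear.  For `≤` let `J` be the right side, `g = liftR 0 0 X _ : R0 →+* (ZMod 5)[X]`, so that
`ρ0 = (algebraMap _ K0).comp g` (`homR_ext`) and `P0 = ker g` (`IsFractionRing.injective`).  As `5 = 0` in
`R0 ⧸ J` there is `ZMod 5 →+* R0 ⧸ J` (`ZMod.lift` or `ZMod.castHom` with `CharP`; or
`Ideal.Quotient.lift` + `Int.quotientSpanNatEquivZMod`), hence `e : (ZMod 5)[X] →+* R0 ⧸ J`
(`Polynomial.eval₂RingHom`) with `X ↦ t`, and `e.comp g = Ideal.Quotient.mk J` by `homR_ext`. -/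
theorem P0_eq : P0 = Ideal.span {5, xR, yR} := by
  have h5 : (5 : (ZMod 5)[X]) = 0 := by
    rw [← map_ofNat (C : ZMod 5 →+* (ZMod 5)[X]) 5, show (5 : ZMod 5) = 0 from rfl, map_zero]
  refine le_antisymm (fun r hr => ?_) (Ideal.span_le.2 ?_)
  · let g : R0 →+* (ZMod 5)[X] := liftR 0 0 X (by simp [h5])
    have h1 : ρ0 = (algebraMap (ZMod 5)[X] K0).comp g :=
      homR_ext (by simp [ρ0, g]) (by simp [ρ0, g]) (by simp [ρ0, g, tK])
    have h2 : g r = 0 := IsFractionRing.injective (ZMod 5)[X] K0 (by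
      rw [map_zero, ← RingHom.comp_apply, ← h1]; exact hr)
    set J : Ideal R0 := Ideal.span {5, xR, yR}
    have h3 : ((5 : ℕ) : R0 ⧸ J) = 0 := by
      rw [← map_natCast (Ideal.Quotient.mk J), Ideal.Quotient.eq_zero_iff_mem]
      exact Ideal.subset_span (by simp)
    let e : (ZMod 5)[X] →+* R0 ⧸ J :=
      eval₂RingHom (ZMod.castHom (ringChar.dvd h3) (R0 ⧸ J)) (Ideal.Quotient.mk J tR)
    have h4 : e.comp g = Ideal.Quotient.mk J := by
      refine homR_ext ?_ ?_ ?_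
      · rw [RingHom.comp_apply, liftR_x, map_zero, eq_comm, Ideal.Quotient.eq_zero_iff_mem]
        exact Ideal.subset_span (by simp)
      · rw [RingHom.comp_apply, liftR_y, map_zero, eq_comm, Ideal.Quotient.eq_zero_iff_mem]
        exact Ideal.subset_span (by simp)
      · rw [RingHom.comp_apply, liftR_t, coe_eval₂RingHom, eval₂_X]
    rw [← Ideal.Quotient.eq_zero_iff_mem, ← h4, RingHom.comp_apply, h2, map_zero]
  · rintro r (rfl | rfl | rfl)
    · exact (map_ofNat ρ0 5).trans five_K0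
    · exact liftR_x _ _ _ _
    · exact liftR_y _ _ _ _

/-- R3. Hint: `ψ = liftR (C (tK ^ 4) * X ^ 5) (C (tK ^ 3) * X ^ 4) (C tK) _ : R0 →+* K0[X]`, `Q = ker ψ` is prime,
`⊥ < Q` (`5 ∈ Q`), `Q ≤ P0` as `ρ0 = (evalRingHom 0).comp ψ` (`homR_ext`), `yR ∈ P0 \ Q`.  Then
`Ideal.height_strict_mono_of_isPrime`/`Ideal.height_add_one_le_of_lt_of_isPrime`-type lemmas or an
`LTSeries` in `PrimeSpectrum`. -/
theorem two_le_height : 2 ≤ P0.height := by
  have h5 : (5 : K0[X]) = 0 := by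
    rw [← map_ofNat (C : K0 →+* K0[X]) 5, five_K0, map_zero]
  have h10 : (10 : K0[X]) = 0 := by
    rw [show (10 : K0[X]) = 2 * 5 by norm_num, h5, mul_zero]
  have hrel : (C (tK ^ 4) * X ^ 5 : K0[X]) ^ 4 + 5 * (C (tK ^ 4) * X ^ 5) ^ 3 +
      10 * (C (tK ^ 4) * X ^ 5) ^ 2 + 10 * (C (tK ^ 4) * X ^ 5) + 5 =
      C tK * (C (tK ^ 3) * X ^ 4) ^ 5 := by
    rw [h5, h10, map_pow, map_pow]
    ring
  let ψ : R0 →+* K0[X] := liftR (C (tK ^ 4) * X ^ 5) (C (tK ^ 3) * X ^ 4) (C tK) hrel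
  have htK : tK ≠ 0 := by
    rw [tK]
    exact (map_ne_zero_iff _ (IsFractionRing.injective (ZMod 5)[X] K0)).2 X_ne_zero
  have hρ : ρ0 = (evalRingHom (0 : K0)).comp ψ := by
    refine homR_ext ?_ ?_ ?_
    · simp [ρ0, ψ]
    · simp [ρ0, ψ]
    · simp [ρ0, ψ]
  let Q : Ideal R0 := RingHom.ker ψ
  have hQ : Q.IsPrime := RingHom.ker_isPrime ψ
  have h1 : (⊥ : Ideal R0) < Q := by
    refine bot_lt_iff_ne_bot.2 fun h => ?_
    have : (5 : R0) ∈ Q := by
      rw [RingHom.mem_ker, map_ofNat, h5]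
    rw [h, Ideal.mem_bot] at this
    norm_num at this
  have h2 : Q < P0 := by
    refine lt_of_le_of_ne (fun a ha => ?_) fun h => ?_
    · rw [P0, RingHom.mem_ker, hρ, RingHom.comp_apply, RingHom.mem_ker.1 ha, map_zero]
    · have hy : yR ∈ P0 := by
        rw [P0, RingHom.mem_ker]
        simp [ρ0]
      rw [← h, RingHom.mem_ker] at hy
      simp only [ψ, liftR_y] at hy
      exact mul_ne_zero (C_ne_zero.2 (pow_ne_zero _ htK)) (pow_ne_zero _ X_ne_zero) hy
  have e1 := Ideal.height_add_one_le_of_lt_of_isPrime h1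
  have e2 := Ideal.height_add_one_le_of_lt_of_isPrime h2
  calc (2 : ℕ∞) = 0 + 1 + 1 := by norm_num
    _ ≤ (⊥ : Ideal R0).height + 1 + 1 := by gcongr; exact zero_le
    _ ≤ Q.height + 1 := by gcongr
    _ ≤ P0.height := e2

/-- The local ring. -/
abbrev AA : Type := Localization.AtPrime P0

noncomputable def xA : AA := algebraMap R0 AA xR

noncomputable def yA : AA := algebraMap R0 AA yR

noncomputable def tA : AA := algebraMap R0 AA tR

theorem relA : xA ^ 4 + 5 * xA ^ 3 + 10 * xA ^ 2 + 10 * xA + 5 = tA * yA ^ 5 := by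
  have := congrArg (algebraMap R0 AA) relR
  simpa [xA, yA, tA, map_ofNat] using this

theorem algebraMap_AA_injective : Function.Injective (algebraMap R0 AA) :=
  IsLocalization.injective AA P0.primeCompl_le_nonZeroDivisors

instance : CharZero AA := charZero_of_injective_ringHom algebraMap_AA_injective

theorem yA_ne_zero : yA ≠ 0 := by
  have h : Function.Injective (AdjoinRoot.of fP) := by
    apply AdjoinRoot.of.injective_of_degree_ne_zero
    rw [Polynomial.degree_eq_natDegree fP_monic.ne_zero, fP_natDegree]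
    decide
  rw [yA, yR, map_ne_zero_iff _ algebraMap_AA_injective, map_ne_zero_iff _ h]
  exact MvPolynomial.X_ne_zero _

theorem isUnit_one_add_xA_aux {r : R0} (hr : ρ0 r ≠ 0) : IsUnit (algebraMap R0 AA r) :=
  (IsLocalization.AtPrime.isUnit_to_map_iff AA P0 r).2 hr

theorem isUnit_one_add_xA : IsUnit (1 + xA) := by
  have h := isUnit_one_add_xA_aux (r := 1 + xR) (by simp [ρ0])
  simpa [xA] using h

theorem isUnit_two_add_xA : IsUnit (2 + xA) := by
  have h2 : (2 : K0) ≠ 0 := by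
    intro h
    have h5 := five_K0
    have : (1 : K0) = 0 := by linear_combination h5 - 2 * h
    exact one_ne_zero this
  have h := isUnit_one_add_xA_aux (r := 2 + xR) (by simpa [ρ0, map_ofNat] using h2)
  simpa [xA, map_ofNat] using h

theorem five_mem_sq : (5 : AA) ∈ (Ideal.span {xA, yA} : Ideal AA) ^ 2 := by
  have h := isUnit_one_add_xA_aux (r := 1 + 2 * xR + 2 * xR ^ 2 + xR ^ 3) (by simp [ρ0])
  have hu : IsUnit (1 + 2 * xA + 2 * xA ^ 2 + xA ^ 3) := by simpa [xA, map_ofNat] using h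
  have hx : xA ∈ (Ideal.span {xA, yA} : Ideal AA) := Ideal.subset_span (by simp)
  have hy : yA ∈ (Ideal.span {xA, yA} : Ideal AA) := Ideal.subset_span (by simp)
  rw [← Ideal.mul_unit_mem_iff_mem _ hu,
    show 5 * (1 + 2 * xA + 2 * xA ^ 2 + xA ^ 3) = tA * yA ^ 3 * yA ^ 2 - xA ^ 2 * xA ^ 2 by
      linear_combination relA]
  exact Ideal.sub_mem _ (Ideal.mul_mem_left _ _ (Ideal.pow_mem_pow hy 2))
    (Ideal.mul_mem_left _ _ (Ideal.pow_mem_pow hx 2))

/-- R5. Hint: `Localization.AtPrime.map_eq_maximalIdeal`, `P0_eq`, `Ideal.map_span`, `five_mem_sq`,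
`Ideal.pow_le_self`. -/
theorem maximalIdeal_AA : IsLocalRing.maximalIdeal AA = Ideal.span {xA, yA} := by
  rw [← Localization.AtPrime.map_eq_maximalIdeal]
  have e : P0.map (algebraMap R0 AA) = (Ideal.span {5, xR, yR}).map (algebraMap R0 AA) :=
    congrArg _ P0_eq
  refine e.trans ?_
  rw [Ideal.map_span, Set.image_insert_eq, Set.image_pair, map_ofNat]
  refine le_antisymm (Ideal.span_le.2 ?_) (Ideal.span_mono (Set.subset_insert _ _))
  exact Set.insert_subset (Ideal.pow_le_self two_ne_zero five_mem_sq) Ideal.subset_span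

theorem ringKrullDim_AA_span : (IsLocalRing.maximalIdeal AA).spanFinrank ≤ 2 := by
  rw [maximalIdeal_AA]
  exact (Submodule.spanFinrank_span_le_ncard_of_finite (Set.toFinite _)).trans
    ((Set.ncard_insert_le _ _).trans (by simp))

/-- R5. Hint: `IsLocalization.AtPrime.ringKrullDim_eq_height` with `two_le_height` for `≥`; Krull's height
theorem (`Ideal.height_le_spanFinrank`, `ringKrullDim_le_spanFinrank_maximalIdeal`,
`Submodule.spanFinrank_span_le_ncard_of_finite`) for `≤`. -/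
theorem ringKrullDim_AA : ringKrullDim AA = 2 := by
  refine le_antisymm ((ringKrullDim_le_spanFinrank_maximalIdeal AA).trans ?_) ?_
  · exact_mod_cast ringKrullDim_AA_span
  · rw [IsLocalization.AtPrime.ringKrullDim_eq_height P0 AA]
    exact WithBot.coe_le_coe.2 two_le_height

/-- R5. Hint: `IsRegularLocalRing.of_spanFinrank_maximalIdeal_le`. -/
theorem regular_AA : IsRegularLocalRing AA := by
  refine IsRegularLocalRing.of_spanFinrank_maximalIdeal_le AA ?_
  rw [ringKrullDim_AA]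
  exact_mod_cast ringKrullDim_AA_span

/-- `𝔽₅(t)[y] / (y⁵)`. -/
abbrev B1 : Type := AdjoinRoot (X ^ 5 : K0[X])

/-- `𝔽₅(t)[x, y] / (x², y⁵)`. -/
abbrev BB : Type := DualNumber B1

noncomputable def xB : BB := DualNumber.eps

noncomputable def yB : BB := TrivSqZeroExt.inl (AdjoinRoot.root _)

noncomputable def tB : BB := TrivSqZeroExt.inl (AdjoinRoot.of _ tK)

/-- R6. -/
theorem xB_sq : xB ^ 2 = 0 := by
  rw [sq, xB, DualNumber.eps_mul_eps]

theorem yB_pow_root : (AdjoinRoot.root (X ^ 5 : K0[X])) ^ 5 = 0 := by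
  rw [← AdjoinRoot.mk_X, ← map_pow, AdjoinRoot.mk_self]

/-- R6. Hint: `AdjoinRoot.mk_self`/`eval₂_root`. -/
theorem yB_pow : yB ^ 5 = 0 := by
  rw [yB, TrivSqZeroExt.inl_pow, yB_pow_root, TrivSqZeroExt.inl_zero]

/-- R6. Hint: `five_K0`. -/
theorem five_BB : (5 : BB) = 0 := by
  rw [← map_ofNat (algebraMap B1 BB) 5, ← map_ofNat (AdjoinRoot.of (X ^ 5 : K0[X])) 5, five_K0,
    map_zero, map_zero]

/-- R6. Hint: the `snd` component is `root ^ 4 = mk (X ^ 4)`, `AdjoinRoot.mk_eq_zero`, degrees. -/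
theorem xB_yB_ne_zero : xB * yB ^ 4 ≠ 0 := by
  intro h
  have h1 := congrArg TrivSqZeroExt.snd h
  rw [xB, yB, TrivSqZeroExt.inl_pow, DualNumber.snd_mul, DualNumber.fst_eps, DualNumber.snd_eps,
    zero_mul, zero_add, one_mul, TrivSqZeroExt.fst_inl, TrivSqZeroExt.snd_zero,
    ← AdjoinRoot.mk_X, ← map_pow, AdjoinRoot.mk_eq_zero] at h1
  have h2 := natDegree_le_of_dvd h1 (pow_ne_zero _ X_ne_zero)
  rw [natDegree_X_pow, natDegree_X_pow] at h2
  omega

/-- R6. An augmentation that detects units.  Hint: `ε = (AdjoinRoot.lift (RingHom.id K0) 0 _).comp fst`;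
`TrivSqZeroExt.isUnit_iff_isUnit_fst`; in `B1` write `mk p = of (p.coeff 0) + root * mk p.divX` with `root`
nilpotent (`IsNilpotent.isUnit_add_left_of_commute` / `IsNilpotent.isUnit_add_right_of_commute`). -/
theorem exists_aug : ∃ ε : BB →+* K0, ε xB = 0 ∧ ε yB = 0 ∧ ε tB = tK ∧
    ∀ b, ε b ≠ 0 → IsUnit b := by
  let e : B1 →+* K0 := AdjoinRoot.lift (RingHom.id K0) 0 (by simp)
  have he : ∀ b : B1, e b ≠ 0 → IsUnit b := fun b hb => by
    obtain ⟨p, rfl⟩ := AdjoinRoot.mk_surjective b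
    have h1 : e (AdjoinRoot.mk _ p) = p.coeff 0 := by
      rw [AdjoinRoot.lift_mk, eval₂_at_zero, RingHom.id_apply]
    rw [h1] at hb
    rw [← X_mul_divX_add p, map_add, map_mul, AdjoinRoot.mk_X, AdjoinRoot.mk_C]
    have h2 : IsNilpotent (AdjoinRoot.root (X ^ 5 : K0[X]) * AdjoinRoot.mk _ p.divX) :=
      ⟨5, by rw [mul_pow, yB_pow_root, zero_mul]⟩
    exact h2.isUnit_add_right_of_commute ((IsUnit.mk0 _ hb).map _) (Commute.all _ _)
  refine ⟨e.comp (TrivSqZeroExt.fstHom B1 B1 B1).toRingHom, ?_, ?_, ?_, fun b hb => ?_⟩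
  · change e (TrivSqZeroExt.fst xB) = 0
    rw [xB, DualNumber.fst_eps, map_zero]
  · change e (TrivSqZeroExt.fst yB) = 0
    rw [yB, TrivSqZeroExt.fst_inl, AdjoinRoot.lift_root]
  · change e (TrivSqZeroExt.fst tB) = tK
    rw [tB, TrivSqZeroExt.fst_inl, AdjoinRoot.lift_of, RingHom.id_apply]
  · exact TrivSqZeroExt.isUnit_iff_isUnit_fst.2 (he _ hb)

theorem exists_der_aux {B : Type} [CommRing B] (x y t : B) (hx2 : x ^ 2 = 0) (hy5 : y ^ 5 = 0)
    (h5 : (5 : B) = 0) (ε : B →+* K0) (hx : ε x = 0) (hy : ε y = 0) (ht : ε t = tK)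
    (hu : ∀ b, ε b ≠ 0 → IsUnit b) : ∃ (ρ : AA →+* B) (D : Fin 3 → AA →+ B),
    (∀ k r s, D k (r * s) = ρ r * D k s + D k r * ρ s) ∧ ρ xA = x ∧ ρ yA = y ∧
      D 0 xA = 1 ∧ D 1 xA = 0 ∧ D 2 xA = 0 ∧ D 1 yA = 0 ∧ D 2 yA = 1 ∧ D 1 tA = 1 := by
  let x' : TrivSqZeroExt B (Fin 3 → B) :=
    TrivSqZeroExt.inl x + TrivSqZeroExt.inr (Pi.single 0 1)
  let y' : TrivSqZeroExt B (Fin 3 → B) :=
    TrivSqZeroExt.inl y + TrivSqZeroExt.inr (Pi.single 2 1)
  let t' : TrivSqZeroExt B (Fin 3 → B) :=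
    TrivSqZeroExt.inl t + TrivSqZeroExt.inr (Pi.single 1 1)
  have h5' : (5 : TrivSqZeroExt B (Fin 3 → B)) = 0 := by
    rw [← map_ofNat (algebraMap B (TrivSqZeroExt B (Fin 3 → B))) 5, h5, map_zero]
  have hx3 : x ^ 3 = 0 := by rw [pow_succ, hx2, zero_mul]
  have hx4 : x ^ 4 = 0 := by rw [pow_succ, hx3, zero_mul]
  have hx' : x' ^ 4 = 0 := by
    refine TrivSqZeroExt.ext ?_ ?_
    · simp [x', hx4]
    · rw [TrivSqZeroExt.snd_pow]
      simp [x', hx3]
  have hy' : y' ^ 5 = 0 := by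
    refine TrivSqZeroExt.ext ?_ ?_
    · simp [y', hy5]
    · rw [TrivSqZeroExt.snd_pow, ← Nat.cast_smul_eq_nsmul B, Nat.cast_ofNat, h5, zero_smul,
        TrivSqZeroExt.snd_zero]
  have hrel : x' ^ 4 + 5 * x' ^ 3 + 10 * x' ^ 2 + 10 * x' + 5 = t' * y' ^ 5 := by
    linear_combination hx' - t' * hy' + (x' ^ 3 + 2 * x' ^ 2 + 2 * x' + 1) * h5'
  let Φ : R0 →+* TrivSqZeroExt B (Fin 3 → B) := liftR x' y' t' hrel
  let π : TrivSqZeroExt B (Fin 3 → B) →+* B :=
    (TrivSqZeroExt.fstHom B B (Fin 3 → B)).toRingHom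
  have hπ : ∀ z : TrivSqZeroExt B (Fin 3 → B), π z = z.fst := fun _ => rfl
  have hρ : ε.comp (π.comp Φ) = ρ0 := by
    refine homR_ext ?_ ?_ ?_
    · simp [Φ, ρ0, hπ, x', hx]
    · simp [Φ, ρ0, hπ, y', hy]
    · simp [Φ, ρ0, hπ, t', ht]
  have hunit : ∀ s : P0.primeCompl, IsUnit (Φ s) := fun s => by
    rw [TrivSqZeroExt.isUnit_iff_isUnit_fst]
    refine hu _ fun h => s.2 ?_
    change ρ0 s = 0
    rw [← hρ]
    exact h
  let Ψ : AA →+* TrivSqZeroExt B (Fin 3 → B) :=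
    IsLocalization.lift (M := P0.primeCompl) hunit
  have ex : Ψ xA = x' := by rw [xA, IsLocalization.lift_eq, liftR_x]
  have ey : Ψ yA = y' := by rw [yA, IsLocalization.lift_eq, liftR_y]
  have et : Ψ tA = t' := by rw [tA, IsLocalization.lift_eq, liftR_t]
  let D : Fin 3 → AA →+ B := fun k =>
    { toFun := fun r => (Ψ r).snd k
      map_zero' := by simp
      map_add' := fun r s => by simp }
  have hD : ∀ k r, D k r = (Ψ r).snd k := fun _ _ => rfl
  refine ⟨π.comp Ψ, D, fun k r s => ?_, ?_, ?_, ?_, ?_, ?_, ?_, ?_, ?_⟩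
  · rw [hD, hD, hD, map_mul, TrivSqZeroExt.snd_mul]
    simp [hπ, mul_comm]
  · simp [hπ, ex, x']
  · simp [hπ, ey, y']
  · simp [hD, ex, x']
  · simp [hD, ex, x']
  · simp [hD, ex, x']
  · simp [hD, ey, y']
  · simp [hD, ey, y']
  · simp [hD, et, t']

/-- R7. Hint: `T = TrivSqZeroExt BB (Fin 3 → BB)`,
`Φ = liftR (inl xB + inr (Pi.single 0 1)) (inl yB + inr (Pi.single 2 1)) (inl tB + inr (Pi.single 1 1)) _`
(`5 = 0` in `T`, `x⁴ = 0`, `y⁵ = 0`: `TrivSqZeroExt.fst_pow`, `snd_pow`); `ε ∘ fst ∘ Φ = ρ0` (`homR_ext`), so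
`Φ` maps `P0.primeCompl` to units (`exists_aug`, `isUnit_iff_isUnit_fst`); `IsLocalization.lift`;
`ρ = fst ∘ Φ`, `D k = (snd ∘ Φ) k`, `snd_mul`. -/
theorem exists_der : ∃ (ρ : AA →+* BB) (D : Fin 3 → AA →+ BB),
    (∀ k r s, D k (r * s) = ρ r * D k s + D k r * ρ s) ∧ ρ xA = xB ∧ ρ yA = yB ∧
      D 0 xA = 1 ∧ D 1 xA = 0 ∧ D 2 xA = 0 ∧ D 1 yA = 0 ∧ D 2 yA = 1 ∧ D 1 tA = 1 := by
  obtain ⟨ε, hx, hy, ht, hu⟩ := exists_aug
  exact exists_der_aux xB yB tB xB_sq yB_pow five_BB ε hx hy ht hu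

end Crest.Agent.R171
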