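import Crest.Agent.R171.Van
import Crest.Agent.R171.Det
import Crest.Agent.R171.Lam
import Crest.Agent.R171.Bridge
import Crest.Agent.R171.Ring

/-! # R171, assembly -/

set_option autoImplicit false

namespace Crest.Agent.R171

open Crest.AlgebraR

/-- The abstract criterion. -/
theorem not_injective {A F B : Type} [CommRing A] [CommRing F] [CommRing B] (ι : A →+* F)
    (ρ : A →+* B) (D : Fin 3 → A →+ B) (hD : ∀ k r s, D k (r * s) = ρ r * D k s + D k r * ρ s)
    (a b : A) (w c : Aˣ) (hu : ((w ^ 5 : Aˣ) : A) = 1 - a * b) (hc : (c : A) = 1 + w)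
    (hb : IsUnit (ι b)) (h1b : D 1 b = 0) (h1u : D 1 (w ^ 5 : Aˣ) = 0)
    (h2u : D 2 (w ^ 5 : Aˣ) = 0) (hab : D 1 a * ρ b = 0) (h1c : D 1 c = 0) (h2c : D 2 c = 0)
    (hne : 4 * D 0 c * (D 1 a * D 2 b) ≠ 0) :
    ¬ Function.Injective (Steinberg.H3map ι).hom := by
  intro hinj
  obtain ⟨θ, d, μ, hd, hμ, hker⟩ :=
    bridge (Steinberg.stMap ι) (Steinberg.trivialHom ι) (fun _ => rfl) hinj
  obtain ⟨Λ, _, _, J, hρ, hDJ⟩ := exists_jet ρ D hD
  obtain ⟨ν, hν⟩ := univ_lift J.isCoc3_φ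
  have hid : ∀ v : Aˣ, Units.map ((RingHom.id A : A →+* A) : A →* A) v = v := fun v => by
    ext; simp
  have e1 := (stSys A).inv_nat (stSys A) (MonoidHom.id _) (RingHom.id A) d (fun _ _ _ => rfl)
    isCoc3_univ (isCoc3_cob θ) hd a b (w ^ 5) c
  have e2 := (stSys A).inv_nat (stSys F) (Steinberg.stMap ι) ι μ (stMap_X ι)
    isCoc3_univ isCoc3_univ hμ a b (w ^ 5) c
  have e3 := (stSys A).inv_nat (stSys A) (MonoidHom.id _) (RingHom.id A) ν (fun _ _ _ => rfl)
    isCoc3_univ J.isCoc3_φ hν a b (w ^ 5) c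
  rw [hid, hid, RingHom.id_apply, RingHom.id_apply] at e1 e3
  rw [(stSys A).inv_cob hu] at e1
  obtain ⟨y, hy⟩ := hb
  have hv := (stSys F).inv_vanish (isCoc3_univ (G := Steinberg.St F)) (a := ι a) (y := y)
    (w := Units.map (ι : A →* F) w) (c := Units.map (ι : A →* F) c)
    (by rw [← map_pow, hy]; simp only [Units.coe_map, MonoidHom.coe_coe, hu, map_sub, map_one,
      map_mul])
    (by simp only [Units.coe_map, MonoidHom.coe_coe, hc, map_add, map_one])
  rw [← map_pow, hy, e2, ← map_nsmul] at hv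
  have h0 := hker _ (by rw [map_nsmul, ← e1, smul_zero]) hv
  have e4 := J.inv_φ (a := a) (b := b) (u := w ^ 5) (c := c) (by rw [hDJ]; exact h1b)
    (by rw [hDJ]; exact h1u) (by rw [hDJ]; exact h2u) (by rw [hDJ, hρ]; exact hab)
    (by rw [hDJ]; exact h1c) (by rw [hDJ]; exact h2c)
  have e5 := congrArg ν h0
  rw [map_nsmul, ← e3, e4, map_zero, hDJ] at e5
  apply hne
  have h1 := J.ρ_mul_inv c
  rw [two_nsmul] at e5
  linear_combination (-J.ρ c) * e5 - 4 * D 0 c * (D 1 a * D 2 b) * h1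

theorem not_injective' {A B : Type} [CommRing A] [IsDomain A] [CommRing B] (x y t : A) (xb yb : B)
    (rel : x ^ 4 + 5 * x ^ 3 + 10 * x ^ 2 + 10 * x + 5 = t * y ^ 5) (hy0 : y ≠ 0)
    (hw : IsUnit (1 + x)) (hc : IsUnit (2 + x)) (h5 : (5 : B) = 0) (hyb : yb ^ 5 = 0)
    (hne : xb * yb ^ 4 ≠ 0) (ρ : A →+* B) (D : Fin 3 → A →+ B)
    (hD : ∀ k r s, D k (r * s) = ρ r * D k s + D k r * ρ s) (hx : ρ x = xb) (hy : ρ y = yb)
    (h0x : D 0 x = 1) (h1x : D 1 x = 0) (h2x : D 2 x = 0) (h1y : D 1 y = 0) (h2y : D 2 y = 1)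
    (h1t : D 1 t = 1) :
    ¬ Function.Injective (Steinberg.H3map (algebraMap A (FractionRing A))).hom := by
  obtain ⟨w, hw⟩ := hw
  obtain ⟨c, hc⟩ := hc
  have hone : ∀ k, D k 1 = 0 := fun k => by simpa using hD k 1 1
  have hpow : ∀ k r, D k r = 0 → ∀ n : ℕ, D k (r ^ n) = 0 := by
    intro k r hr n
    induction n with
    | zero => simpa using hone k
    | succ n ih => rw [pow_succ, hD, hr, ih]; simp
  have htwo : ∀ k, D k 2 = 0 := fun k => by
    rw [← one_add_one_eq_two (R := A), map_add, hone, add_zero]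
  have h1a : D 1 (-(x * t * y ^ 4)) = -(xb * yb ^ 4) := by
    rw [map_neg, hD, hpow 1 y h1y, hD, h1t, h1x, map_pow, hx, hy]; ring
  refine not_injective _ ρ D hD (-(x * t * y ^ 4)) y w c ?_ ?_ ?_ h1y ?_ ?_ ?_ ?_ ?_ ?_
  · rw [Units.val_pow_eq_pow_val, hw]
    linear_combination x * rel
  · rw [hc, hw]; ring
  · exact IsUnit.mk0 _ fun h => hy0 (IsFractionRing.injective A (FractionRing A)
      (h.trans (map_zero _).symm))
  · rw [Units.val_pow_eq_pow_val]
    exact hpow 1 _ (by rw [hw, map_add, hone, h1x, add_zero]) 5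
  · rw [Units.val_pow_eq_pow_val]
    exact hpow 2 _ (by rw [hw, map_add, hone, h2x, add_zero]) 5
  · rw [h1a, hy]
    linear_combination (-xb) * hyb
  · rw [hc, map_add, htwo, h1x, add_zero]
  · rw [hc, map_add, htwo, h2x, add_zero]
  · rw [hc, map_add, htwo, h0x, h1a, h2y]
    intro h
    apply hne
    linear_combination h + (xb * yb ^ 4) * h5

theorem final_of {A : Type} [CommRing A] [IsDomain A] (hreg : IsRegularLocalRing A) (x y : A)
    (hdim : ringKrullDim A = 2) (hchar : CharZero A)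
    (hmax : IsLocalRing.maximalIdeal A = Ideal.span {x, y})
    (h5 : (5 : A) ∈ (Ideal.span {x, y} : Ideal A) ^ 2)
    (h : ¬ Function.Injective (Steinberg.H3map (algebraMap A (FractionRing A))).hom) :
    ∃ (A : Type) (_ : CommRing A) (_ : IsDomain A) (_ : IsRegularLocalRing A),
      ringKrullDim A = 2 ∧ CharZero A ∧ (5 : A) ∈ IsLocalRing.maximalIdeal A ^ 2 ∧
        ¬ Function.Injective (Steinberg.H3map (algebraMap A (FractionRing A))).hom :=
  ⟨A, _, inferInstance, hreg, hdim, hchar, by rw [hmax]; exact h5, h⟩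

theorem final :
    ∃ (A : Type) (_ : CommRing A) (_ : IsDomain A) (_ : IsRegularLocalRing A),
      ringKrullDim A = 2 ∧ CharZero A ∧ (5 : A) ∈ IsLocalRing.maximalIdeal A ^ 2 ∧
        ¬ Function.Injective (Steinberg.H3map (algebraMap A (FractionRing A))).hom := by
  obtain ⟨ρ, D, hD, hx, hy, h0x, h1x, h2x, h1y, h2y, h1t⟩ := exists_der
  exact final_of regular_AA xA yA ringKrullDim_AA inferInstance maximalIdeal_AA five_mem_sq
    (not_injective' xA yA tA xB yB relA yA_ne_zero isUnit_one_add_xA isUnit_two_add_xA five_BB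
      yB_pow xB_yB_ne_zero ρ D hD hx hy h0x h1x h2x h1y h2y h1t)

end Crest.Agent.R171
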