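import Mathlib

/-! # R171, Steinberg systems: definitions and elementary conjugation formulas -/

set_option autoImplicit false

open scoped commutatorElement

namespace Crest.Agent.R171

/-- Index types with at least five elements. -/
class Big (I : Type) : Prop where
  ex : ∀ i j k l : I, ∃ n, n ≠ i ∧ n ≠ j ∧ n ≠ k ∧ n ≠ l

instance : Big ℕ := ⟨fun i j k l => ⟨i + j + k + l + 1, by omega, by omega, by omega, by omega⟩⟩

instance : Big (Fin 5) := ⟨by decide⟩

/-- A family of elements of a group satisfying the Steinberg relations. -/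
@[ext]
structure Sys (I R G : Type) [CommRing R] [Group G] where
  X : I → I → R → G
  diag : ∀ (i : I) (r : R), X i i r = 1
  add : ∀ {i j : I}, i ≠ j → ∀ a b : R, X i j a * X i j b = X i j (a + b)
  comm : ∀ {i j k l : I}, i ≠ j → k ≠ l → j ≠ k → i ≠ l → ∀ a b : R, Commute (X i j a) (X k l b)
  mul : ∀ {i j l : I}, i ≠ j → j ≠ l → i ≠ l → ∀ a b : R, ⁅X i j a, X j l b⁆ = X i l (a * b)

/-- The exponent vector `e_p - e_q`. -/
def ev {I : Type} [DecidableEq I] (p q : I) : I → ℤ :=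
  fun k => (if k = p then 1 else 0) - (if k = q then 1 else 0)

namespace Sys

variable {I J R R' G G' : Type} [CommRing R] [CommRing R'] [Group G] [Group G']

/-- Image of a system under a group homomorphism. -/
def map (S : Sys I R G) (f : G →* G') : Sys I R G' where
  X i j r := f (S.X i j r)
  diag i r := by rw [S.diag, map_one]
  add h a b := by rw [← map_mul, S.add h]
  comm h1 h2 h3 h4 a b := (S.comm h1 h2 h3 h4 a b).map f
  mul h1 h2 h3 a b := by rw [← map_commutatorElement, S.mul h1 h2 h3]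

/-- Restriction of a system to a smaller index set. -/
def comap (S : Sys I R G) (ι : J → I) (hι : Function.Injective ι) : Sys J R G where
  X i j r := S.X (ι i) (ι j) r
  diag _ r := S.diag _ r
  add h a b := S.add (hι.ne h) a b
  comm h1 h2 h3 h4 a b := S.comm (hι.ne h1) (hι.ne h2) (hι.ne h3) (hι.ne h4) a b
  mul h1 h2 h3 a b := S.mul (hι.ne h1) (hι.ne h2) (hι.ne h3) a b

/-- Restriction of a system along a ring homomorphism. -/
def restr (S : Sys I R' G) (ρ : R →+* R') : Sys I R G where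
  X i j r := S.X i j (ρ r)
  diag i _ := S.diag i _
  add h a b := by rw [S.add h, map_add]
  comm h1 h2 h3 h4 _ _ := S.comm h1 h2 h3 h4 _ _
  mul h1 h2 h3 a b := by rw [S.mul h1 h2 h3, map_mul]

/-- A system all of whose elements lie in a subgroup, as a system in the subgroup. -/
def cod (S : Sys I R G) (H : Subgroup G) (h : ∀ i j r, S.X i j r ∈ H) : Sys I R H where
  X i j r := ⟨S.X i j r, h i j r⟩
  diag i r := Subtype.ext (S.diag i r)
  add h a b := Subtype.ext (S.add h a b)
  comm h1 h2 h3 h4 a b := Subtype.ext (S.comm h1 h2 h3 h4 a b)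
  mul h1 h2 h3 a b := Subtype.ext (S.mul h1 h2 h3 a b)

variable (S : Sys I R G)

@[simp] theorem map_X (f : G →* G') (i j : I) (r : R) : (S.map f).X i j r = f (S.X i j r) := rfl

@[simp] theorem comap_X (ι : J → I) (hι : Function.Injective ι) (i j : J) (r : R) :
    (S.comap ι hι).X i j r = S.X (ι i) (ι j) r := rfl

@[simp] theorem restr_X (S : Sys I R' G) (ρ : R →+* R') (i j : I) (r : R) :
    (S.restr ρ).X i j r = S.X i j (ρ r) := rfl

@[simp] theorem cod_X (H : Subgroup G) (h : ∀ i j r, S.X i j r ∈ H) (i j : I) (r : R) :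
    ((S.cod H h).X i j r : G) = S.X i j r := rfl

theorem cod_map (H : Subgroup G) (h : ∀ i j r, S.X i j r ∈ H) :
    (S.cod H h).map H.subtype = S := rfl

/-- `w_{ij}(u) = x_{ij}(u) x_{ji}(-u⁻¹) x_{ij}(u)`. -/
def w (i j : I) (u : Rˣ) : G := S.X i j u * S.X j i (-((u⁻¹ : Rˣ) : R)) * S.X i j u

/-- `h_{ij}(u) = w_{ij}(u) w_{ij}(-1)`. -/
def h (i j : I) (u : Rˣ) : G := S.w i j u * S.w i j (-1)

/-- The Steinberg symbol `{s, u} = h(su) h(s)⁻¹ h(u)⁻¹`. -/
def sym (i j : I) (s u : Rˣ) : G := S.h i j (s * u) * (S.h i j s)⁻¹ * (S.h i j u)⁻¹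

/-- The Dennis–Stein symbol `⟨a, b⟩`, where `u = 1 - a b`. -/
def ds (i j : I) (a b : R) (u : Rˣ) : G :=
  S.X j i (-(b * ((u⁻¹ : Rˣ) : R))) * S.X i j (-a) * S.X j i b * S.X i j (a * ((u⁻¹ : Rˣ) : R)) *
    (S.h i j u)⁻¹

/-- `g` commutes with the whole system. -/
def Cen (g : G) : Prop := ∀ (k l : I) (r : R), Commute g (S.X k l r)

/-- `g` acts on the system like the diagonal matrix with entries `u ^ α k`. -/
def Diag (g : G) (u : Rˣ) (α : I → ℤ) : Prop :=
  ∀ (k l : I) (r : R), g * S.X k l r * g⁻¹ = S.X k l (((u ^ (α k - α l) : Rˣ) : R) * r)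

@[simp] theorem map_w (f : G →* G') (i j : I) (u : Rˣ) : (S.map f).w i j u = f (S.w i j u) := by
  simp [w]

@[simp] theorem map_h (f : G →* G') (i j : I) (u : Rˣ) : (S.map f).h i j u = f (S.h i j u) := by
  simp [h]

@[simp] theorem map_sym (f : G →* G') (i j : I) (s u : Rˣ) :
    (S.map f).sym i j s u = f (S.sym i j s u) := by
  simp [sym]

@[simp] theorem map_ds (f : G →* G') (i j : I) (a b : R) (u : Rˣ) :
    (S.map f).ds i j a b u = f (S.ds i j a b u) := by
  simp [ds]

@[simp] theorem comap_w (ι : J → I) (hι : Function.Injective ι) (i j : J) (u : Rˣ) :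
    (S.comap ι hι).w i j u = S.w (ι i) (ι j) u := rfl

@[simp] theorem comap_h (ι : J → I) (hι : Function.Injective ι) (i j : J) (u : Rˣ) :
    (S.comap ι hι).h i j u = S.h (ι i) (ι j) u := rfl

@[simp] theorem comap_sym (ι : J → I) (hι : Function.Injective ι) (i j : J) (s u : Rˣ) :
    (S.comap ι hι).sym i j s u = S.sym (ι i) (ι j) s u := rfl

@[simp] theorem comap_ds (ι : J → I) (hι : Function.Injective ι) (i j : J) (a b : R) (u : Rˣ) :
    (S.comap ι hι).ds i j a b u = S.ds (ι i) (ι j) a b u := rfl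

@[simp] theorem restr_w (S : Sys I R' G) (ρ : R →+* R') (i j : I) (u : Rˣ) :
    (S.restr ρ).w i j u = S.w i j (Units.map (ρ : R →* R') u) := by
  simp [w]

@[simp] theorem restr_h (S : Sys I R' G) (ρ : R →+* R') (i j : I) (u : Rˣ) :
    (S.restr ρ).h i j u = S.h i j (Units.map (ρ : R →* R') u) := by
  have : Units.map (ρ : R →* R') (-1) = -1 := by ext; simp
  simp [h, this]

@[simp] theorem restr_ds (S : Sys I R' G) (ρ : R →+* R') (i j : I) (a b : R) (u : Rˣ) :
    (S.restr ρ).ds i j a b u = S.ds i j (ρ a) (ρ b) (Units.map (ρ : R →* R') u) := by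
  simp [ds]

theorem X_add (i j : I) (a b : R) : S.X i j a * S.X i j b = S.X i j (a + b) := by
  by_cases h : i = j
  · subst h; simp [S.diag]
  · exact S.add h a b

@[simp] theorem X_zero (i j : I) : S.X i j 0 = 1 := by
  have := S.X_add i j 0 0
  simpa using this

theorem X_inv (i j : I) (a : R) : (S.X i j a)⁻¹ = S.X i j (-a) := by
  rw [inv_eq_iff_mul_eq_one, S.X_add]; simp

theorem X_comm_self (i j : I) (a b : R) : Commute (S.X i j a) (S.X i j b) := by
  rw [Commute, SemiconjBy, S.X_add, S.X_add, add_comm]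

/-- `x_{ij}(a) x_{jn}(s) x_{ij}(a)⁻¹ = x_{in}(a s) x_{jn}(s)`. -/
theorem conj_X_left {i j n : I} (hij : i ≠ j) (hjn : j ≠ n) (hin : i ≠ n) (a s : R) :
    S.X i j a * S.X j n s * (S.X i j a)⁻¹ = S.X i n (a * s) * S.X j n s := by
  rw [← S.mul hij hjn hin, commutatorElement_def]; group

/-- `x_{ij}(a) x_{ni}(r) x_{ij}(a)⁻¹ = x_{nj}(-(r a)) x_{ni}(r)`. -/
theorem conj_X_right {i j n : I} (hij : i ≠ j) (hni : n ≠ i) (hnj : n ≠ j) (a r : R) :
    S.X i j a * S.X n i r * (S.X i j a)⁻¹ = S.X n j (-(r * a)) * S.X n i r := by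
  rw [← S.X_inv, ← S.mul hni hij hnj, commutatorElement_def]; group

theorem conj_of_commute {g x : G} (h : Commute g x) : g * x * g⁻¹ = x := by
  rw [h.eq]; group

/-- Column action of `x_{ij}(a)`: `(r, s) ↦ (r + a s, s)`. -/
theorem col_ij {i j n : I} (hij : i ≠ j) (hni : n ≠ i) (hnj : n ≠ j) (a r s : R) :
    S.X i j a * (S.X i n r * S.X j n s) * (S.X i j a)⁻¹ = S.X i n (r + a * s) * S.X j n s := by
  have h1 := conj_of_commute (S.comm hij hni.symm hij.symm hni.symm a r)
  have h2 := S.conj_X_left hij hnj.symm hni.symm a s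
  calc _ = (S.X i j a * S.X i n r * (S.X i j a)⁻¹) * (S.X i j a * S.X j n s * (S.X i j a)⁻¹) := by
        group
    _ = _ := by rw [h1, h2, ← mul_assoc, S.X_add]

/-- Column action of `x_{ji}(b)`: `(r, s) ↦ (r, s + b r)`. -/
theorem col_ji {i j n : I} (hij : i ≠ j) (hni : n ≠ i) (hnj : n ≠ j) (b r s : R) :
    S.X j i b * (S.X i n r * S.X j n s) * (S.X j i b)⁻¹ = S.X i n r * S.X j n (s + b * r) := by
  have hc : ∀ r s, Commute (S.X i n r) (S.X j n s) :=
    fun r s => S.comm hni.symm hnj.symm hnj hni.symm r s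
  rw [(hc r s).eq, S.col_ij hij.symm hnj hni, (hc _ _).eq]

/-- Row action of `x_{ij}(a)`: `(r, s) ↦ (r, s - r a)`. -/
theorem row_ij {i j n : I} (hij : i ≠ j) (hni : n ≠ i) (hnj : n ≠ j) (a r s : R) :
    S.X i j a * (S.X n i r * S.X n j s) * (S.X i j a)⁻¹ = S.X n i r * S.X n j (s - r * a) := by
  have h1 := conj_of_commute (S.comm hij hnj hnj.symm hij a s)
  have h2 := S.conj_X_right hij hni hnj a r
  have hc : Commute (S.X n j (-(r * a))) (S.X n i r) := S.comm hnj hni hnj.symm hni _ _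
  calc _ = (S.X i j a * S.X n i r * (S.X i j a)⁻¹) * (S.X i j a * S.X n j s * (S.X i j a)⁻¹) := by
        group
    _ = _ := by
        rw [h1, h2, hc.eq, mul_assoc, S.X_add]; congr 2; ring

/-- Row action of `x_{ji}(b)`: `(r, s) ↦ (r - s b, s)`. -/
theorem row_ji {i j n : I} (hij : i ≠ j) (hni : n ≠ i) (hnj : n ≠ j) (b r s : R) :
    S.X j i b * (S.X n i r * S.X n j s) * (S.X j i b)⁻¹ = S.X n i (r - s * b) * S.X n j s := by
  have hc : ∀ r s, Commute (S.X n i r) (S.X n j s) :=
    fun r s => S.comm hni hnj hni.symm hnj r s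
  rw [(hc r s).eq, S.row_ij hij.symm hnj hni, (hc _ _).eq]

/-- An element commuting with all `x_{ij}(r)` and `x_{ji}(r)` commutes with `w_{ij}(u)`. -/
theorem commute_w {g : G} {i j : I} (h1 : ∀ r, Commute g (S.X i j r))
    (h2 : ∀ r, Commute g (S.X j i r)) (u : Rˣ) : Commute g (S.w i j u) :=
  ((h1 _).mul_right (h2 _)).mul_right (h1 _)

theorem commute_h {g : G} {i j : I} (h1 : ∀ r, Commute g (S.X i j r))
    (h2 : ∀ r, Commute g (S.X j i r)) (u : Rˣ) : Commute g (S.h i j u) :=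
  (S.commute_w h1 h2 _).mul_right (S.commute_w h1 h2 _)

theorem commute_sym {g : G} {i j : I} (h1 : ∀ r, Commute g (S.X i j r))
    (h2 : ∀ r, Commute g (S.X j i r)) (s u : Rˣ) : Commute g (S.sym i j s u) :=
  ((S.commute_h h1 h2 _).mul_right (S.commute_h h1 h2 _).inv_right).mul_right
    (S.commute_h h1 h2 _).inv_right

theorem commute_ds {g : G} {i j : I} (h1 : ∀ r, Commute g (S.X i j r))
    (h2 : ∀ r, Commute g (S.X j i r)) (a b : R) (u : Rˣ) : Commute g (S.ds i j a b u) :=
  ((((h2 _).mul_right (h1 _)).mul_right (h2 _)).mul_right (h1 _)).mul_right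
    (S.commute_h h1 h2 _).inv_right

variable {S}

theorem Cen.w {g : G} (hg : S.Cen g) (i j : I) (u : Rˣ) : Commute g (S.w i j u) :=
  S.commute_w (hg i j) (hg j i) u

theorem Cen.h {g : G} (hg : S.Cen g) (i j : I) (u : Rˣ) : Commute g (S.h i j u) :=
  S.commute_h (hg i j) (hg j i) u

theorem Cen.sym {g : G} (hg : S.Cen g) (i j : I) (s u : Rˣ) : Commute g (S.sym i j s u) :=
  S.commute_sym (hg i j) (hg j i) s u

theorem Cen.ds {g : G} (hg : S.Cen g) (i j : I) (a b : R) (u : Rˣ) :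
    Commute g (S.ds i j a b u) :=
  S.commute_ds (hg i j) (hg j i) a b u

theorem Cen.mul {g g' : G} (hg : S.Cen g) (hg' : S.Cen g') : S.Cen (g * g') :=
  fun k l r => (hg k l r).mul_left (hg' k l r)

theorem Cen.inv {g : G} (hg : S.Cen g) : S.Cen g⁻¹ := fun k l r => (hg k l r).inv_left

theorem Diag.mul {g g' : G} {u : Rˣ} {α α' : I → ℤ} (hg : S.Diag g u α) (hg' : S.Diag g' u α') :
    S.Diag (g * g') u (α + α') := by
  intro k l r
  calc _ = g * (g' * S.X k l r * g'⁻¹) * g⁻¹ := by group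
    _ = _ := by
      rw [hg', hg, ← mul_assoc, ← Units.val_mul, ← zpow_add]
      congr 4; simp only [Pi.add_apply]; ring

theorem Diag.inv {g : G} {u : Rˣ} {α : I → ℤ} (hg : S.Diag g u α) : S.Diag g⁻¹ u (-α) := by
  intro k l r
  have := hg k l (((u ^ ((-α) k - (-α) l) : Rˣ) : R) * r)
  rw [← mul_assoc, ← Units.val_mul, ← zpow_add,
    show α k - α l + ((-α) k - (-α) l) = 0 by simp only [Pi.neg_apply]; ring] at this
  simp only [zpow_zero, Units.val_one, one_mul] at this
  rw [← this]; group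

theorem Diag.commute_X {g : G} {u : Rˣ} {α : I → ℤ} (hg : S.Diag g u α) {k l : I}
    (h : α k = α l) (r : R) : Commute g (S.X k l r) := by
  have := hg k l r
  rw [h, sub_self, zpow_zero, Units.val_one, one_mul] at this
  rw [Commute, SemiconjBy, ← mul_inv_eq_iff_eq_mul, this]

theorem Diag.commute_h {g : G} {u : Rˣ} {α : I → ℤ} (hg : S.Diag g u α) {k l : I}
    (h : α k = α l) (v : Rˣ) : Commute g (S.h k l v) :=
  S.commute_h (hg.commute_X h) (hg.commute_X h.symm) v

end Sys

end Crest.Agent.R171
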