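import Crest.Agent.R171.Inv

/-! # R171, the invariant is killed by 2 when `b` is a unit, `u = w ^ 5` and `c = 1 + w` -/

set_option autoImplicit false

open scoped commutatorElement

namespace Crest.Agent.R171

variable {R G M : Type} [CommRing R] [Group G] [AddCommGroup M]

namespace Sys

variable (S : Sys ℕ R G) {φ : G → G → G → M} (hφ : IsCoc3 φ)
include hφ

/-- V1. Perfectness.  Hint: `x_pq(r) = ⁅x_pn(r), x_nq(1)⁆` and `tor_comm_right` give
`tor φ g g' (x_pq r) = 0`, likewise for `x_qp`; then `tor_mul_right` along the six letters of `h`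
(the set of `x` commuting with `g`, `g'` and having `tor φ g g' x = 0` is closed under products). -/
theorem tor_h_eq_zero {g g' : G} (hg : Commute g g') {p q n : ℕ} (hpq : p ≠ q) (hnp : n ≠ p)
    (hnq : n ≠ q) {x y : Rˣ} {α β : ℕ → ℤ} (hα : S.Diag g x α) (hβ : S.Diag g' y β)
    (h1 : α p = α q) (h2 : α n = α p) (h3 : β p = β q) (h4 : β n = β p) (v : Rˣ) :
    tor φ g g' (S.h p q v) = 0 := by
  let P : G → Prop := fun z => Commute g z ∧ Commute g' z ∧ tor φ g g' z = 0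
  have hm : ∀ {z z'}, P z → P z' → P (z * z') := fun hz hz' =>
    ⟨hz.1.mul_right hz'.1, hz.2.1.mul_right hz'.2.1, by
      rw [tor_mul_right hφ hg hz.1 hz'.1 hz.2.1 hz'.2.1, hz.2.2, hz'.2.2, add_zero]⟩
  have hX : ∀ {k l : ℕ}, k ≠ l → n ≠ k → n ≠ l → α k = α n → α l = α n → β k = β n → β l = β n →
      ∀ r, P (S.X k l r) := fun {k l} hkl hk hl a1 a2 b1 b2 r =>
    ⟨hα.commute_X (a1.trans a2.symm) r, hβ.commute_X (b1.trans b2.symm) r, by
      rw [← mul_one r, ← S.mul hk.symm hl hkl]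
      exact tor_comm_right hφ hg (hα.commute_X a1 _) (hα.commute_X a2.symm _)
        (hβ.commute_X b1 _) (hβ.commute_X b2.symm _)⟩
  have e1 := hX hpq hnp hnq h2.symm (h1.symm.trans h2.symm) h4.symm (h3.symm.trans h4.symm)
  have e2 := hX hpq.symm hnq hnp (h1.symm.trans h2.symm) h2.symm (h3.symm.trans h4.symm) h4.symm
  exact (hm (hm (hm (e1 _) (e2 _)) (e1 _)) (hm (hm (e1 _) (e2 _)) (e1 _))).2.2

/-- V2. Hint: let `T = (S.blk B κ hκ h).lift (slantCoc hφ B)`; in `T` the elements `T.h 0 1 (w ^ 5)` and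
`T.h 0 1 c` commute (`h_diag`, `Diag.commute_h_two`); `Ext.commute_iff`, `lift_h_fst`, `blk_h`. -/
theorem tor_blk_eq_zero {B : G} (κ : Fin 5 → ℕ) (hκ : Function.Injective κ)
    (h : ∀ i j r, Commute B (S.X (κ i) (κ j) r)) {w c : Rˣ} (hc : (c : R) = 1 + w) :
    tor φ B (S.h (κ 0) (κ 1) (w ^ 5)) (S.h (κ 0) (κ 1) c) = 0 := by
  have h1 : Commute (((S.blk B κ hκ h).lift (slantCoc hφ B)).h 0 1 (w ^ 5))
      (((S.blk B κ hκ h).lift (slantCoc hφ B)).h 0 1 c) :=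
    Diag.commute_h_two hc (h_diag _ (by decide) _) (by decide) (by decide)
  have h2 := (Ext.commute_iff.1 h1).2
  simp only [lift_h_fst, slantCoc_ψ, blk_h] at h2
  rw [tor, h2, sub_self]

omit hφ in
/-- V3a. Hint: `A = h 0 3 u * h 1 2 u` is `Diag` for `ev 0 3 + ev 1 2`; `Diag.conj_h` gives
`A (h 0 3 y) A⁻¹ = σ * h 0 3 y`, `A (h 1 2 y) A⁻¹ = σ * h 1 2 y` with the same central
`σ = sym (u ^ 2) y` (`sym_indep`, `sym_cen`, `Cen.h`). -/
theorem commute_AB (u y : Rˣ) :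
    Commute (S.h 0 3 u * S.h 1 2 u) (S.h 0 3 y * (S.h 1 2 y)⁻¹) := by
  have hA := (S.h_diag (p := 0) (q := 3) (by decide) u).mul (S.h_diag (p := 1) (q := 2) (by decide) u)
  have h1 := hA.conj_h 0 3 y
  have h2 := hA.conj_h 1 2 y
  rw [show (ev 0 3 + ev 1 2 : ℕ → ℤ) 0 - (ev 0 3 + ev 1 2 : ℕ → ℤ) 3 = 2 by decide] at h1
  rw [show (ev 0 3 + ev 1 2 : ℕ → ℤ) 1 - (ev 0 3 + ev 1 2 : ℕ → ℤ) 2 = 2 by decide,
    S.sym_indep (k := 0) (l := 3) (by decide) (by decide)] at h2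
  have hc := S.sym_cen (i := 0) (j := 3) (by decide) (u ^ (2 : ℤ)) y
  have h3 := ((hc.h 0 3 y).mul_right (hc.h 1 2 y).inv_right).eq
  rw [Commute, SemiconjBy, ← mul_inv_eq_iff_eq_mul]
  generalize S.h 0 3 u * S.h 1 2 u = A at h1 h2 ⊢
  calc _ = (A * S.h 0 3 y * A⁻¹) * (A * S.h 1 2 y * A⁻¹)⁻¹ := by group
    _ = S.sym 0 3 (u ^ (2 : ℤ)) y * (S.h 0 3 y * (S.h 1 2 y)⁻¹) * (S.sym 0 3 (u ^ (2 : ℤ)) y)⁻¹ := by
      rw [h1, h2]; group
    _ = _ := by rw [h3]; group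

/-- V3b. One half of the splitting along the eigenspaces of `B`.  Hint: `A = A' * (A'⁻¹ * A)` with
`A' = h (κ 0) (κ 1) (w ^ 5)`; `tor_mul_mid`; the first term is `tor_blk_eq_zero`, the second
`tor_h_eq_zero` with `n = κ 2` (`A'⁻¹ * A` is `Diag` for `-ev (κ 0) (κ 1) + α`, which vanishes at
`κ 0, κ 1, κ 2`).  Commutations: `Diag.commute_h`, `Diag.commute_X`, `Diag.commute_h_two`. -/
theorem tor_half {A B : G} (hAB : Commute B A) {w c y : Rˣ} (hc : (c : R) = 1 + w)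
    {α β : ℕ → ℤ} (hA : S.Diag A (w ^ 5) α) (hB : S.Diag B y β) (κ : Fin 5 → ℕ)
    (hκ : Function.Injective κ) (hβ : ∀ i j, β (κ i) = β (κ j)) (h0 : α (κ 0) = 1)
    (h1 : α (κ 1) = -1) (h2 : α (κ 2) = 0) : tor φ B A (S.h (κ 0) (κ 1) c) = 0 := by
  have n01 : κ 0 ≠ κ 1 := hκ.ne (by decide)
  have n20 : κ 2 ≠ κ 0 := hκ.ne (by decide)
  have n21 : κ 2 ≠ κ 1 := hκ.ne (by decide)
  have hA' := S.h_diag n01 (w ^ 5)
  have hD := hA'.inv.mul hA
  have e0 : (-ev (κ 0) (κ 1) + α) (κ 0) = 0 := by simp [ev, n01, h0]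
  have e1 : (-ev (κ 0) (κ 1) + α) (κ 1) = 0 := by simp [ev, n01.symm, h1]
  have e2 : (-ev (κ 0) (κ 1) + α) (κ 2) = 0 := by simp [ev, n20, n21, h2]
  have hBA' : Commute B (S.h (κ 0) (κ 1) (w ^ 5)) := hB.commute_h (hβ 0 1) _
  have hBD : Commute B ((S.h (κ 0) (κ 1) (w ^ 5))⁻¹ * A) := hBA'.inv_right.mul_right hAB
  have hsplit : A = S.h (κ 0) (κ 1) (w ^ 5) * ((S.h (κ 0) (κ 1) (w ^ 5))⁻¹ * A) :=
    (mul_inv_cancel_left _ _).symm
  rw [hsplit, tor_mul_mid hφ hBA' hBD (hB.commute_h (hβ 0 1) _)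
    (Diag.commute_h_two hc hA' n01 (by simp [ev, n01, n01.symm]))
    (hD.commute_h (e0.trans e1.symm) _),
    S.tor_blk_eq_zero hφ κ hκ (fun i j r => hB.commute_X (hβ i j) r) hc,
    S.tor_h_eq_zero hφ hBD n01 n20 n21 hB hD (hβ 0 1) (hβ 2 0) (e0.trans e1.symm)
      (e2.trans e0.symm) c, add_zero]

/-- V3c. Hint: put `A = h 0 3 u * h 1 2 u` (`u = w ^ 5`, `α = ev 0 3 + ev 1 2`), `B₀ = h 0 3 y * (h 1 2 y)⁻¹`,
`B = B₀ * h 10 13 y * h 11 14 y * h 12 15 y` (`β = ev 0 3 + -ev 1 2 + ev 10 13 + ev 11 14 + ev 12 15`),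
`C = S.CC c` (`CC_diag`, `gam`).  `tor_mul_right` and `tor_h_eq_zero` (`n = 16`) give
`tor C A B = tor C A B₀`; `tor C A B = -tor B A C` (`tor_swap`, `tor_cyc`); expand `C` by
`tor_mul_right`, `tor_inv_right`: `tor B A (h 0 2 c) = 0` by `tor_half` with `κ = ![0,2,10,11,12]`,
`tor B A (h 1 3 c) = 0` with `κ = ![1,3,13,14,15]`, and `tor B A (h 4 7 c) = 0` etc. by
`tor_h_eq_zero` (`n = 16`).  Commutations: `Diag.commute_h` (equalities of exponents by `decide`),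
`Diag.commute_h_two` (for `A` with `h 0 2 c`, `h 1 3 c`), `commute_AB`. -/
theorem tor_eq_zero {w c : Rˣ} (hc : (c : R) = 1 + w) (y : Rˣ) :
    tor φ (S.CC c) (S.h 0 3 (w ^ 5) * S.h 1 2 (w ^ 5)) (S.h 0 3 y * (S.h 1 2 y)⁻¹) = 0 := by
  have hA : S.Diag (S.h 0 3 (w ^ 5) * S.h 1 2 (w ^ 5)) (w ^ 5) (ev 0 3 + ev 1 2) :=
    (S.h_diag (by decide) _).mul (S.h_diag (by decide) _)
  have hAB0 := S.commute_AB (w ^ 5) y
  have hB0 : S.Diag (S.h 0 3 y * (S.h 1 2 y)⁻¹) y (ev 0 3 + -ev 1 2) :=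
    (S.h_diag (by decide) _).mul (S.h_diag (by decide) _).inv
  have hC := S.CC_diag c
  have hCA : Commute (S.CC c) (S.h 0 3 (w ^ 5) * S.h 1 2 (w ^ 5)) :=
    (hC.commute_h (by decide) _).mul_right (hC.commute_h (by decide) _)
  have hCB0 : Commute (S.CC c) (S.h 0 3 y * (S.h 1 2 y)⁻¹) :=
    (hC.commute_h (by decide) _).mul_right (hC.commute_h (by decide) _).inv_right
  generalize S.h 0 3 (w ^ 5) * S.h 1 2 (w ^ 5) = A at *
  generalize S.h 0 3 y * (S.h 1 2 y)⁻¹ = B0 at *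
  have hB : S.Diag (B0 * S.h 10 13 y * S.h 11 14 y * S.h 12 15 y) y
      (ev 0 3 + -ev 1 2 + ev 10 13 + ev 11 14 + ev 12 15) :=
    ((hB0.mul (S.h_diag (by decide) _)).mul (S.h_diag (by decide) _)).mul
      (S.h_diag (by decide) _)
  have c1 : Commute (S.CC c) (S.h 10 13 y) := hC.commute_h (by decide) _
  have c2 : Commute (S.CC c) (S.h 11 14 y) := hC.commute_h (by decide) _
  have c3 : Commute (S.CC c) (S.h 12 15 y) := hC.commute_h (by decide) _
  have a1 : Commute A (S.h 10 13 y) := hA.commute_h (by decide) _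
  have a2 : Commute A (S.h 11 14 y) := hA.commute_h (by decide) _
  have a3 : Commute A (S.h 12 15 y) := hA.commute_h (by decide) _
  have e1 : tor φ (S.CC c) A (B0 * S.h 10 13 y * S.h 11 14 y * S.h 12 15 y) =
      tor φ (S.CC c) A B0 := by
    rw [tor_mul_right hφ hCA ((hCB0.mul_right c1).mul_right c2) c3
        ((hAB0.mul_right a1).mul_right a2) a3,
      tor_mul_right hφ hCA (hCB0.mul_right c1) c2 (hAB0.mul_right a1) a2,
      tor_mul_right hφ hCA hCB0 c1 hAB0 a1,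
      S.tor_h_eq_zero hφ hCA (p := 10) (q := 13) (n := 16) (by decide) (by decide) (by decide)
        hC hA (by decide) (by decide) (by decide) (by decide),
      S.tor_h_eq_zero hφ hCA (p := 11) (q := 14) (n := 16) (by decide) (by decide) (by decide)
        hC hA (by decide) (by decide) (by decide) (by decide),
      S.tor_h_eq_zero hφ hCA (p := 12) (q := 15) (n := 16) (by decide) (by decide) (by decide)
        hC hA (by decide) (by decide) (by decide) (by decide), add_zero, add_zero, add_zero]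
  have hBA : Commute (B0 * S.h 10 13 y * S.h 11 14 y * S.h 12 15 y) A :=
    (((hAB0.mul_right a1).mul_right a2).mul_right a3).symm
  generalize B0 * S.h 10 13 y * S.h 11 14 y * S.h 12 15 y = B at *
  have b1 : Commute B (S.h 0 2 c) := hB.commute_h (by decide) _
  have b2 : Commute B (S.h 1 3 c) := hB.commute_h (by decide) _
  have b3 : Commute B (S.h 4 7 c) := hB.commute_h (by decide) _
  have b4 : Commute B (S.h 5 8 c) := hB.commute_h (by decide) _
  have b5 : Commute B (S.h 6 9 c) := hB.commute_h (by decide) _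
  have d1 : Commute A (S.h 0 2 c) := Diag.commute_h_two hc hA (by decide) (by decide)
  have d2 : Commute A (S.h 1 3 c) := Diag.commute_h_two hc hA (by decide) (by decide)
  have d3 : Commute A (S.h 4 7 c) := hA.commute_h (by decide) _
  have d4 : Commute A (S.h 5 8 c) := hA.commute_h (by decide) _
  have d5 : Commute A (S.h 6 9 c) := hA.commute_h (by decide) _
  have t1 : tor φ B A (S.h 0 2 c) = 0 :=
    S.tor_half hφ hBA hc hA hB ![0, 2, 10, 11, 12] (by decide) (by decide) (by decide) (by decide)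
      (by decide)
  have t2 : tor φ B A (S.h 1 3 c) = 0 :=
    S.tor_half hφ hBA hc hA hB ![1, 3, 13, 14, 15] (by decide) (by decide) (by decide) (by decide)
      (by decide)
  have e2 : tor φ B A (S.CC c) = 0 := by
    rw [Sys.CC, tor_mul_right hφ hBA (((b1.mul_right b2.inv_right).mul_right b3).mul_right b4) b5
        (((d1.mul_right d2.inv_right).mul_right d3).mul_right d4) d5,
      tor_mul_right hφ hBA ((b1.mul_right b2.inv_right).mul_right b3) b4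
        ((d1.mul_right d2.inv_right).mul_right d3) d4,
      tor_mul_right hφ hBA (b1.mul_right b2.inv_right) b3 (d1.mul_right d2.inv_right) d3,
      tor_mul_right hφ hBA b1 b2.inv_right d1 d2.inv_right, tor_inv_right hφ hBA b2 d2, t1, t2,
      S.tor_h_eq_zero hφ hBA (p := 4) (q := 7) (n := 16) (by decide) (by decide) (by decide)
        hB hA (by decide) (by decide) (by decide) (by decide),
      S.tor_h_eq_zero hφ hBA (p := 5) (q := 8) (n := 16) (by decide) (by decide) (by decide)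
        hB hA (by decide) (by decide) (by decide) (by decide),
      S.tor_h_eq_zero hφ hBA (p := 6) (q := 9) (n := 16) (by decide) (by decide) (by decide)
        hB hA (by decide) (by decide) (by decide) (by decide)]
    simp
  rw [← e1, tor_cyc, tor_cyc, tor_swap, e2, neg_zero]

end Sys

/-- V4a. Pure group theory: if `a₁, b₁` commute with `a₂, b₂`, `⁅a₂, b₂⁆` commutes with `b₂` and `a₁ a₂`
commutes with `b₁ b₂⁻¹`, then `⁅a₁, b₁⁆ = ⁅a₂, b₂⁆`. -/
theorem comm_eq_of_commute {E : Type} [Group E] {a₁ b₁ a₂ b₂ : E} (h1 : Commute a₁ a₂)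
    (h2 : Commute a₁ b₂) (h3 : Commute b₁ a₂) (h4 : Commute b₁ b₂) (h5 : Commute ⁅a₂, b₂⁆ b₂)
    (h : Commute (a₁ * a₂) (b₁ * b₂⁻¹)) : ⁅a₁, b₁⁆ = ⁅a₂, b₂⁆ := by
  have hc : Commute ⁅a₂, b₂⁻¹⁆ a₁⁻¹ := by
    rw [commutatorElement_def]
    exact (((h1.symm.mul_left h2.symm.inv_left).mul_left h1.symm.inv_left).mul_left
      h2.symm.inv_left.inv_left).inv_right
  have hd : Commute ⁅a₂, b₂⁻¹⁆ b₁⁻¹ := by
    rw [commutatorElement_def]
    exact (((h3.symm.mul_left h4.symm.inv_left).mul_left h3.symm.inv_left).mul_left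
      h4.symm.inv_left.inv_left).inv_right
  have k1 : ⁅a₁ * a₂, b₁ * b₂⁻¹⁆ = ⁅a₁, b₁⁆ * ⁅a₂, b₂⁻¹⁆ := by
    calc ⁅a₁ * a₂, b₁ * b₂⁻¹⁆
        = a₁ * (a₂ * b₁) * b₂⁻¹ * a₂⁻¹ * (a₁⁻¹ * b₂) * b₁⁻¹ := by
          simp only [commutatorElement_def]; group
      _ = a₁ * (b₁ * a₂) * b₂⁻¹ * a₂⁻¹ * (b₂ * a₁⁻¹) * b₁⁻¹ := by
          rw [h3.eq, h2.inv_left.eq]
      _ = a₁ * b₁ * (⁅a₂, b₂⁻¹⁆ * a₁⁻¹) * b₁⁻¹ := by
          simp only [commutatorElement_def]; group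
      _ = a₁ * b₁ * a₁⁻¹ * (⁅a₂, b₂⁻¹⁆ * b₁⁻¹) := by
          rw [hc.eq]; group
      _ = _ := by
          rw [hd.eq]; simp only [commutatorElement_def a₁ b₁]; group
  have k2 : ⁅a₂, b₂⁻¹⁆ = ⁅a₂, b₂⁆⁻¹ := by
    calc ⁅a₂, b₂⁻¹⁆ = b₂⁻¹ * (⁅a₂, b₂⁆⁻¹ * b₂) := by
          simp only [commutatorElement_def]; group
      _ = _ := by rw [h5.inv_left.eq, inv_mul_cancel_left]
  rw [← commutatorElement_eq_one_iff_commute, k1, k2] at h
  exact mul_inv_eq_one.1 h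

/-- V4b. Hint: let `Tp`, `Tm` be the lifts of `S.Sp c`, `S.Sm c` in `E = Ext (slantCoc hφ C)`.  Every
`Tm.X k l r` commutes with the whole of `Tp` (`CenKer.cen_of_map`, `lift_X_fst`, `S.comm`: the index sets
`ip`, `im` are disjoint), so `Tp.h` commutes with `Tm.h` (`Cen.h`, `commute_h`).  `Ext.commute_iff`,
`commute_AB` and `tor_eq_zero` show that `Tp.h 0 1 u * Tm.h 0 1 u` commutes with
`Tp.h 0 1 y * (Tm.h 0 1 y)⁻¹`.  `comm_eq_of_commute` (`h5`: `ds_sq`, `ds_cen`) and `ds_sq` give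
`Tp.ds ^ 2 = Tm.ds ^ 2`; compare `snd` (`pow_two`, `Ext.mul_snd`, `lift_ds_fst`, `Sp_ds_eq`). -/
theorem Sys.inv_vanish (S : Sys ℕ R G) {φ : G → G → G → M} (hφ : IsCoc3 φ) {a : R} {y w c : Rˣ}
    (hu : ((w ^ 5 : Rˣ) : R) = 1 - a * y) (hc : (c : R) = 1 + w) :
    2 • S.inv a y (w ^ 5) c hφ = 0 := by
  set C := S.CC c with hC
  set Tp := (S.Sp c).lift (slantCoc hφ (S.CC c)) with hTp
  set Tm := (S.Sm c).lift (slantCoc hφ (S.CC c)) with hTm
  have hcen : ∀ k l r, Tp.Cen (Tm.X k l r) := by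
    intro k l r
    refine (cenKer_p _).cen_of_map Tp fun i j s => ?_
    rw [Ext.p_apply, Ext.p_apply, hTp, hTm, Sys.lift_X_fst, Sys.lift_X_fst]
    refine Subtype.ext ?_
    show S.X (im k) (im l) r * S.X (ip i) (ip j) s = S.X (ip i) (ip j) s * S.X (im k) (im l) r
    by_cases hkl : k = l
    · subst hkl; simp [S.diag]
    by_cases hij : i = j
    · subst hij; simp [S.diag]
    have hd : ∀ a b : Fin 5, im a ≠ ip b := by decide
    exact (S.comm (im_inj.ne hkl) (ip_inj.ne hij) (hd _ _) (hd _ _) r s).eq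
  have hh : ∀ u v : Rˣ, Commute (Tp.h 0 1 u) (Tm.h 0 1 v) := fun u v =>
    Tm.commute_h (fun r => ((hcen 0 1 r).h 0 1 u).symm) (fun r => ((hcen 1 0 r).h 0 1 u).symm) v
  have hp : ∀ u : Rˣ, (((Tp.h 0 1 u).fst : Cent (S.CC c)) : G) = S.h 0 3 u := fun u => by
    rw [hTp, Sys.lift_h_fst]; exact Sys.blk_h _ _ _ _ _ _ _ _
  have hm : ∀ u : Rˣ, (((Tm.h 0 1 u).fst : Cent (S.CC c)) : G) = S.h 1 2 u := fun u => by
    rw [hTm, Sys.lift_h_fst]; exact Sys.blk_h _ _ _ _ _ _ _ _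
  have hAB : Commute (Tp.h 0 1 (w ^ 5) * Tm.h 0 1 (w ^ 5)) (Tp.h 0 1 y * (Tm.h 0 1 y)⁻¹) := by
    rw [Ext.commute_iff]
    constructor
    · refine Subtype.ext ?_
      simp only [Ext.mul_fst, Ext.inv_fst, Subgroup.coe_mul, Subgroup.coe_inv, hp, hm]
      exact (S.commute_AB (w ^ 5) y).eq
    · simp only [slantCoc_ψ, Ext.mul_fst, Ext.inv_fst, Subgroup.coe_mul, Subgroup.coe_inv, hp, hm]
      exact sub_eq_zero.1 (S.tor_eq_zero hφ hc y)
  have h01 : (0 : Fin 5) ≠ 1 := by decide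
  have hsp := Tp.ds_sq h01 hu
  have hsm := Tm.ds_sq h01 hu
  have h5 : Commute ⁅Tm.h 0 1 (w ^ 5), Tm.h 0 1 y⁆ (Tm.h 0 1 y) := by
    rw [← hsm]
    exact ((Tm.ds_cen h01 hu).h 0 1 y).pow_left 2
  have heq := comm_eq_of_commute (hh _ _) (hh _ _) (hh _ _) (hh _ _) h5 hAB
  rw [← hsp, ← hsm] at heq
  have hs := congrArg Ext.snd heq
  simp only [pow_two, Ext.mul_snd] at hs
  rw [hTp, hTm, Sys.lift_ds_fst, Sys.lift_ds_fst, S.Sp_ds_eq hu c] at hs
  have hs' := add_right_cancel hs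
  unfold Sys.inv
  rw [two_nsmul]
  linear_combination (norm := abel1) hs'

end Crest.Agent.R171
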