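import Crest.Agent.R171.Sys

/-! # R171, conjugation by `w_{pq}(u)` -/

set_option autoImplicit false

open scoped commutatorElement

namespace Crest.Agent.R171

namespace Sys

variable {I R G : Type} [CommRing R] [Group G] (S : Sys I R G)

/-- W1a. Hint: unfold `w`, `mul_inv_rev`, `X_inv`; `simp`. -/
theorem w_inv (i j : I) (u : Rˣ) : (S.w i j u)⁻¹ = S.w i j (-u) := by
  simp only [w, mul_inv_rev, X_inv, mul_assoc, Units.val_neg, inv_neg, neg_neg]

/-- W1a. Hint: `w = x_pq(u) x_qp(-u⁻¹) x_pq(u)`; regroup with `group` and apply `col_ij`, `col_ji`,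
`col_ij`; then `congr` and simplify with `Units.mul_inv`, `Units.inv_mul` (`linear_combination`). -/
theorem w_col {p q n : I} (hpq : p ≠ q) (hnp : n ≠ p) (hnq : n ≠ q) (u : Rˣ) (r s : R) :
    S.w p q u * (S.X p n r * S.X q n s) * (S.w p q u)⁻¹ =
      S.X p n (u * s) * S.X q n (-(((u⁻¹ : Rˣ) : R) * r)) := by
  calc _ = S.X p q u * (S.X q p (-((u⁻¹ : Rˣ) : R)) * (S.X p q u * (S.X p n r * S.X q n s) *
        (S.X p q u)⁻¹) * (S.X q p (-((u⁻¹ : Rˣ) : R)))⁻¹) * (S.X p q u)⁻¹ := by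
        simp only [w]; group
    _ = _ := by
        rw [S.col_ij hpq hnp hnq, S.col_ji hpq hnp hnq, S.col_ij hpq hnp hnq]
        have h := u.mul_inv
        congr 2
        · linear_combination (-(r + u * s)) * h
        · linear_combination (-s) * h

/-- W1a. Hint: as `w_col` with `row_ij`, `row_ji`, `row_ij`. -/
theorem w_row {p q n : I} (hpq : p ≠ q) (hnp : n ≠ p) (hnq : n ≠ q) (u : Rˣ) (r s : R) :
    S.w p q u * (S.X n p r * S.X n q s) * (S.w p q u)⁻¹ =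
      S.X n p (s * ((u⁻¹ : Rˣ) : R)) * S.X n q (-(r * u)) := by
  calc _ = S.X p q u * (S.X q p (-((u⁻¹ : Rˣ) : R)) * (S.X p q u * (S.X n p r * S.X n q s) *
        (S.X p q u)⁻¹) * (S.X q p (-((u⁻¹ : Rˣ) : R)))⁻¹) * (S.X p q u)⁻¹ := by
        simp only [w]; group
    _ = _ := by
        rw [S.row_ij hpq hnp hnq, S.row_ji hpq hnp hnq, S.row_ij hpq hnp hnq]
        have h := u.mul_inv
        congr 2
        · linear_combination (-r) * h
        · linear_combination (-(s - r * u)) * h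

theorem w_X_pn {p q n : I} (hpq : p ≠ q) (hnp : n ≠ p) (hnq : n ≠ q) (u : Rˣ) (r : R) :
    S.w p q u * S.X p n r * (S.w p q u)⁻¹ = S.X q n (-(((u⁻¹ : Rˣ) : R) * r)) := by
  simpa using S.w_col hpq hnp hnq u r 0

theorem w_X_qn {p q n : I} (hpq : p ≠ q) (hnp : n ≠ p) (hnq : n ≠ q) (u : Rˣ) (r : R) :
    S.w p q u * S.X q n r * (S.w p q u)⁻¹ = S.X p n (u * r) := by
  simpa using S.w_col hpq hnp hnq u 0 r

theorem w_X_np {p q n : I} (hpq : p ≠ q) (hnp : n ≠ p) (hnq : n ≠ q) (u : Rˣ) (r : R) :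
    S.w p q u * S.X n p r * (S.w p q u)⁻¹ = S.X n q (-(r * u)) := by
  simpa using S.w_row hpq hnp hnq u r 0

theorem w_X_nq {p q n : I} (hpq : p ≠ q) (hnp : n ≠ p) (hnq : n ≠ q) (u : Rˣ) (r : R) :
    S.w p q u * S.X n q r * (S.w p q u)⁻¹ = S.X n p (r * ((u⁻¹ : Rˣ) : R)) := by
  simpa using S.w_row hpq hnp hnq u 0 r

/-- W1b. Hint: if `n = m` use `diag`; otherwise `commute_w` and `comm`. -/
theorem w_X_nm {p q n m : I} (hpq : p ≠ q) (hnp : n ≠ p) (hnq : n ≠ q) (hmp : m ≠ p)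
    (hmq : m ≠ q) (u : Rˣ) (r : R) : Commute (S.w p q u) (S.X n m r) := by
  by_cases h : n = m
  · subst h
    rw [S.diag]
    exact Commute.one_right _
  · exact (S.commute_w (fun a => S.comm h hpq hmp hnq r a)
      (fun a => S.comm h hpq.symm hmq hnp r a) u).symm

/-- Conjugation is multiplicative on commutators. -/
theorem conj_comm (g a b : G) : g * ⁅a, b⁆ * g⁻¹ = ⁅g * a * g⁻¹, g * b * g⁻¹⁆ := by
  simp only [commutatorElement_def]; group

/-- W1b. Hint: pick `n ∉ {p, q}` by `Big.ex`, write `x_pq(r) = ⁅x_pn(r), x_nq(1)⁆` (`S.mul`), use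
`conj_comm`, `w_X_pn`, `w_X_nq`, `S.mul`. -/
theorem w_X_pq [Big I] {p q : I} (hpq : p ≠ q) (u : Rˣ) (r : R) :
    S.w p q u * S.X p q r * (S.w p q u)⁻¹ =
      S.X q p (-(((u⁻¹ : Rˣ) : R) * ((u⁻¹ : Rˣ) : R) * r)) := by
  obtain ⟨n, hnp, hnq, -, -⟩ := Big.ex p q p q
  have h := S.mul hnp.symm hnq hpq r 1
  rw [mul_one] at h
  rw [← h, conj_comm, S.w_X_pn hpq hnp hnq, S.w_X_nq hpq hnp hnq, S.mul hnq.symm hnp hpq.symm]
  congr 1
  ring

/-- W1b. Hint: `x_qp(r) = ⁅x_qn(r), x_np(1)⁆`. -/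
theorem w_X_qp [Big I] {p q : I} (hpq : p ≠ q) (u : Rˣ) (r : R) :
    S.w p q u * S.X q p r * (S.w p q u)⁻¹ = S.X p q (-((u : R) * u * r)) := by
  obtain ⟨n, hnp, hnq, -, -⟩ := Big.ex p q p q
  have h := S.mul hnq.symm hnp hpq.symm r 1
  rw [mul_one] at h
  rw [← h, conj_comm, S.w_X_qn hpq hnp hnq, S.w_X_np hpq hnp hnq, S.mul hnp.symm hnq hpq]
  congr 1
  ring

/-- W1b. Hint: `w = w * w * w⁻¹`; conjugate the three letters of the middle `w` by `w_X_pq`,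
`w_X_qp`. -/
theorem w_swap [Big I] {p q : I} (hpq : p ≠ q) (u : Rˣ) : S.w p q u = S.w q p (-u⁻¹) := by
  have h1 := S.w_X_pq hpq u (u : R)
  have h2 := S.w_X_qp hpq u (-((u⁻¹ : Rˣ) : R))
  rw [mul_assoc ((u⁻¹ : Rˣ) : R), Units.inv_mul, mul_one] at h1
  rw [mul_neg, neg_neg, mul_assoc (u : R), Units.mul_inv, mul_one] at h2
  calc S.w p q u = S.w p q u * S.w p q u * (S.w p q u)⁻¹ := by group
    _ = (S.w p q u * S.X p q u * (S.w p q u)⁻¹) *
        (S.w p q u * S.X q p (-((u⁻¹ : Rˣ) : R)) * (S.w p q u)⁻¹) *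
        (S.w p q u * S.X p q u * (S.w p q u)⁻¹) := by
      nth_rewrite 2 [w]
      group
    _ = S.w q p (-u⁻¹) := by
      rw [h1, h2]
      simp [w]

end Sys

end Crest.Agent.R171
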