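import Crest.Agent.R171.W1

/-! # R171, diagonal elements and symbols -/

set_option autoImplicit false

open scoped commutatorElement

namespace Crest.Agent.R171

namespace Sys

variable {I R G : Type} [CommRing R] [Group G] (S : Sys I R G)

theorem h_diag_conj (p q : I) (u : Rˣ) (x : G) :
    S.h p q u * x * (S.h p q u)⁻¹ =
      S.w p q u * (S.w p q (-1) * x * (S.w p q (-1))⁻¹) * (S.w p q u)⁻¹ := by
  rw [h]; group

/-- W2a. `h_{pq}(u)` acts like `diag(u, u⁻¹)`.  Hint: `h = w(u) w(-1)`; case split on whether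
`k`, `l` are `p`, `q` or neither (if `k = l` use `diag`); each case is two applications of the
`w_X_*` lemmas of `W1`; evaluate `ev` by `simp [ev, *]`. -/
theorem h_diag [Big I] [DecidableEq I] {p q : I} (hpq : p ≠ q) (u : Rˣ) :
    S.Diag (S.h p q u) u (ev p q) := by
  intro k l r
  have hqp := hpq.symm
  by_cases hkl : k = l
  · subst hkl
    simp [S.diag]
  rw [h_diag_conj]
  by_cases hkp : k = p
  · subst hkp
    have hlk : l ≠ k := Ne.symm hkl
    by_cases hlq : l = q
    · subst hlq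
      rw [S.w_X_pq hpq, S.w_X_qp hpq]
      congr 1
      simp [ev, hpq, hqp, zpow_ofNat, pow_two]
    · rw [S.w_X_pn hpq hlk hlq, S.w_X_qn hpq hlk hlq]
      congr 1
      simp [ev, hpq, hlk, hlq]
  by_cases hkq : k = q
  · subst hkq
    have hlk : l ≠ k := Ne.symm hkl
    by_cases hlp : l = p
    · subst hlp
      rw [S.w_X_qp hpq, S.w_X_pq hpq]
      congr 1
      have : ev l k k - ev l k l = -2 := by simp [ev, hpq, hqp]
      rw [this]
      simp [zpow_ofNat, pow_two]
    · rw [S.w_X_qn hpq hlp hlk, S.w_X_pn hpq hlp hlk]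
      congr 1
      simp [ev, hqp, hlk, hlp]
  by_cases hlp : l = p
  · subst hlp
    rw [S.w_X_np hpq hkp hkq, S.w_X_nq hpq hkp hkq]
    congr 1
    simp [ev, hpq, hkp, hkq, mul_comm]
  by_cases hlq : l = q
  · subst hlq
    rw [S.w_X_nq hpq hkp hkq, S.w_X_np hpq hkp hkq]
    congr 1
    simp [ev, hqp, hkp, hkq, mul_comm]
  rw [conj_of_commute (S.w_X_nm hpq hkp hkq hlp hlq _ r),
    conj_of_commute (S.w_X_nm hpq hkp hkq hlp hlq _ r)]
  congr 1
  simp [ev, hkp, hkq, hlp, hlq]

variable {S} in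
/-- W2b. Hint: conjugate the three letters of `w`; `α l - α k = -(α k - α l)`, `zpow_neg`. -/
theorem Diag.conj_w {g : G} {u : Rˣ} {α : I → ℤ} (hg : S.Diag g u α) (k l : I) (v : Rˣ) :
    g * S.w k l v * g⁻¹ = S.w k l (u ^ (α k - α l) * v) := by
  have h1 := hg k l (v : R)
  have h2 := hg l k (-((v⁻¹ : Rˣ) : R))
  have e : α l - α k = -(α k - α l) := by ring
  rw [e, zpow_neg] at h2
  have : g * S.w k l v * g⁻¹ = (g * S.X k l v * g⁻¹) * (g * S.X l k (-((v⁻¹ : Rˣ) : R)) * g⁻¹) *
      (g * S.X k l v * g⁻¹) := by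
    unfold Sys.w; group
  rw [this, h1, h2]
  unfold Sys.w
  rw [Units.val_mul, mul_inv_rev, Units.val_mul, mul_neg, mul_comm ((v⁻¹ : Rˣ) : R)]

variable {S} in
/-- W2b. Hint: with `s = u ^ (α k - α l)`: `g h(v) g⁻¹ = w(s v) w(-s) = h(s v) h(s)⁻¹`, using
`w_inv`. -/
theorem Diag.conj_h {g : G} {u : Rˣ} {α : I → ℤ} (hg : S.Diag g u α) (k l : I) (v : Rˣ) :
    g * S.h k l v * g⁻¹ = S.sym k l (u ^ (α k - α l)) v * S.h k l v := by
  have : g * S.h k l v * g⁻¹ = (g * S.w k l v * g⁻¹) * (g * S.w k l (-1) * g⁻¹) := by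
    unfold Sys.h; group
  rw [this, hg.conj_w, hg.conj_w, mul_neg, mul_one, ← S.w_inv]
  unfold Sys.sym Sys.h
  group

variable {S} in
theorem Diag.comm_h {g : G} {u : Rˣ} {α : I → ℤ} (hg : S.Diag g u α) (k l : I) (v : Rˣ) :
    ⁅g, S.h k l v⁆ = S.sym k l (u ^ (α k - α l)) v := by
  rw [commutatorElement_def, hg.conj_h]; group

/-- W2b. Symbols are central.  Hint: `classical`; by `h_diag` and `Diag.inv`, conjugation by
`h(su) h(s)⁻¹ h(u)⁻¹` multiplies the argument of `x_kl` by `(su)^e s^(-e) u^(-e) = 1`. -/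
theorem sym_cen [Big I] {i j : I} (hij : i ≠ j) (s u : Rˣ) : S.Cen (S.sym i j s u) := by
  classical
  intro k l r
  have h1 := S.h_diag hij (s * u)
  have h2 := (S.h_diag hij s).inv
  have h3 := (S.h_diag hij u).inv
  have key : S.sym i j s u * S.X k l r * (S.sym i j s u)⁻¹ = S.X k l r := by
    have : S.sym i j s u * S.X k l r * (S.sym i j s u)⁻¹ =
        S.h i j (s * u) * ((S.h i j s)⁻¹ * ((S.h i j u)⁻¹ * S.X k l r * (S.h i j u)⁻¹⁻¹) *
          (S.h i j s)⁻¹⁻¹) * (S.h i j (s * u))⁻¹ := by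
      unfold Sys.sym; group
    rw [this, h3, h2, h1]
    congr 1
    have e : (-ev i j) k - (-ev i j) l = -(ev i j k - ev i j l) := by
      simp only [Pi.neg_apply]; ring
    rw [e, ← mul_assoc, ← mul_assoc, ← Units.val_mul, ← Units.val_mul, mul_zpow, zpow_neg,
      zpow_neg, mul_comm (s ^ (ev i j k - ev i j l)), mul_inv_cancel_right, mul_inv_cancel,
      Units.val_one, one_mul]
  rw [Commute, SemiconjBy, ← mul_inv_eq_iff_eq_mul, key]

theorem cen_of_outside_comm {g a b : G} (ha : Commute g a) (hb : Commute g b) :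
    Commute g ⁅a, b⁆ := by
  rw [commutatorElement_def]
  exact ((ha.mul_right hb).mul_right ha.inv_right).mul_right hb.inv_right

/-- W2c. A sufficient condition for being central.  Hint: for `(k, l) = (i, j)` write
`x_ij(r) = ⁅x_in(r), x_nj(1)⁆`; case split on `k, l ∈ {i, j}`. -/
theorem cen_of_outside [Big I] {g : G} {i j : I} (hij : i ≠ j)
    (h1 : ∀ n, n ≠ i → n ≠ j → ∀ r, Commute g (S.X i n r))
    (h2 : ∀ n, n ≠ i → n ≠ j → ∀ r, Commute g (S.X j n r))
    (h3 : ∀ n, n ≠ i → n ≠ j → ∀ r, Commute g (S.X n i r))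
    (h4 : ∀ n, n ≠ i → n ≠ j → ∀ r, Commute g (S.X n j r))
    (h5 : ∀ n m, n ≠ i → n ≠ j → m ≠ i → m ≠ j → ∀ r, Commute g (S.X n m r)) : S.Cen g := by
  obtain ⟨n, hni, hnj, -, -⟩ := Big.ex i j i j
  intro k l r
  by_cases hki : k = i
  · subst hki
    by_cases hlk : l = k
    · subst hlk
      rw [S.diag]
      exact Commute.one_right g
    by_cases hlj : l = j
    · subst hlj
      rw [← mul_one r, ← S.mul hni.symm hnj hij]
      exact cen_of_outside_comm (h1 n hni hnj _) (h4 n hni hnj _)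
    · exact h1 l hlk hlj r
  by_cases hkj : k = j
  · subst hkj
    by_cases hlk : l = k
    · subst hlk
      rw [S.diag]
      exact Commute.one_right g
    by_cases hli : l = i
    · subst hli
      rw [← mul_one r, ← S.mul hnj.symm hni hij.symm]
      exact cen_of_outside_comm (h2 n hni hnj _) (h3 n hni hnj _)
    · exact h2 l hli hlk r
  by_cases hli : l = i
  · subst hli
    exact h3 k hki hkj r
  by_cases hlj : l = j
  · subst hlj
    exact h4 k hki hkj r
  · exact h5 k l hki hkj hli hlj r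

theorem ds_cen_aux {V H x y : G} (h1 : V * y * V⁻¹ = x) (h2 : H * y * H⁻¹ = x) :
    Commute (V * H⁻¹) x := by
  have e : V * H⁻¹ * x * (V * H⁻¹)⁻¹ = x := by
    calc V * H⁻¹ * x * (V * H⁻¹)⁻¹ = V * (H⁻¹ * (H * y * H⁻¹) * H) * V⁻¹ := by rw [h2]; group
      _ = V * y * V⁻¹ := by group
      _ = x := h1
  rw [Commute, SemiconjBy, ← mul_inv_eq_iff_eq_mul, e]

theorem ds_cen_col {i j n : I} (hij : i ≠ j) (hni : n ≠ i) (hnj : n ≠ j) {a b : R} {u : Rˣ}
    (hu : (u : R) = 1 - a * b) (r s : R) :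
    Commute (S.ds i j a b u) (S.X i n r * S.X j n s) := by
  have hv : (u : R) * ((u⁻¹ : Rˣ) : R) = 1 := u.mul_inv
  set v : R := ((u⁻¹ : Rˣ) : R) with hvd
  refine ds_cen_aux (y := S.X i n (v * r) * S.X j n (u * s)) ?_ ?_
  · calc _ = S.X j i (-(b * v)) * (S.X i j (-a) * (S.X j i b * (S.X i j (a * v) *
          (S.X i n (v * r) * S.X j n (u * s)) * (S.X i j (a * v))⁻¹) * (S.X j i b)⁻¹) *
          (S.X i j (-a))⁻¹) * (S.X j i (-(b * v)))⁻¹ := by
          simp only [mul_assoc, mul_inv_rev, hvd]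
      _ = _ := by
        rw [S.col_ij hij hni hnj, S.col_ji hij hni hnj, S.col_ij hij hni hnj, S.col_ji hij hni hnj]
        congr 2
        · grind
        · grind
  · calc _ = S.w i j u * (S.w i j (-1) * (S.X i n (v * r) * S.X j n (u * s)) *
          (S.w i j (-1))⁻¹) * (S.w i j u)⁻¹ := by rw [h]; group
      _ = _ := by
        rw [S.w_col hij hni hnj, S.w_col hij hni hnj, ← hvd]
        congr 2
        · simp only [inv_neg, inv_one, Units.val_neg, Units.val_one]
          linear_combination r * hv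
        · simp only [Units.val_neg, Units.val_one]
          linear_combination s * hv

theorem ds_cen_row {i j n : I} (hij : i ≠ j) (hni : n ≠ i) (hnj : n ≠ j) {a b : R} {u : Rˣ}
    (hu : (u : R) = 1 - a * b) (r s : R) :
    Commute (S.ds i j a b u) (S.X n i r * S.X n j s) := by
  have hv : (u : R) * ((u⁻¹ : Rˣ) : R) = 1 := u.mul_inv
  set v : R := ((u⁻¹ : Rˣ) : R) with hvd
  refine ds_cen_aux (y := S.X n i (u * r) * S.X n j (v * s)) ?_ ?_
  · calc _ = S.X j i (-(b * v)) * (S.X i j (-a) * (S.X j i b * (S.X i j (a * v) *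
          (S.X n i (u * r) * S.X n j (v * s)) * (S.X i j (a * v))⁻¹) * (S.X j i b)⁻¹) *
          (S.X i j (-a))⁻¹) * (S.X j i (-(b * v)))⁻¹ := by
          simp only [mul_assoc, mul_inv_rev, hvd]
      _ = _ := by
        rw [S.row_ij hij hni hnj, S.row_ji hij hni hnj, S.row_ij hij hni hnj, S.row_ji hij hni hnj]
        congr 2
        · grind
        · grind
  · calc _ = S.w i j u * (S.w i j (-1) * (S.X n i (u * r) * S.X n j (v * s)) *
          (S.w i j (-1))⁻¹) * (S.w i j u)⁻¹ := by rw [h]; group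
      _ = _ := by
        rw [S.w_row hij hni hnj, S.w_row hij hni hnj, ← hvd]
        congr 2
        · simp only [Units.val_neg, Units.val_one]
          linear_combination r * hv
        · simp only [inv_neg, inv_one, Units.val_neg, Units.val_one]
          linear_combination s * hv

/-- W2d. The Dennis–Stein symbol is central.  Hint: `cen_of_outside`.  Show that conjugation by
`ds` fixes `x_in(r) x_jn(s)` (five steps: `h_diag` + `Diag.inv` (or `w_col` twice), `col_ij`,
`col_ji`, `col_ij`, `col_ji`; the product of the matrices is the identity as `u = 1 - a b`,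
close by `linear_combination` with `u * u⁻¹ = 1`) and `x_ni(r) x_nj(s)` (`row_*`); put `s = 0` or
`r = 0`.  For `h5` use `commute_ds` and `comm`. -/
theorem ds_cen [Big I] {i j : I} (hij : i ≠ j) {a b : R} {u : Rˣ} (hu : (u : R) = 1 - a * b) :
    S.Cen (S.ds i j a b u) := by
  refine S.cen_of_outside hij (fun n h1 h2 r => ?_) (fun n h1 h2 r => ?_) (fun n h1 h2 r => ?_)
    (fun n h1 h2 r => ?_) (fun n m h1 h2 h3 h4 r => ?_)
  · simpa using S.ds_cen_col hij h1 h2 hu r 0
  · simpa using S.ds_cen_col hij h1 h2 hu 0 r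
  · simpa using S.ds_cen_row hij h1 h2 hu r 0
  · simpa using S.ds_cen_row hij h1 h2 hu 0 r
  · by_cases hnm : n = m
    · subst hnm
      rw [S.diag]
      exact Commute.one_right _
    · exact (S.commute_ds (fun t => S.comm hnm hij h3 h2 r t)
        (fun t => S.comm hnm hij.symm h4 h1 r t) a b u).symm

end Sys

end Crest.Agent.R171
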