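import Crest.Agent.R171.W2

/-! # R171, central words do not depend on the pair of indices -/

set_option autoImplicit false

open scoped commutatorElement

namespace Crest.Agent.R171

namespace Sys

variable {I R G : Type} [CommRing R] [Group G] (S : Sys I R G)

/-- W3a. Hint: conjugation by `w i' i 1` sends `x_ij(r)` to `x_i'j(r)` and `x_ji(r)` to
`x_ji'(r)` (`w_X_qn`, `w_X_nq`); as `W i j` commutes with `w i' i 1` (`Cen.w`) this gives
`W i j = W i' j` for `i' ∉ {i, j}`; likewise `W i j = W i j'`.  For general `k ≠ l` go through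
an index `n ∉ {i, j, k, l}` (`Big.ex`): `W i j = W n j = W n l = W k l` (the middle step is
trivial when `j = l`). -/
theorem indep_of_cen [Big I] (W : I → I → G) (hc : ∀ i j, i ≠ j → S.Cen (W i j))
    (hW : ∀ (g : G) (i j k l : I), (∀ r, g * S.X i j r * g⁻¹ = S.X k l r) →
      (∀ r, g * S.X j i r * g⁻¹ = S.X l k r) → g * W i j * g⁻¹ = W k l)
    {i j k l : I} (hij : i ≠ j) (hkl : k ≠ l) : W i j = W k l := by
  have h1 : ∀ i j i' : I, i ≠ j → i' ≠ i → i' ≠ j → W i j = W i' j := fun i j i' hij h h' => by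
    rw [← hW (S.w i' i 1) i j i' j (fun r => by simpa using S.w_X_qn h h'.symm hij.symm 1 r)
      (fun r => by simpa using S.w_X_nq h h'.symm hij.symm 1 r),
      conj_of_commute ((hc i j hij).w i' i 1).symm]
  have h2 : ∀ i j j' : I, i ≠ j → j' ≠ i → j' ≠ j → W i j = W i j' := fun i j j' hij h h' => by
    rw [← hW (S.w j' j 1) i j i j' (fun r => by simpa using S.w_X_nq h' h.symm hij 1 r)
      (fun r => by simpa using S.w_X_qn h' h.symm hij 1 r),
      conj_of_commute ((hc i j hij).w j' j 1).symm]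
  obtain ⟨n, hni, hnj, hnk, hnl⟩ := Big.ex i j k l
  rw [h1 i j n hij hni hnj, h1 k l n hkl hnk hnl]
  by_cases hjl : l = j
  · rw [hjl]
  · exact h2 n j l hnj hnl.symm hjl

/-- W3b. Hint: `indep_of_cen` with `sym_cen`; for `hW` use the homomorphism `MulAut.conj g`
(`map_mul`, `map_inv`) after unfolding `sym`, `h`, `w`. -/
theorem sym_indep [Big I] {i j k l : I} (hij : i ≠ j) (hkl : k ≠ l) (s u : Rˣ) :
    S.sym i j s u = S.sym k l s u := by
  refine S.indep_of_cen (fun i j => S.sym i j s u) (fun i j h => S.sym_cen h s u)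
    (fun g i j k l h1 h2 => ?_) hij hkl
  simp only [← MulAut.conj_apply] at h1 h2 ⊢
  simp only [sym, h, w, map_mul, map_inv, h1, h2]

/-- W3b. Hint: as `sym_indep`, with `ds_cen`. -/
theorem ds_indep [Big I] {i j k l : I} (hij : i ≠ j) (hkl : k ≠ l) {a b : R} {u : Rˣ}
    (hu : (u : R) = 1 - a * b) : S.ds i j a b u = S.ds k l a b u := by
  refine S.indep_of_cen (fun i j => S.ds i j a b u) (fun i j h => S.ds_cen h hu)
    (fun g i j k l h1 h2 => ?_) hij hkl
  simp only [← MulAut.conj_apply] at h1 h2 ⊢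
  simp only [ds, h, w, map_mul, map_inv, h1, h2]

end Sys

end Crest.Agent.R171
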