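import Crest.Agent.R171.W3

/-! # R171, the calculus of Steinberg symbols -/

set_option autoImplicit false

open scoped commutatorElement

namespace Crest.Agent.R171

namespace Sys

variable {I R G : Type} [CommRing R] [Group G] (S : Sys I R G)

theorem sym_eq_comm [Big I] {i j n : I} (hij : i ≠ j) (hni : n ≠ i) (hnj : n ≠ j) (s u : Rˣ) :
    S.sym i j s u = ⁅S.h i n s, S.h i j u⁆ := by
  classical
  have h := (S.h_diag hni.symm s).comm_h i j u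
  have he : ev i n i - ev i n j = 1 := by simp [ev, hni.symm, hij.symm, hnj.symm]
  rw [he, zpow_one] at h
  exact h.symm

theorem sym_mul_left [Big I] {i j : I} (hij : i ≠ j) (s s' u : Rˣ) :
    S.sym i j (s * s') u = S.sym i j s u * S.sym i j s' u := by
  classical
  obtain ⟨n, hni, hnj, -, -⟩ := Big.ex i j i j
  have he : ev i n i - ev i n j = 1 := by simp [ev, hni.symm, hij.symm, hnj.symm]
  have hw : ∀ t v : Rˣ, S.h i n t * S.w i j v * (S.h i n t)⁻¹ = S.w i j (t * v) := by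
    intro t v
    have h := (S.h_diag hni.symm t).conj_w i j v
    rwa [he, zpow_one] at h
  have hh : ∀ t v : Rˣ, S.h i n t * S.h i j v * (S.h i n t)⁻¹ = S.sym i j t v * S.h i j v := by
    intro t v
    have h := (S.h_diag hni.symm t).conj_h i j v
    rwa [he, zpow_one] at h
  have hc : Commute (S.sym i j s' u) (S.h i n s) := (S.sym_cen hij s' u).h i n s
  have hc' : Commute (S.sym i j s' u) (S.sym i j s u) := (S.sym_cen hij s' u).sym i j s u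
  have e1 : S.h i n s * (S.h i n s' * S.h i j u * (S.h i n s')⁻¹) * (S.h i n s)⁻¹ =
      S.sym i j s u * S.sym i j s' u * S.h i j u := by
    rw [hh, ← hc'.eq, mul_assoc (S.sym i j s' u), ← hh s, ← mul_assoc (S.h i n s), ← hc.eq]
    group
  have e2 : S.h i n s * (S.h i n s' * S.h i j u * (S.h i n s')⁻¹) * (S.h i n s)⁻¹ =
      S.sym i j (s * s') u * S.h i j u := by
    rw [← hh]
    have a1 : ∀ t : Rˣ, S.h i n t * S.h i j u * (S.h i n t)⁻¹ =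
        S.w i j (t * u) * S.w i j (t * (-1)) := by
      intro t
      rw [← hw, ← hw]
      simp only [Sys.h]
      group
    rw [a1, a1, mul_assoc s s', mul_assoc s s', ← hw s, ← hw s]
    group
  exact mul_right_cancel (e2.symm.trans e1)

theorem sym_swap [Big I] {i j : I} (hij : i ≠ j) (s u : Rˣ) :
    S.sym i j s u = (S.sym i j u s)⁻¹ := by
  obtain ⟨n, hni, hnj, -, -⟩ := Big.ex i j i j
  rw [S.sym_indep hij hni.symm u s, S.sym_eq_comm hni.symm hij.symm hnj.symm u s,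
    S.sym_eq_comm hij hni hnj s u, commutatorElement_inv]

theorem sym_zpow_left [Big I] {i j : I} (hij : i ≠ j) (s u : Rˣ) (n : ℤ) :
    S.sym i j (s ^ n) u = S.sym i j s u ^ n :=
  map_zpow (MonoidHom.mk' (fun t : Rˣ => S.sym i j t u) (fun a b => S.sym_mul_left hij a b u)) s n

/-- W4b. The Steinberg relation (Milnor, Lemma 9.8).  Hint: it suffices to show
`w(v) w(-1) w(u) = w(u v)`.  `w i j (-1) = w j i 1 = x_ji(1) x_ij(-1) x_ji(1)` by `w_swap`;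
`w(v) x_ji(1) = x_ij(-v²) w(v)` and `x_ji(1) w(u) = w(u) x_ij(-u²)` by `w_X_qp` and `w_inv`;
expand `w(v)`, `w(u)`, merge with `X_add`: `x_ij(v - v²) x_ji(-v⁻¹) x_ij(v - 1 + u) x_ji(-u⁻¹)
x_ij(u - u²) = x_ij(uv) x_ji(-(uv)⁻¹) x_ij(uv)`. -/
theorem sym_steinberg [Big I] {i j : I} (hij : i ≠ j) {u v : Rˣ} (huv : (u : R) + v = 1) :
    S.sym i j u v = 1 := by
  have h1 : S.w i j (-1) = S.X j i 1 * S.X i j (-1) * S.X j i 1 := by
    rw [S.w_swap hij]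
    simp [w]
  have h2 : S.w i j v * S.X j i 1 = S.X i j (-((v : R) * v)) * S.w i j v := by
    have := S.w_X_qp hij v 1
    rw [mul_one] at this
    rw [← this]; group
  have h3 : S.X j i 1 * S.w i j u = S.w i j u * S.X i j (-((u : R) * u)) := by
    have := S.w_X_qp hij (-u) 1
    rw [← S.w_inv, mul_one, Units.val_neg, neg_mul_neg] at this
    rw [← this]; group
  have hu := u.mul_inv
  have hv := v.mul_inv
  have e1 : -((v : R) * v) + v = ((u * v : Rˣ) : R) := by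
    rw [Units.val_mul]; linear_combination (-(v : R)) * huv
  have e2 : (v : R) + -1 + u = 0 := by linear_combination huv
  have e3 : -((v⁻¹ : Rˣ) : R) + -((u⁻¹ : Rˣ) : R) = -(((u * v)⁻¹ : Rˣ) : R) := by
    rw [mul_inv, Units.val_mul]
    linear_combination (-((u⁻¹ : Rˣ) : R) * ((v⁻¹ : Rˣ) : R)) * huv +
      ((v⁻¹ : Rˣ) : R) * hu + ((u⁻¹ : Rˣ) : R) * hv
  have e4 : (u : R) + -((u : R) * u) = ((u * v : Rˣ) : R) := by
    rw [Units.val_mul]; linear_combination (-(u : R)) * huv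
  have key : S.w i j v * S.w i j (-1) * S.w i j u = S.w i j (u * v) := by
    calc S.w i j v * S.w i j (-1) * S.w i j u
        = (S.w i j v * S.X j i 1) * S.X i j (-1) * (S.X j i 1 * S.w i j u) := by rw [h1]; group
      _ = (S.X i j (-((v : R) * v)) * S.X i j v) * S.X j i (-((v⁻¹ : Rˣ) : R)) *
            (S.X i j v * S.X i j (-1) * S.X i j u) * S.X j i (-((u⁻¹ : Rˣ) : R)) *
            (S.X i j u * S.X i j (-((u : R) * u))) := by
          rw [h2, h3]; simp only [w, mul_assoc]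
      _ = S.w i j (u * v) := by
          rw [S.X_add, S.X_add, S.X_add, S.X_add, e1, e2, e4, S.X_zero, mul_one,
            mul_assoc (S.X i j _), S.X_add, e3]
          rfl
  rw [sym, h, h, h, ← key]
  group

variable {S} in
/-- W4c. Hint: `Diag.comm_h`; `(w ^ 5) ^ (2 : ℤ) = (-w) ^ (10 : ℤ)`, `sym_zpow_left`,
`sym_steinberg` for `-w` and `c`; `commutatorElement_eq_one_iff_commute`. -/
theorem Diag.commute_h_two [Big I] {g : G} {w c : Rˣ} (hc : (c : R) = 1 + w) {α : I → ℤ}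
    (hg : S.Diag g (w ^ 5) α) {k l : I} (hkl : k ≠ l) (hα : α k - α l = 2) :
    Commute g (S.h k l c) := by
  rw [← commutatorElement_eq_one_iff_commute, hg.comm_h, hα]
  have e : (w ^ 5) ^ (2 : ℤ) = (-w) ^ (10 : ℤ) := by
    rw [show (2 : ℤ) = ((2 : ℕ) : ℤ) from rfl, show (10 : ℤ) = ((10 : ℕ) : ℤ) from rfl,
      zpow_natCast, zpow_natCast, ← pow_mul, Even.neg_pow (by decide)]
  rw [e, S.sym_zpow_left hkl, S.sym_steinberg hkl (by rw [hc, Units.val_neg]; ring), one_zpow]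

/-- W4d. Hint: with `W = x_ji(-y/u) x_ij(-a) x_ji(y) x_ij(a/u)`: write
`x_ji(y) = x_ij(y⁻¹) w(-y⁻¹) x_ij(y⁻¹)`, `y⁻¹ - a = u/y`, `y⁻¹ + a/u = 1/(y u)`,
`x_ji(-y/u) x_ij(u/y) = x_ij(-u/y) w(u/y)`; so `W = x_ij(-u/y) w(u/y) w(-1/y) x_ij(1/(y u))`;
`w(u/y) w(-1/y)` conjugates `x_ij(1/(y u))` to `x_ij(u/y)` (`w_X_pq`, `w_X_qp`), hence
`W = w(y⁻¹ u) w(-y⁻¹) = h(y⁻¹ u) h(y⁻¹)⁻¹` (`w_inv`). -/
theorem ds_eq_sym [Big I] {i j : I} (hij : i ≠ j) {a : R} {y u : Rˣ}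
    (hu : (u : R) = 1 - a * y) : S.ds i j a y u = S.sym i j y⁻¹ u := by
  have hv : (u : R) * ((u⁻¹ : Rˣ) : R) = 1 := u.mul_inv
  have hy : (y : R) * ((y⁻¹ : Rˣ) : R) = 1 := y.mul_inv
  have e1 : S.X j i y = S.X i j ((y⁻¹ : Rˣ) : R) * S.w i j (-y⁻¹) * S.X i j ((y⁻¹ : Rˣ) : R) := by
    have h0 : S.X i j ((y⁻¹ : Rˣ) : R) * S.X i j ((-y⁻¹ : Rˣ) : R) = 1 := by
      rw [S.X_add]; simp
    have h1 : S.X i j ((-y⁻¹ : Rˣ) : R) * S.X i j ((y⁻¹ : Rˣ) : R) = 1 := by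
      rw [S.X_add]; simp
    have h2 : -((((-y⁻¹ : Rˣ))⁻¹ : Rˣ) : R) = y := by simp
    rw [w, h2]
    calc _ = (S.X i j ((y⁻¹ : Rˣ) : R) * S.X i j ((-y⁻¹ : Rˣ) : R)) * S.X j i y *
        (S.X i j ((-y⁻¹ : Rˣ) : R) * S.X i j ((y⁻¹ : Rˣ) : R)) := by rw [h0, h1]; group
      _ = _ := by group
  have e2 : S.X j i (-((y : R) * ((u⁻¹ : Rˣ) : R))) * S.X i j ((y⁻¹ * u : Rˣ) : R) =
      (S.X i j ((y⁻¹ * u : Rˣ) : R))⁻¹ * S.w i j (y⁻¹ * u) := by
    have h2 : (((y⁻¹ * u : Rˣ)⁻¹ : Rˣ) : R) = (y : R) * ((u⁻¹ : Rˣ) : R) := by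
      rw [mul_inv_rev, inv_inv, Units.val_mul, mul_comm]
    rw [w, h2]
    group
  have e3 : S.X i j (-a) * S.X i j ((y⁻¹ : Rˣ) : R) = S.X i j ((y⁻¹ * u : Rˣ) : R) := by
    rw [S.X_add, Units.val_mul]
    congr 1
    linear_combination (-((y⁻¹ : Rˣ) : R)) * hu + a * hy
  have e4 : S.w i j (y⁻¹ * u) * S.w i j (-y⁻¹) *
      (S.X i j ((y⁻¹ : Rˣ) : R) * S.X i j (a * ((u⁻¹ : Rˣ) : R))) *
      (S.w i j (y⁻¹ * u) * S.w i j (-y⁻¹))⁻¹ = S.X i j ((y⁻¹ * u : Rˣ) : R) := by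
    rw [S.X_add]
    calc _ = S.w i j (y⁻¹ * u) * (S.w i j (-y⁻¹) *
        S.X i j (((y⁻¹ : Rˣ) : R) + a * ((u⁻¹ : Rˣ) : R)) * (S.w i j (-y⁻¹))⁻¹) *
        (S.w i j (y⁻¹ * u))⁻¹ := by group
      _ = _ := by
        rw [S.w_X_pq hij, S.w_X_qp hij]
        congr 1
        simp only [inv_neg, inv_inv, Units.val_neg, Units.val_mul]
        grind
  have e5 : S.X j i (-((y : R) * ((u⁻¹ : Rˣ) : R))) * S.X i j (-a) * S.X j i y *
      S.X i j (a * ((u⁻¹ : Rˣ) : R)) = S.w i j (y⁻¹ * u) * S.w i j (-y⁻¹) := by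
    calc _ = S.X j i (-((y : R) * ((u⁻¹ : Rˣ) : R))) * (S.X i j (-a) * S.X i j ((y⁻¹ : Rˣ) : R)) *
          S.w i j (-y⁻¹) * (S.X i j ((y⁻¹ : Rˣ) : R) * S.X i j (a * ((u⁻¹ : Rˣ) : R))) := by
          conv_lhs => rw [e1]
          group
      _ = (S.X i j ((y⁻¹ * u : Rˣ) : R))⁻¹ * (S.w i j (y⁻¹ * u) * S.w i j (-y⁻¹) *
          (S.X i j ((y⁻¹ : Rˣ) : R) * S.X i j (a * ((u⁻¹ : Rˣ) : R))) *
          (S.w i j (y⁻¹ * u) * S.w i j (-y⁻¹))⁻¹) * (S.w i j (y⁻¹ * u) * S.w i j (-y⁻¹)) := by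
          rw [e3, e2]
          group
      _ = _ := by rw [e4]; group
  rw [ds, e5, sym]
  congr 1
  rw [h, h, ← S.w_inv i j y⁻¹]
  group

/-- W4c. Hint: `classical`; `ds_eq_sym`, `sym_zpow_left` (`n = -1`, `n = 2`), `sym_swap`,
`h_diag` + `Diag.comm_h` (exponent `2`). -/
theorem ds_sq [Big I] {i j : I} (hij : i ≠ j) {a : R} {y u : Rˣ}
    (hu : (u : R) = 1 - a * y) : S.ds i j a y u ^ 2 = ⁅S.h i j u, S.h i j y⁆ := by
  classical
  have e : ev i j i - ev i j j = 2 := by simp [ev, hij, hij.symm]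
  rw [S.ds_eq_sym hij hu, (S.h_diag hij u).comm_h, e, S.sym_zpow_left hij, ← zpow_neg_one y,
    S.sym_zpow_left hij, S.sym_swap hij u y, zpow_neg_one,
    show (2 : ℤ) = ((2 : ℕ) : ℤ) from rfl, zpow_natCast]

end Sys

end Crest.Agent.R171
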